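import Vale.Agent.P046.Basic

/-! Basic facts on the belief propagation iterates and the comparison sequence. -/

namespace Vale.Agent.P046

open Finset Real
open scoped Classical

noncomputable section

variable {V : Type} [Fintype V]

/-- cumulative hazard of the homogeneous solution -/
def sg (D : ℝ) (K : ℕ) : ℕ → ℝ
  | 0 => 0
  | j + 1 => sg D K j + D * exp (-sg D K j) ^ 2 / K

/-- homogeneous survival probability -/
def pp (D : ℝ) (K j : ℕ) : ℝ := exp (-sg D K j)

/-- hazard increment -/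
def yy (D : ℝ) (K j : ℕ) : ℝ := D * pp D K j ^ 2 / K

/-- relative codegree deviation -/
def rr (G : SimpleGraph V) (D : ℝ) (a b : V) : ℝ := Y G a b / D - 1

/-- first order correction -/
def chi (G : SimpleGraph V) (D : ℝ) (K j : ℕ) (a b : V) : ℝ := exp (-(sg D K j * rr G D a b))

/-- the fixed point -/
def fx (G : SimpleGraph V) (K j : ℕ) (a b c : V) : ℝ := W G K K j a b c

/-- probability that the triangle with apex `x` has fired -/
def II (G : SimpleGraph V) (K j : ℕ) (a b x : V) : ℝ :=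
  (∑ i ∈ range j, fx G K i a x b * fx G K i b x a) / K

/-- standing hypotheses of the sparse phase -/
structure Hyp (G : SimpleGraph V) (D Λ : ℝ) (K : ℕ) : Prop where
  hΛ : 10 ^ 5 ≤ Λ
  hD : 0 < D
  hlog : log D ≤ Λ
  hbig : 10 ^ 9 * log Λ ^ 2 ≤ log D
  hK : D ^ 3 ≤ K
  hr : ∀ a b, G.Adj a b → (Y G a b / D - 1) ^ 2 ≤ Λ / D
  hb : ∀ a b, G.Adj a b → |X2 G a b / D ^ 2 - 2 * Y G a b / D| ≤ Λ / D

/-- output of the sup norm analysis -/
structure Cr (G : SimpleGraph V) (D Λ : ℝ) (K j₁ : ℕ) : Prop where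
  le : j₁ ≤ K
  sup : ∀ j ≤ j₁, ∀ a b c, G.Adj a b → fx G K j a b c ≤ 2 * pp D K j
  p1 : pp D K j₁ ^ 2 ≤ 2 * Λ ^ 7 / D
  crude : ∀ j ≤ K, ∀ a b c, G.Adj a b → fx G K j a b c ≤ Λ ^ 4 * pp D K j
  small : ∀ j ≤ K, ∀ a b, G.Adj a b → ∀ x ∈ nb G a b, II G K j a b x ≤ Λ ^ 8 / D

variable {G : SimpleGraph V} {D Λ : ℝ} {K : ℕ}

theorem W_succ (k j : ℕ) (a b c : V) : W G K (k + 1) j a b c = ∏ x ∈ (nb G a b).erase c,
    (1 - (∑ i ∈ range j, W G K k i a x b * W G K k i b x a) / K) := rfl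

theorem avg_mem {f : ℕ → ℝ} {j : ℕ} (hj : j ≤ K) (hf : ∀ i < j, 0 ≤ f i ∧ f i ≤ 1) :
    0 ≤ (∑ i ∈ range j, f i) / K ∧ (∑ i ∈ range j, f i) / K ≤ 1 := by
  refine ⟨div_nonneg (sum_nonneg fun i hi => (hf i (mem_range.1 hi)).1) (Nat.cast_nonneg _), ?_⟩
  refine div_le_one_of_le₀ ?_ (Nat.cast_nonneg _)
  refine (sum_le_sum fun i hi => (hf i (mem_range.1 hi)).2).trans ?_
  simpa using hj

theorem W_mem (k : ℕ) : ∀ {j : ℕ}, j ≤ K → ∀ a b c : V,
    0 ≤ W G K k j a b c ∧ W G K k j a b c ≤ 1 := by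
  induction k with
  | zero => intro j _ a b c; simp [W]
  | succ k ih =>
    intro j hj a b c
    have h : ∀ x, 0 ≤ (∑ i ∈ range j, W G K k i a x b * W G K k i b x a) / K ∧
        (∑ i ∈ range j, W G K k i a x b * W G K k i b x a) / K ≤ 1 := fun x =>
      avg_mem hj fun i hi => ⟨mul_nonneg (ih (by omega) _ _ _).1 (ih (by omega) _ _ _).1,
        mul_le_one₀ (ih (by omega) _ _ _).2 (ih (by omega) _ _ _).1 (ih (by omega) _ _ _).2⟩
    rw [W_succ]
    exact ⟨prod_nonneg fun x _ => by linarith [(h x).2],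
      prod_le_one (fun x _ => by linarith [(h x).2]) fun x _ => by linarith [(h x).1]⟩

theorem W_nonneg (k : ℕ) {j : ℕ} (hj : j ≤ K) (a b c : V) : 0 ≤ W G K k j a b c :=
  (W_mem k hj a b c).1

theorem W_le_one (k : ℕ) {j : ℕ} (hj : j ≤ K) (a b c : V) : W G K k j a b c ≤ 1 :=
  (W_mem k hj a b c).2

theorem Wavg_mem (k : ℕ) {j : ℕ} (hj : j ≤ K) (a b x : V) :
    0 ≤ (∑ i ∈ range j, W G K k i a x b * W G K k i b x a) / K ∧
      (∑ i ∈ range j, W G K k i a x b * W G K k i b x a) / K ≤ 1 :=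
  avg_mem hj fun i hi => ⟨mul_nonneg (W_nonneg k (by omega) _ _ _) (W_nonneg k (by omega) _ _ _),
    mul_le_one₀ (W_le_one k (by omega) _ _ _) (W_nonneg k (by omega) _ _ _)
      (W_le_one k (by omega) _ _ _)⟩

theorem W_anti (k : ℕ) {i j : ℕ} (hij : i ≤ j) (hj : j ≤ K) (a b c : V) :
    W G K k j a b c ≤ W G K k i a b c := by
  cases k with
  | zero => exact le_rfl
  | succ k =>
    rw [W_succ, W_succ]
    refine prod_le_prod (fun x _ => by linarith [(Wavg_mem (G := G) k hj a b x).2]) fun x _ => ?_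
    gcongr
    intro i' hi' _
    have := mem_range.1 hi'
    exact mul_nonneg (W_nonneg k (by omega) _ _ _) (W_nonneg k (by omega) _ _ _)

theorem W_comm (k j : ℕ) (a b c : V) : W G K k j a b c = W G K k j b a c := by
  cases k with
  | zero => rfl
  | succ k => simp only [W_succ, nb_comm a b, mul_comm]

theorem W_node (k j : ℕ) (a b : V) : W G K k j a b a = W G K k j b a b := by
  cases k with
  | zero => rfl
  | succ k =>
    rw [W_comm (k + 1) j b a b, W_succ, W_succ, erase_eq_of_notMem, erase_eq_of_notMem]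
    · exact fun h => G.irrefl (mem_nb.1 h).2
    · exact fun h => G.irrefl (mem_nb.1 h).1

theorem W_stab (k : ℕ) : ∀ {j : ℕ}, j ≤ k → ∀ a b c : V,
    W G K (k + 1) j a b c = W G K k j a b c := by
  induction k with
  | zero =>
    intro j hj a b c
    obtain rfl : j = 0 := by omega
    simp [W]
  | succ k ih =>
    intro j hj a b c
    rw [W_succ (k + 1), W_succ k]
    refine prod_congr rfl fun x _ => ?_
    congr 2
    refine sum_congr rfl fun i hi => ?_
    have := mem_range.1 hi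
    rw [ih (by omega), ih (by omega)]

theorem pi_eq {j : ℕ} (hj : j ≤ K) (a b c : V) :
    fx G K j a b c = ∏ x ∈ (nb G a b).erase c, (1 - II G K j a b x) := by
  rw [fx, ← W_stab K hj, W_succ]; rfl

theorem pi_nonneg {j : ℕ} (hj : j ≤ K) (a b c : V) : 0 ≤ fx G K j a b c := W_nonneg K hj a b c

theorem pi_le_one {j : ℕ} (hj : j ≤ K) (a b c : V) : fx G K j a b c ≤ 1 := W_le_one K hj a b c

theorem pi_anti {i j : ℕ} (hij : i ≤ j) (hj : j ≤ K) (a b c : V) :
    fx G K j a b c ≤ fx G K i a b c := W_anti K hij hj a b c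

theorem pi_comm (j : ℕ) (a b c : V) : fx G K j a b c = fx G K j b a c := W_comm K j a b c

theorem pi_node (j : ℕ) (a b : V) : fx G K j a b a = fx G K j b a b := W_node K j a b

theorem pi_zero (a b c : V) : fx G K 0 a b c = 1 := by
  rw [pi_eq (Nat.zero_le _)]; simp [II]

theorem II_mem {j : ℕ} (hj : j ≤ K) (a b x : V) : 0 ≤ II G K j a b x ∧ II G K j a b x ≤ 1 :=
  Wavg_mem K hj a b x

theorem II_succ (j : ℕ) (a b x : V) :
    II G K (j + 1) a b x = II G K j a b x + fx G K j a x b * fx G K j b x a / K := by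
  rw [II, sum_range_succ, add_div]; rfl

/-- node value and message value -/
theorem pi_node_eq {j : ℕ} (hj : j ≤ K) {a b x : V} (hx : x ∈ nb G a b) :
    fx G K j a b a = (1 - II G K j a b x) * fx G K j a b x := by
  rw [pi_eq hj, pi_eq hj, erase_eq_of_notMem fun h => G.irrefl (mem_nb.1 h).1,
    ← mul_prod_erase _ _ hx]

theorem pi_of_notMem {j : ℕ} (hj : j ≤ K) {a b c : V} (hc : c ∉ nb G a b) :
    fx G K j a b c = fx G K j a b a := by
  rw [pi_eq hj, pi_eq hj, erase_eq_of_notMem hc,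
    erase_eq_of_notMem fun h => G.irrefl (mem_nb.1 h).1]

theorem W_step_le {k : ℕ} (h : ∀ j ≤ K, ∀ a b c, fx G K j a b c ≤ W G K k j a b c) {j : ℕ}
    (hj : j ≤ K) (a b c : V) : W G K (k + 1) j a b c ≤ fx G K j a b c := by
  rw [pi_eq hj, W_succ]
  refine prod_le_prod (fun x _ => by linarith [(Wavg_mem (G := G) k hj a b x).2]) fun x _ => ?_
  rw [II]
  gcongr with i hi
  · exact pi_nonneg (by have := mem_range.1 hi; omega) _ _ _
  · exact W_nonneg k (by have := mem_range.1 hi; omega) _ _ _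
  · exact h i (by have := mem_range.1 hi; omega) _ _ _
  · exact h i (by have := mem_range.1 hi; omega) _ _ _

theorem W_step_ge {k : ℕ} (h : ∀ j ≤ K, ∀ a b c, W G K k j a b c ≤ fx G K j a b c) {j : ℕ}
    (hj : j ≤ K) (a b c : V) : fx G K j a b c ≤ W G K (k + 1) j a b c := by
  rw [pi_eq hj, W_succ]
  refine prod_le_prod (fun x _ => by linarith [(II_mem (G := G) hj a b x).2]) fun x _ => ?_
  rw [II]
  gcongr with i hi
  · exact W_nonneg k (by have := mem_range.1 hi; omega) _ _ _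
  · exact pi_nonneg (by have := mem_range.1 hi; omega) _ _ _
  · exact h i (by have := mem_range.1 hi; omega) _ _ _
  · exact h i (by have := mem_range.1 hi; omega) _ _ _

theorem pi_le_even (m : ℕ) : ∀ j ≤ K, ∀ a b c : V, fx G K j a b c ≤ W G K (2 * m) j a b c := by
  induction m with
  | zero => intro j hj a b c; exact pi_le_one hj a b c
  | succ m ih =>
    intro j hj a b c
    exact W_step_ge (k := 2 * m + 1) (fun j hj => W_step_le ih hj) hj a b c

theorem odd_le_pi (m : ℕ) : ∀ j ≤ K, ∀ a b c : V, W G K (2 * m + 1) j a b c ≤ fx G K j a b c :=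
  fun _ hj => W_step_le (pi_le_even m) hj

/-! ### the comparison sequence -/

theorem sg_succ (j : ℕ) : sg D K (j + 1) = sg D K j + yy D K j := rfl

theorem pp_pos (j : ℕ) : 0 < pp D K j := exp_pos _

theorem chi_pos (j : ℕ) (a b : V) : 0 < chi G D K j a b := exp_pos _

theorem rr_comm (a b : V) : rr G D a b = rr G D b a := by rw [rr, rr, Y_comm]

theorem chi_comm (j : ℕ) (a b : V) : chi G D K j a b = chi G D K j b a := by
  rw [chi, chi, rr_comm]

theorem sum_yy (j : ℕ) : ∑ i ∈ range j, yy D K i = sg D K j := by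
  induction j with
  | zero => rfl
  | succ j ih => rw [sum_range_succ, ih, sg_succ]

theorem pp_sq_mul (j : ℕ) : pp D K j ^ 2 * exp (2 * sg D K j) = 1 := by
  rw [pp, ← exp_nat_mul, ← exp_add]; simp

namespace Hyp

variable (H : Hyp G D Λ K)
include H

theorem Λ_pos : 0 < Λ := by linarith [H.hΛ]

theorem one_le_Λ : 1 ≤ Λ := by linarith [H.hΛ]

theorem one_le_logΛ : 1 ≤ log Λ := by
  rw [le_log_iff_exp_le H.Λ_pos]
  linarith [exp_one_lt_d9, H.hΛ]

theorem pow_le_D : Λ ^ 100 ≤ D := by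
  rw [← log_le_log_iff (pow_pos H.Λ_pos _) H.hD, log_pow]
  have := H.one_le_logΛ
  have := H.hbig
  push_cast
  nlinarith

theorem Λ_le_D : Λ ≤ D :=
  (le_self_pow₀ H.one_le_Λ (by norm_num)).trans H.pow_le_D

theorem D_ge : 10 ^ 5 ≤ D := H.hΛ.trans H.Λ_le_D

theorem K_pos : 0 < K := by
  have := H.hK
  have := pow_pos H.hD 3
  exact_mod_cast (show (0 : ℝ) < K by linarith)

theorem K_pos' : (0 : ℝ) < K := by exact_mod_cast H.K_pos

theorem yy_pos (j : ℕ) : 0 < yy D K j :=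
  div_pos (mul_pos H.hD (pow_pos (pp_pos j) 2)) H.K_pos'

theorem sg_mono : Monotone (sg D K) :=
  monotone_nat_of_le_succ fun j => by rw [sg_succ]; linarith [H.yy_pos j]

theorem sg_nonneg (j : ℕ) : 0 ≤ sg D K j := H.sg_mono (Nat.zero_le j)

theorem pp_le_one (j : ℕ) : pp D K j ≤ 1 := exp_le_one_iff.2 (by linarith [H.sg_nonneg j])

theorem pp_anti {i j : ℕ} (h : i ≤ j) : pp D K j ≤ pp D K i :=
  exp_le_exp.2 (neg_le_neg (H.sg_mono h))

theorem DK_le : D / K ≤ 1 / D ^ 2 := by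
  rw [div_le_div_iff₀ H.K_pos' (pow_pos H.hD 2)]
  nlinarith [H.hK]

theorem yy_le (j : ℕ) : yy D K j ≤ 1 / D ^ 2 := by
  refine le_trans ?_ H.DK_le
  rw [yy]
  refine div_le_div_of_nonneg_right ?_ H.K_pos'.le
  exact mul_le_of_le_one_right H.hD.le (pow_le_one₀ (pp_pos j).le (H.pp_le_one j))

theorem inv_sq_le : 1 / D ^ 2 ≤ 1 / 10 ^ 10 := by
  have := H.D_ge
  exact one_div_le_one_div_of_le (by norm_num) (by nlinarith)

theorem yy_mul_exp (j : ℕ) : yy D K j * exp (2 * sg D K j) = D / K := by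
  rw [yy, div_mul_eq_mul_div, mul_assoc, pp_sq_mul, mul_one]

theorem le_exp_sg (j : ℕ) : 1 + 2 * D * j / K ≤ exp (2 * sg D K j) := by
  induction j with
  | zero => simp [sg]
  | succ j ih =>
    rw [sg_succ, mul_add, exp_add]
    have h1 := add_one_le_exp (2 * yy D K j)
    have h2 := H.yy_mul_exp j
    have h3 := exp_pos (2 * sg D K j)
    have h4 : 2 * D * ((j + 1 : ℕ) : ℝ) / K = 2 * D * j / K + 2 * (D / K) := by
      push_cast; ring
    nlinarith

theorem exp_sg_succ_le (j : ℕ) :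
    exp (2 * sg D K (j + 1)) ≤ exp (2 * sg D K j) + 2 * (D / K) * (1 + 2 / D ^ 2) := by
  rw [sg_succ, mul_add, exp_add]
  have hy := H.yy_le j
  have hy0 := H.yy_pos j
  have hi := H.inv_sq_le
  have h1 : exp (2 * yy D K j) ≤ 1 + 2 * yy D K j + (2 * yy D K j) ^ 2 := by
    have := abs_exp_sub_one_sub_id_le (x := 2 * yy D K j) (by rw [abs_of_pos (by linarith)]; linarith)
    linarith [(abs_le.1 this).2]
  have h2 := H.yy_mul_exp j
  have h3 := exp_pos (2 * sg D K j)
  have h5 : 0 < D / K := div_pos H.hD H.K_pos'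
  calc exp (2 * sg D K j) * exp (2 * yy D K j)
      ≤ exp (2 * sg D K j) * (1 + 2 * yy D K j + (2 * yy D K j) ^ 2) := by gcongr
    _ = exp (2 * sg D K j) + 2 * (D / K) * (1 + 2 * yy D K j) := by rw [← h2]; ring
    _ ≤ _ := by
      gcongr
      rw [div_eq_mul_one_div 2]; linarith

theorem exp_sg_le (j : ℕ) : exp (2 * sg D K j) ≤ 1 + 2 * D * j / K * (1 + 2 / D ^ 2) := by
  induction j with
  | zero => simp [sg]
  | succ j ih =>
    have := H.exp_sg_succ_le j
    have h4 : 2 * D * ((j + 1 : ℕ) : ℝ) / K = 2 * D * j / K + 2 * (D / K) := by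
      push_cast; ring
    rw [h4]; linarith

theorem exp_sg_K_ge : 1 + 2 * D ≤ exp (2 * sg D K K) := by
  have := H.le_exp_sg K
  rwa [mul_div_assoc, div_self H.K_pos'.ne', mul_one] at this

theorem exp_sg_K_le : exp (2 * sg D K K) ≤ 2 * D + 2 := by
  have := H.exp_sg_le K
  rw [mul_div_assoc, div_self H.K_pos'.ne', mul_one] at this
  have h1 := H.D_ge
  have h2 : 2 * D * (2 / D ^ 2) = 4 / D := by field_simp [H.hD.ne']; norm_num
  have h3 : 4 / D ≤ 1 := by rw [div_le_one H.hD]; linarith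
  nlinarith

theorem exp_sg_le_four {j : ℕ} (hj : j ≤ K) : exp (2 * sg D K j) ≤ 4 * D := by
  have := H.exp_sg_K_le
  have := H.D_ge
  have := exp_le_exp.2 (mul_le_mul_of_nonneg_left (H.sg_mono hj) (by norm_num : (0 : ℝ) ≤ 2))
  linarith

theorem sg_le_log {j : ℕ} (hj : j ≤ K) : sg D K j ≤ log D := by
  have h1 := H.exp_sg_le_four hj
  have h2 := H.D_ge
  have : exp (2 * sg D K j) ≤ exp (2 * log D) := by
    rw [two_mul (log D), exp_add, exp_log H.hD]; nlinarith
  linarith [exp_le_exp.1 this]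

theorem sg_le {j : ℕ} (hj : j ≤ K) : sg D K j ≤ Λ := (H.sg_le_log hj).trans H.hlog

theorem le_pp_sq {j : ℕ} (hj : j ≤ K) : 1 / (4 * D) ≤ pp D K j ^ 2 := by
  rw [div_le_iff₀ (by linarith [H.hD]), ← pp_sq_mul (D := D) (K := K) j]
  gcongr
  exact H.exp_sg_le_four hj

/-- telescoping bound -/
theorem sum_yy_exp {c : ℝ} (hc : 0 < c) (j : ℕ) :
    ∑ i ∈ range j, yy D K i * exp (c * sg D K i) ≤ exp (c * sg D K j) / c := by
  rw [le_div_iff₀ hc]
  induction j with
  | zero => simp [sg]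
  | succ j ih =>
    rw [sum_range_succ, sg_succ, mul_add, exp_add, add_mul]
    have h1 := add_one_le_exp (c * yy D K j)
    have h3 := exp_pos (c * sg D K j)
    nlinarith

theorem rr_abs {a b : V} (hab : G.Adj a b) : |rr G D a b| ≤ 1 / Λ ^ 49 := by
  have h1 := H.hr a b hab
  have h2 := H.pow_le_D
  have h3 := H.Λ_pos
  have h4 : Λ / D ≤ (1 / Λ ^ 49) ^ 2 := by
    rw [div_pow, one_pow, div_le_div_iff₀ H.hD (by positivity), one_mul]
    refine le_trans ?_ h2
    rw [← pow_mul, ← pow_succ']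
    exact pow_le_pow_right₀ H.one_le_Λ (by norm_num)
  exact abs_le_of_sq_le_sq' (h1.trans h4) (by positivity) |> abs_le.2

theorem inv_pow_le (k : ℕ) (hk : k ≠ 0) : 1 / Λ ^ k ≤ 1 / 10 ^ 5 :=
  one_div_le_one_div_of_le (by norm_num) (H.hΛ.trans (le_self_pow₀ H.one_le_Λ hk))

theorem Y_le {a b : V} (hab : G.Adj a b) : Y G a b ≤ 2 * D := by
  have h1 := (abs_le.1 (H.rr_abs hab)).2
  have h2 := H.inv_pow_le 49 (by norm_num)
  rw [rr] at h1
  have : Y G a b / D ≤ 2 := by linarith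
  rwa [div_le_iff₀ H.hD] at this

theorem sg_rr_abs {j : ℕ} (hj : j ≤ K) {a b : V} (hab : G.Adj a b) :
    |sg D K j * rr G D a b| ≤ 1 / Λ ^ 48 := by
  rw [abs_mul, abs_of_nonneg (H.sg_nonneg j)]
  have h3 := H.Λ_pos
  calc sg D K j * |rr G D a b| ≤ Λ * (1 / Λ ^ 49) :=
        mul_le_mul (H.sg_le hj) (H.rr_abs hab) (abs_nonneg _) h3.le
    _ = 1 / Λ ^ 48 := by field_simp

theorem chi_abs {j : ℕ} (hj : j ≤ K) {a b : V} (hab : G.Adj a b) :
    |chi G D K j a b - 1| ≤ 2 / Λ ^ 48 := by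
  have h1 := H.sg_rr_abs hj hab
  have h2 := H.inv_pow_le 48 (by norm_num)
  have := abs_exp_sub_one_le (x := -(sg D K j * rr G D a b)) (by rw [abs_neg]; linarith)
  rw [abs_neg] at this
  rw [chi, div_eq_mul_one_div 2]
  linarith

theorem chi_le {j : ℕ} (hj : j ≤ K) {a b : V} (hab : G.Adj a b) :
    chi G D K j a b ≤ 101 / 100 := by
  have h1 := (abs_le.1 (H.chi_abs hj hab)).2
  have h2 := H.inv_pow_le 48 (by norm_num)
  rw [div_eq_mul_one_div 2] at h1
  linarith

theorem le_chi {j : ℕ} (hj : j ≤ K) {a b : V} (hab : G.Adj a b) :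
    99 / 100 ≤ chi G D K j a b := by
  have h1 := (abs_le.1 (H.chi_abs hj hab)).1
  have h2 := H.inv_pow_le 48 (by norm_num)
  rw [div_eq_mul_one_div 2] at h1
  linarith

/-- second order expansion of the corrected codegree -/
theorem sum_chi {j : ℕ} (hj : j ≤ K) {a b : V} (hab : G.Adj a b) :
    |(∑ x ∈ nb G a b, chi G D K j a x * chi G D K j b x) / D - (1 + rr G D a b)| ≤
      9 * Λ ^ 3 / D := by
  have hD := H.hD
  have hΛ := H.one_le_Λ
  set s := sg D K j with hs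
  have hs0 : 0 ≤ s := H.sg_nonneg j
  have hs1 : s ≤ Λ := H.sg_le hj
  have h1 : ∀ x ∈ nb G a b, |chi G D K j a x * chi G D K j b x -
      (1 - s * (rr G D a x + rr G D b x))| ≤ 4 * Λ ^ 3 / D := by
    intro x hx
    have ha := H.sg_rr_abs hj (mem_nb.1 hx).1
    have hb := H.sg_rr_abs hj (mem_nb.1 hx).2
    have h2 := H.inv_pow_le 48 (by norm_num)
    have ha2 : rr G D a x ^ 2 ≤ Λ / D := H.hr _ _ (mem_nb.1 hx).1
    have hb2 : rr G D b x ^ 2 ≤ Λ / D := H.hr _ _ (mem_nb.1 hx).2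
    have e : chi G D K j a x * chi G D K j b x = exp (-(s * (rr G D a x + rr G D b x))) := by
      rw [chi, chi, ← exp_add]; congr 1; ring
    have h3 := abs_exp_sub_one_sub_id_le (x := -(s * (rr G D a x + rr G D b x))) (by
      rw [abs_neg, mul_add]
      linarith [abs_add_le (s * rr G D a x) (s * rr G D b x)])
    rw [e]
    refine le_trans (le_of_eq (by congr 1; ring)) (h3.trans ?_)
    have h4 : (rr G D a x + rr G D b x) ^ 2 ≤ 4 * (Λ / D) := by
      nlinarith [sq_nonneg (rr G D a x - rr G D b x)]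
    calc (-(s * (rr G D a x + rr G D b x))) ^ 2 = s ^ 2 * (rr G D a x + rr G D b x) ^ 2 := by ring
      _ ≤ Λ ^ 2 * (4 * (Λ / D)) := by gcongr
      _ = 4 * Λ ^ 3 / D := by ring
  have h2 : ∑ x ∈ nb G a b, (1 - s * (rr G D a x + rr G D b x)) =
      D * (1 + rr G D a b) - s * D * (X2 G a b / D ^ 2 - 2 * Y G a b / D) := by
    have : ∑ x ∈ nb G a b, (1 - s * (rr G D a x + rr G D b x)) =
        ∑ x ∈ nb G a b, (1 + 2 * s - s / D * (Y G a x + Y G b x)) :=
      sum_congr rfl fun x _ => by simp only [rr]; ring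
    rw [this, sum_sub_distrib, ← mul_sum, sum_const, nsmul_eq_mul]
    change Y G a b * _ - s / D * X2 G a b = _
    simp only [rr]; field_simp; ring
  have h3 := (abs_sum_le_sum_abs _ _).trans (sum_le_sum h1)
  rw [sum_sub_distrib, h2, sum_const, nsmul_eq_mul] at h3
  change _ ≤ Y G a b * _ at h3
  have h4 := H.Y_le hab
  have h5 := H.hb a b hab
  set Z := ∑ x ∈ nb G a b, chi G D K j a x * chi G D K j b x
  set β := X2 G a b / D ^ 2 - 2 * Y G a b / D
  have h6 : Y G a b * (4 * Λ ^ 3 / D) ≤ 8 * Λ ^ 3 := by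
    calc Y G a b * (4 * Λ ^ 3 / D) ≤ 2 * D * (4 * Λ ^ 3 / D) := by gcongr
      _ = 8 * Λ ^ 3 := by field_simp; ring
  have h7 : |s * D * β| ≤ Λ ^ 3 := by
    rw [abs_mul, abs_of_nonneg (mul_nonneg hs0 hD.le)]
    calc s * D * |β| ≤ Λ * D * (Λ / D) := by gcongr
      _ = Λ ^ 2 := by field_simp
      _ ≤ Λ ^ 3 := pow_le_pow_right₀ hΛ (by norm_num)
  have e : Z / D - (1 + rr G D a b) =
      ((Z - (D * (1 + rr G D a b) - s * D * β)) - s * D * β) / D := by field_simp; ring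
  rw [e, abs_div, abs_of_pos hD]
  refine div_le_div_of_nonneg_right ?_ hD.le
  linarith [abs_sub (Z - (D * (1 + rr G D a b) - s * D * β)) (s * D * β)]

end Hyp

end

end Vale.Agent.P046
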