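import Vale.Agent.P046.Defs

/-! Shared definitions and counting lemmas for the triangle removal project. -/

namespace Vale.Agent.P046

open Finset
open scoped Classical

noncomputable section

variable {V : Type} [Fintype V]

/-- common neighbourhood -/
def nb (G : SimpleGraph V) (a b : V) : Finset V := univ.filter fun x => G.Adj a x ∧ G.Adj b x

/-- codegree -/
def Y (G : SimpleGraph V) (a b : V) : ℝ := (nb G a b).card

/-- the strip operator -/
def B (G : SimpleGraph V) (f : V → V → ℝ) (a b : V) : ℝ := ∑ x ∈ nb G a b, (f a x + f b x)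

/-- strips of length two -/
def X2 (G : SimpleGraph V) : V → V → ℝ := B G (Y G)

/-- strips of length three -/
def X3 (G : SimpleGraph V) : V → V → ℝ := B G (X2 G)

/-- triple codegree -/
def N3 (G : SimpleGraph V) (a b y : V) : ℝ :=
  (univ.filter fun x => G.Adj a x ∧ G.Adj b x ∧ G.Adj y x).card

/-- generator of the process -/
def gen (F : SimpleGraph V → ℝ) (G : SimpleGraph V) : ℝ := ∑ T ∈ tri G, (F (rem G T) - F G)

/-- all codegrees are close to `1 / τ` -/
def Reg (G : SimpleGraph V) (τ η : ℝ) : Prop := ∀ a b, a ≠ b → |τ * Y G a b - 1| ≤ η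

/-- ordered edges -/
def darts (G : SimpleGraph V) : Finset (V × V) := univ.filter fun e => G.Adj e.1 e.2

/-- number of ordered edges -/
def dc (G : SimpleGraph V) : ℝ := (darts G).card

/-- removing `T` destroys the common neighbour `x` of `a` and `b` -/
def hit (a b x : V) (T : Finset V) : Prop := x ∈ T ∧ (a ∈ T ∨ b ∈ T)

variable {G : SimpleGraph V}

theorem mem_nb {a b x : V} : x ∈ nb G a b ↔ G.Adj a x ∧ G.Adj b x := by simp [nb]

theorem nb_comm (a b : V) : nb G a b = nb G b a := by ext x; simp [mem_nb, and_comm]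

theorem Y_comm (a b : V) : Y G a b = Y G b a := by rw [Y, Y, nb_comm]

theorem B_comm (f : V → V → ℝ) (a b : V) : B G f a b = B G f b a := by
  simp only [B, nb_comm a b, add_comm]

theorem Y_nonneg (a b : V) : 0 ≤ Y G a b := Nat.cast_nonneg _

theorem N3_nonneg (a b y : V) : 0 ≤ N3 G a b y := Nat.cast_nonneg _

theorem mem_tri {T : Finset V} : T ∈ tri G ↔ G.IsNClique 3 T := by simp [tri]

theorem mem_darts {e : V × V} : e ∈ darts G ↔ G.Adj e.1 e.2 := by simp [darts]

theorem card_of_mem_tri {T : Finset V} (h : T ∈ tri G) : T.card = 3 := (mem_tri.1 h).card_eq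

theorem adj_of_mem_tri {T : Finset V} (h : T ∈ tri G) {u v : V} (hu : u ∈ T) (hv : v ∈ T)
    (huv : u ≠ v) : G.Adj u v := (mem_tri.1 h).isClique hu hv huv

theorem triple_mem_tri {a b x : V} (hab : G.Adj a b) (hx : x ∈ nb G a b) :
    ({a, b, x} : Finset V) ∈ tri G :=
  mem_tri.2 (SimpleGraph.is3Clique_triple_iff.2 ⟨hab, (mem_nb.1 hx).1, (mem_nb.1 hx).2⟩)

omit [Fintype V] in
theorem rem_adj {T : Finset V} {u v : V} :
    (rem G T).Adj u v ↔ G.Adj u v ∧ ¬ (u ∈ T ∧ v ∈ T) := Iff.rfl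

omit [Fintype V] in
theorem rem_le (G : SimpleGraph V) (T : Finset V) : rem G T ≤ G := fun _ _ h => h.1

theorem nb_rem (T : Finset V) (a b : V) :
    nb (rem G T) a b = (nb G a b).filter fun x => ¬ hit a b x T := by
  ext x
  rw [mem_filter]
  simp only [mem_nb, rem_adj, hit]
  tauto

theorem nb_mono {H : SimpleGraph V} (h : H ≤ G) (a b : V) : nb H a b ⊆ nb G a b := fun _ hx =>
  mem_nb.2 ⟨h (mem_nb.1 hx).1, h (mem_nb.1 hx).2⟩

theorem tri_mono {H : SimpleGraph V} (h : H ≤ G) : tri H ⊆ tri G := fun _ hT =>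
  mem_tri.2 ((mem_tri.1 hT).mono h)

theorem not_mem_tri_rem (T : Finset V) : T ∉ tri (rem G T) := by
  intro h
  obtain ⟨a, b, c, hab, -, -, rfl⟩ := SimpleGraph.is3Clique_iff.1 (mem_tri.1 h)
  exact hab.2 ⟨by simp, by simp⟩

/-- a triangle through two given distinct vertices has a unique third vertex -/
theorem exists_third {T : Finset V} (h : T ∈ tri G) {a b : V} (ha : a ∈ T) (hb : b ∈ T)
    (hab : a ≠ b) : ∃ x ∈ nb G a b, T = {a, b, x} := by
  have h3 := card_of_mem_tri h
  have h1 : ((T.erase a).erase b).card = 1 := by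
    rw [card_erase_of_mem (mem_erase.2 ⟨hab.symm, hb⟩), card_erase_of_mem ha, h3]
  obtain ⟨x, hx⟩ := card_eq_one.1 h1
  have hx' : x ∈ (T.erase a).erase b := by rw [hx]; exact mem_singleton_self x
  simp only [mem_erase] at hx'
  refine ⟨x, mem_nb.2 ⟨adj_of_mem_tri h ha hx'.2.2 hx'.2.1.symm,
    adj_of_mem_tri h hb hx'.2.2 hx'.1.symm⟩, ?_⟩
  rw [← hx, insert_erase (mem_erase.2 ⟨hab.symm, hb⟩), insert_erase ha]

theorem triple_inj {a b x y : V} (hx : x ∈ nb G a b)
    (h : ({a, b, x} : Finset V) = {a, b, y}) : x = y := by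
  have : x ∈ ({a, b, y} : Finset V) := by rw [← h]; simp
  simp only [mem_insert, mem_singleton] at this
  rcases this with rfl | rfl | rfl
  · exact absurd (mem_nb.1 hx).1 G.irrefl
  · exact absurd (mem_nb.1 hx).2 G.irrefl
  · rfl

theorem filter_tri_edge {a b : V} (hab : G.Adj a b) :
    (tri G).filter (fun T => a ∈ T ∧ b ∈ T) = (nb G a b).image fun x => {a, b, x} := by
  ext T
  simp only [mem_filter, mem_image]
  constructor
  · rintro ⟨h, ha, hb⟩
    obtain ⟨x, hx, rfl⟩ := exists_third h ha hb hab.ne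
    exact ⟨x, hx, rfl⟩
  · rintro ⟨x, hx, rfl⟩
    exact ⟨triple_mem_tri hab hx, by simp, by simp⟩

/-- the number of triangles through an edge is its codegree -/
theorem card_tri_edge {a b : V} (hab : G.Adj a b) :
    (((tri G).filter fun T => a ∈ T ∧ b ∈ T).card : ℝ) = Y G a b := by
  rw [filter_tri_edge hab, card_image_of_injOn fun x hx y _ h => triple_inj hx h, Y]

theorem card_tri_pair_le {a b : V} (hab : a ≠ b) :
    (((tri G).filter fun T => a ∈ T ∧ b ∈ T).card : ℝ) ≤ Y G a b := by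
  by_cases h : G.Adj a b
  · exact (card_tri_edge h).le
  · rw [filter_eq_empty_iff.2 fun T hT h' => h (adj_of_mem_tri hT h'.1 h'.2 hab)]
    simpa using Y_nonneg a b

theorem card_tri_triple_le {a b x : V} (hab : a ≠ b) (hax : a ≠ x) (hbx : b ≠ x) :
    ((tri G).filter fun T => a ∈ T ∧ b ∈ T ∧ x ∈ T).card ≤ 1 := by
  refine card_le_one.2 fun T hT T' hT' => ?_
  simp only [mem_filter] at hT hT'
  have key : ∀ S ∈ tri G, a ∈ S → b ∈ S → x ∈ S → S = {a, b, x} := by
    intro S hS ha hb hx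
    symm
    refine eq_of_subset_of_card_le (by simp [insert_subset_iff, ha, hb, hx]) ?_
    rw [card_of_mem_tri hS, card_eq_three.2 ⟨a, b, x, hab, hax, hbx, rfl⟩]
  rw [key T hT.1 hT.2.1 hT.2.2.1 hT.2.2.2, key T' hT'.1 hT'.2.1 hT'.2.2.1 hT'.2.2.2]

theorem card_hit_le {a b x : V} (hx : x ∈ nb G a b) :
    (((tri G).filter fun T => hit a b x T).card : ℝ) ≤ Y G a x + Y G b x := by
  rw [← card_tri_edge (mem_nb.1 hx).1, ← card_tri_edge (mem_nb.1 hx).2]
  norm_cast
  refine (card_le_card fun T hT => ?_).trans (card_union_le _ _)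
  rw [mem_filter] at hT
  simp only [mem_filter, mem_union, hit] at hT ⊢
  tauto

theorem le_card_hit {a b x : V} (hab : a ≠ b) (hx : x ∈ nb G a b) :
    Y G a x + Y G b x - 1 ≤ (((tri G).filter fun T => hit a b x T).card : ℝ) := by
  rw [← card_tri_edge (mem_nb.1 hx).1, ← card_tri_edge (mem_nb.1 hx).2]
  have h1 := card_union_add_card_inter ((tri G).filter fun T => a ∈ T ∧ x ∈ T)
    ((tri G).filter fun T => b ∈ T ∧ x ∈ T)
  have h2 : ((tri G).filter (fun T => a ∈ T ∧ x ∈ T) ∪ (tri G).filter fun T => b ∈ T ∧ x ∈ T) =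
      (tri G).filter fun T => hit a b x T := by
    ext T; simp only [mem_filter, mem_union]; simp only [hit]; tauto
  have h3 : ((tri G).filter (fun T => a ∈ T ∧ x ∈ T) ∩
      (tri G).filter fun T => b ∈ T ∧ x ∈ T).card ≤ 1 := by
    refine le_trans (card_le_card fun T hT => ?_)
      (card_tri_triple_le (G := G) hab (mem_nb.1 hx).1.ne (mem_nb.1 hx).2.ne)
    simp only [mem_filter, mem_inter] at hT ⊢
    tauto
  rw [h2] at h1
  have h4 : ((tri G).filter (fun T => a ∈ T ∧ x ∈ T)).card +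
      ((tri G).filter fun T => b ∈ T ∧ x ∈ T).card ≤
      ((tri G).filter fun T => hit a b x T).card + 1 := by omega
  have : (((tri G).filter (fun T => a ∈ T ∧ x ∈ T)).card : ℝ) +
      ((tri G).filter fun T => b ∈ T ∧ x ∈ T).card ≤
      ((tri G).filter fun T => hit a b x T).card + 1 := by exact_mod_cast h4
  linarith

/-- number of common neighbours destroyed by removing `T` -/
def hc (G : SimpleGraph V) (T : Finset V) (a b : V) : ℝ :=
  ((nb G a b).filter fun x => hit a b x T).card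

theorem hc_nonneg (T : Finset V) (a b : V) : 0 ≤ hc G T a b := Nat.cast_nonneg _

theorem hc_le {T : Finset V} (hT : T ∈ tri G) (a b : V) : hc G T a b ≤ 3 := by
  have : ((nb G a b).filter fun x => hit a b x T).card ≤ 3 :=
    (card_le_card fun x hx => (mem_filter.1 hx).2.1).trans (card_of_mem_tri hT).le
  rw [hc]; exact_mod_cast this

theorem Y_rem (T : Finset V) (a b : V) : Y (rem G T) a b = Y G a b - hc G T a b := by
  rw [Y, Y, hc, nb_rem, ← card_filter_add_card_filter_not (s := nb G a b) (fun x => hit a b x T)]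
  push_cast; ring

theorem B_rem (T : Finset V) (f f' : V → V → ℝ) (a b : V) :
    B (rem G T) f' a b - B G f a b = B G (fun u v => f' u v - f u v) a b -
      ∑ x ∈ (nb G a b).filter fun x => hit a b x T, (f' a x + f' b x) := by
  have := sum_filter_add_sum_filter_not (nb G a b) (fun x => hit a b x T) fun x => f' a x + f' b x
  simp only [B, nb_rem]
  have h2 : ∑ x ∈ nb G a b, (f' a x - f a x + (f' b x - f b x)) =
      ∑ x ∈ nb G a b, (f' a x + f' b x) - ∑ x ∈ nb G a b, (f a x + f b x) := by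
    rw [← sum_sub_distrib]; exact sum_congr rfl fun _ _ => by ring
  linarith

theorem sum_hc (a b : V) : ∑ T ∈ tri G, hc G T a b =
    ∑ x ∈ nb G a b, (((tri G).filter fun T => hit a b x T).card : ℝ) := by
  simp only [hc, card_filter]
  push_cast
  exact sum_comm

theorem sum_hc_le (a b : V) : ∑ T ∈ tri G, hc G T a b ≤ X2 G a b := by
  rw [sum_hc]; exact sum_le_sum fun x hx => card_hit_le hx

theorem le_sum_hc {a b : V} (hab : a ≠ b) : X2 G a b - Y G a b ≤ ∑ T ∈ tri G, hc G T a b := by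
  rw [sum_hc]
  refine le_trans (le_of_eq ?_) (sum_le_sum fun x hx => le_card_hit hab hx)
  rw [sum_sub_distrib]; simp [X2, B, Y]

theorem abs_B_le {f : V → V → ℝ} {c : ℝ} (hf : ∀ u v, G.Adj u v → |f u v| ≤ c) (a b : V) :
    |B G f a b| ≤ 2 * c * Y G a b := by
  refine (abs_sum_le_sum_abs _ _).trans ((sum_le_sum (g := fun _ => 2 * c) fun x hx => ?_).trans ?_)
  · have := hf _ _ (mem_nb.1 hx).1
    have := hf _ _ (mem_nb.1 hx).2
    have := abs_add_le (f a x) (f b x)
    linarith
  · simp [Y, mul_comm]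

theorem B_nonneg {f : V → V → ℝ} (hf : ∀ u v, 0 ≤ f u v) (a b : V) : 0 ≤ B G f a b :=
  sum_nonneg fun _ _ => add_nonneg (hf _ _) (hf _ _)

theorem B_mono {H : SimpleGraph V} (h : H ≤ G) {f g : V → V → ℝ} (hf : ∀ u v, 0 ≤ f u v)
    (hfg : ∀ u v, f u v ≤ g u v) (a b : V) : B H f a b ≤ B G g a b :=
  (sum_le_sum_of_subset_of_nonneg (nb_mono h a b) fun _ _ _ => add_nonneg (hf _ _) (hf _ _)).trans
    (sum_le_sum fun _ _ => add_le_add (hfg _ _) (hfg _ _))

theorem Y_mono {H : SimpleGraph V} (h : H ≤ G) (a b : V) : Y H a b ≤ Y G a b := by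
  rw [Y, Y]; exact_mod_cast card_le_card (nb_mono h a b)

theorem X2_nonneg (a b : V) : 0 ≤ X2 G a b := B_nonneg Y_nonneg a b

theorem X3_nonneg (a b : V) : 0 ≤ X3 G a b := B_nonneg X2_nonneg a b

theorem X2_mono {H : SimpleGraph V} (h : H ≤ G) (a b : V) : X2 H a b ≤ X2 G a b :=
  B_mono h Y_nonneg (Y_mono h) a b

theorem Reg.Y_le {τ η : ℝ} (h : Reg G τ η) (hτ : 0 < τ) (hη : η ≤ 1) {a b : V} (hab : a ≠ b) :
    Y G a b ≤ 2 / τ := by
  rw [le_div_iff₀ hτ]
  have := (abs_le.1 (h a b hab)).2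
  linarith

theorem card_tri_le (G : SimpleGraph V) : (tri G).card ≤ Fintype.card V ^ 3 := by
  have : tri G ⊆ powersetCard 3 univ := fun T hT =>
    mem_powersetCard.2 ⟨subset_univ _, card_of_mem_tri hT⟩
  refine (card_le_card this).trans ?_
  rw [card_powersetCard, card_univ]
  exact Nat.choose_le_pow _ _

/-! ### labels -/

/-- expectation over independent uniform labels -/
def Ev (K : ℕ) (f : (Finset V → Fin K) → ℝ) : ℝ := Finset.expect univ f

/-- remove all present triangles with label `j` -/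
def sweep {K : ℕ} (l : Finset V → Fin K) (j : ℕ) (H : SimpleGraph V) : SimpleGraph V where
  Adj u v := H.Adj u v ∧ ¬ ∃ T ∈ tri H, (l T : ℕ) = j ∧ u ∈ T ∧ v ∈ T
  symm := ⟨fun _ _ h => ⟨h.1.symm, fun ⟨T, a, b, c, d⟩ => h.2 ⟨T, a, b, d, c⟩⟩⟩
  loopless := ⟨fun _ h => H.irrefl h.1⟩

/-- the process driven by labels -/
def pr {K : ℕ} (G : SimpleGraph V) (l : Finset V → Fin K) : ℕ → SimpleGraph V
  | 0 => G
  | j + 1 => sweep l j (pr G l j)

/-- `f` does not depend on the labels outside `S` -/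
def Dep {K : ℕ} (S : Finset (Finset V)) (f : (Finset V → Fin K) → ℝ) : Prop :=
  ∀ l l', (∀ T ∈ S, l T = l' T) → f l = f l'

/-- belief propagation iterates: level, time, edge `a b`, excluded apex `c` -/
def W (G : SimpleGraph V) (K : ℕ) : ℕ → ℕ → V → V → V → ℝ
  | 0, _, _, _, _ => 1
  | k + 1, j, a, b, c => ∏ x ∈ (nb G a b).erase c,
      (1 - (∑ i ∈ range j, W G K k i a x b * W G K k i b x a) / K)

/-- apex vertices of the exploration -/
def Vs (G : SimpleGraph V) : ℕ → V → V → V → Finset V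
  | 0, _, _, _ => ∅
  | k + 1, a, b, c => ((nb G a b).erase c).biUnion fun x => insert x (Vs G k a x b ∪ Vs G k b x a)

/-- the exploration is a tree -/
def TL (G : SimpleGraph V) : ℕ → V → V → V → Prop
  | 0, _, _, _ => True
  | k + 1, a, b, c => a ∉ Vs G (k + 1) a b c ∧ b ∉ Vs G (k + 1) a b c ∧
      (∀ x ∈ (nb G a b).erase c, TL G k a x b ∧ TL G k b x a ∧
        Disjoint (Vs G k a x b) (Vs G k b x a)) ∧
      ∀ x ∈ (nb G a b).erase c, ∀ y ∈ (nb G a b).erase c, x ≠ y →
        Disjoint (insert x (Vs G k a x b ∪ Vs G k b x a)) (insert y (Vs G k a y b ∪ Vs G k b y a))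

/-- number of edges inside `U` -/
def ec (G : SimpleGraph V) (U : Finset V) : ℕ :=
  ((powersetCard 2 U).filter fun e => G.IsClique (e : Set V)).card

/-- no small dense set contains `a` and `b` -/
def Sp (G : SimpleGraph V) (m : ℕ) (a b : V) : Prop :=
  ∀ U : Finset V, a ∈ U → b ∈ U → U.card ≤ m → ec G U + 3 ≤ 2 * U.card

/-- number of ordered edges in small dense sets -/
def bad (G : SimpleGraph V) (m : ℕ) : ℝ := ((darts G).filter fun e => ¬ Sp G m e.1 e.2).card

end

end Vale.Agent.P046
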