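import Mathlib

/-! The random triangle removal process. -/

namespace Vale.Agent.P046

/-- delete from `G` all edges between vertices of `T` -/
def rem {V : Type} (G : SimpleGraph V) (T : Finset V) : SimpleGraph V where
  Adj u v := G.Adj u v ∧ ¬ (u ∈ T ∧ v ∈ T)
  symm := ⟨fun _ _ h => ⟨h.1.symm, fun h' => h.2 ⟨h'.2, h'.1⟩⟩⟩
  loopless := ⟨fun _ h => G.irrefl h.1⟩

/-- the triangles of `G` -/
noncomputable def tri {V : Type} [Fintype V] (G : SimpleGraph V) : Finset (Finset V) :=
  (Set.toFinite (G.cliqueSet 3)).toFinset

/-- one step: remove a uniformly random triangle, or stay if there is none -/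
noncomputable def step {V : Type} [Fintype V] (G : SimpleGraph V) : PMF (SimpleGraph V) :=
  if h : 0 < (tri G).card then (PMF.uniformOfFinset (tri G) (Finset.card_pos.1 h)).map (rem G)
  else PMF.pure G

/-- the law of the graph after `k` steps -/
noncomputable def run {V : Type} [Fintype V] : ℕ → SimpleGraph V → PMF (SimpleGraph V)
  | 0, G => PMF.pure G
  | k + 1, G => (step G).bind (run k)

/-- the law of the number of edges of the final graph, starting from the complete graph on `n`
vertices (the process has stopped after `n ^ 2` steps) -/
noncomputable def law (n : ℕ) : PMF ℕ :=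
  (run (n ^ 2) (⊤ : SimpleGraph (Fin n))).map fun G => G.edgeSet.ncard

end Vale.Agent.P046
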