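import Vale.Agent.P046.Basic

/-! Part Drift: generator of the strip counts. -/

namespace Vale.Agent.P046

open Finset Real
open scoped Classical

variable {V : Type} [Fintype V]

variable {G : SimpleGraph V} {τ η : ℝ}

theorem Reg.nonneg (h : Reg G τ η) {a b : V} (hab : a ≠ b) : 0 ≤ η :=
  (abs_nonneg _).trans (h a b hab)

theorem Reg.abs_sub (h : Reg G τ η) (hτ : 0 < τ) {a b : V} (hab : a ≠ b) :
    |Y G a b - 1 / τ| ≤ η / τ := by
  have e : Y G a b - 1 / τ = (τ * Y G a b - 1) / τ := by field_simp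
  rw [e, abs_div, abs_of_pos hτ]
  exact div_le_div_of_nonneg_right (h a b hab) hτ.le

theorem Reg.abs_Y (h : Reg G τ η) (hτ : 0 < τ) (hη : η ≤ 1 / 2) {a b : V} (hab : a ≠ b) :
    |Y G a b| ≤ 2 / τ := by
  rw [abs_of_nonneg (Y_nonneg a b)]; exact h.Y_le hτ (by linarith) hab

theorem Reg.abs_B (h : Reg G τ η) (hτ : 0 < τ) (hη : η ≤ 1 / 2) {f : V → V → ℝ} {c : ℝ}
    (hc : 0 ≤ c) (hf : ∀ u v, G.Adj u v → |f u v| ≤ c) {a b : V} (hab : a ≠ b) :
    |B G f a b| ≤ 2 * c * (2 / τ) :=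
  (abs_B_le hf a b).trans (mul_le_mul_of_nonneg_left (h.Y_le hτ (by linarith) hab) (by positivity))

theorem X2_le (h : Reg G τ η) (hτ : 0 < τ) (hη : η ≤ 1 / 2) {a b : V} (hab : a ≠ b) :
    X2 G a b ≤ 8 / τ ^ 2 := by
  have := h.abs_B hτ hη (f := Y G) (c := 2 / τ) (by positivity)
    (fun u v huv => h.abs_Y hτ hη huv.ne) hab
  refine (le_abs_self _).trans (this.trans (le_of_eq ?_))
  field_simp; ring

theorem X3_le (h : Reg G τ η) (hτ : 0 < τ) (hη : η ≤ 1 / 2) {a b : V} (hab : a ≠ b) :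
    X3 G a b ≤ 32 / τ ^ 3 := by
  have := h.abs_B hτ hη (f := X2 G) (c := 8 / τ ^ 2) (by positivity)
    (fun u v huv => by rw [abs_of_nonneg (X2_nonneg u v)]; exact X2_le h hτ hη huv.ne) hab
  refine (le_abs_self _).trans (this.trans (le_of_eq ?_))
  field_simp; ring

theorem inc_Y {T : Finset V} (hT : T ∈ tri G) (a b : V) : |Y (rem G T) a b - Y G a b| ≤ 3 := by
  rw [Y_rem, abs_le]
  constructor <;> linarith [hc_le hT a b, hc_nonneg (G := G) T a b]

theorem abs_sum_hit_le {T : Finset V} {f : V → V → ℝ} {F : ℝ}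
    (hf : ∀ u v, G.Adj u v → |f u v| ≤ F) (a b : V) :
    |∑ x ∈ (nb G a b).filter fun x => hit a b x T, (f a x + f b x)| ≤ hc G T a b * (2 * F) := by
  refine (abs_sum_le_sum_abs _ _).trans ((sum_le_sum (g := fun _ => 2 * F) fun x hx => ?_).trans ?_)
  · have hx := mem_nb.1 (mem_filter.1 hx).1
    linarith [hf _ _ hx.1, hf _ _ hx.2, abs_add_le (f a x) (f b x)]
  · rw [sum_const, nsmul_eq_mul, hc]

theorem inc_B (h : Reg G τ η) (hτ : 0 < τ) (hη : η ≤ 1 / 2) {T : Finset V} (hT : T ∈ tri G)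
    {f f' : V → V → ℝ} {c F : ℝ} (hc0 : 0 ≤ c) (hF : 0 ≤ F)
    (h1 : ∀ u v, G.Adj u v → |f' u v - f u v| ≤ c) (h2 : ∀ u v, G.Adj u v → |f' u v| ≤ F)
    {a b : V} (hab : a ≠ b) :
    |B (rem G T) f' a b - B G f a b| ≤ 2 * c * (2 / τ) + 6 * F := by
  rw [B_rem]
  have a1 := h.abs_B hτ hη (f := fun u v => f' u v - f u v) hc0 h1 hab
  have a2 := abs_sum_hit_le (T := T) h2 a b
  have a3 := mul_le_mul_of_nonneg_right (hc_le hT a b) (show 0 ≤ 2 * F by positivity)
  refine (abs_sub _ _).trans ?_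
  linarith

theorem inc_X2 (h : Reg G τ η) (hτ : 0 < τ) (hη : η ≤ 1 / 2) {T : Finset V} (hT : T ∈ tri G)
    {a b : V} (hab : a ≠ b) : |X2 (rem G T) a b - X2 G a b| ≤ 24 / τ := by
  have := inc_B h hτ hη hT (f := Y G) (f' := Y (rem G T)) (c := 3) (F := 2 / τ) (by norm_num)
    (by positivity) (fun u v _ => inc_Y hT u v) (fun u v huv => by
      rw [abs_of_nonneg (Y_nonneg u v)]
      exact (Y_mono (rem_le G T) u v).trans (h.Y_le hτ (by linarith) huv.ne)) hab
  refine this.trans (le_of_eq ?_)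
  ring

theorem inc_X3 (h : Reg G τ η) (hτ : 0 < τ) (hη : η ≤ 1 / 2) {T : Finset V} (hT : T ∈ tri G)
    {a b : V} (hab : a ≠ b) : |X3 (rem G T) a b - X3 G a b| ≤ 144 / τ ^ 2 := by
  have := inc_B h hτ hη hT (f := X2 G) (f' := X2 (rem G T)) (c := 24 / τ) (F := 8 / τ ^ 2)
    (by positivity) (by positivity) (fun u v huv => inc_X2 h hτ hη hT huv.ne) (fun u v huv => by
      rw [abs_of_nonneg (X2_nonneg u v)]
      exact (X2_mono (rem_le G T) u v).trans (X2_le h hτ hη huv.ne)) hab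
  refine this.trans (le_of_eq ?_)
  field_simp; ring

/-- triple common neighbourhood -/
noncomputable def nb3 (G : SimpleGraph V) (a b y : V) : Finset V :=
  univ.filter fun x => G.Adj a x ∧ G.Adj b x ∧ G.Adj y x

/-- removing `T` destroys the triple common neighbour `x` -/
def hit3 (a b y x : V) (T : Finset V) : Prop := x ∈ T ∧ (a ∈ T ∨ b ∈ T ∨ y ∈ T)

/-- number of destroyed triple common neighbours -/
noncomputable def hc3 (G : SimpleGraph V) (T : Finset V) (a b y : V) : ℝ :=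
  ((nb3 G a b y).filter fun x => hit3 a b y x T).card

theorem mem_nb3 {a b y x : V} : x ∈ nb3 G a b y ↔ G.Adj a x ∧ G.Adj b x ∧ G.Adj y x := by
  simp [nb3]

theorem N3_eq (a b y : V) : N3 G a b y = (nb3 G a b y).card := rfl

theorem N3_rem (T : Finset V) (a b y : V) :
    N3 (rem G T) a b y = N3 G a b y - hc3 G T a b y := by
  have e : nb3 (rem G T) a b y = (nb3 G a b y).filter fun x => ¬ hit3 a b y x T := by
    ext x
    rw [mem_filter]
    simp only [mem_nb3, rem_adj, hit3]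
    tauto
  rw [N3_eq, N3_eq, hc3, e,
    ← card_filter_add_card_filter_not (s := nb3 G a b y) (fun x => hit3 a b y x T)]
  push_cast; ring

theorem hc3_nonneg (T : Finset V) (a b y : V) : 0 ≤ hc3 G T a b y := Nat.cast_nonneg _

theorem hc3_le {T : Finset V} (hT : T ∈ tri G) (a b y : V) : hc3 G T a b y ≤ 3 := by
  have : ((nb3 G a b y).filter fun x => hit3 a b y x T).card ≤ 3 :=
    (card_le_card fun x hx => (mem_filter.1 hx).2.1).trans (card_of_mem_tri hT).le
  rw [hc3]; exact_mod_cast this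

theorem sum_hc3 (a b y : V) : ∑ T ∈ tri G, hc3 G T a b y =
    ∑ x ∈ nb3 G a b y, (((tri G).filter fun T => hit3 a b y x T).card : ℝ) := by
  simp only [hc3, card_filter]
  push_cast
  exact sum_comm

theorem filter_hit3 (a b y x : V) : ((tri G).filter fun T => hit3 a b y x T) =
    ((tri G).filter fun T => hit a b x T) ∪ (tri G).filter fun T => y ∈ T ∧ x ∈ T := by
  ext T
  simp only [mem_filter, mem_union]
  simp only [hit, hit3]
  tauto

theorem card_hit3_le {a b y x : V} (hx : x ∈ nb3 G a b y) :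
    (((tri G).filter fun T => hit3 a b y x T).card : ℝ) ≤ Y G a x + Y G b x + Y G y x := by
  have hx := mem_nb3.1 hx
  have h1 := card_hit_le (mem_nb.2 ⟨hx.1, hx.2.1⟩)
  have h2 := card_tri_edge hx.2.2
  have h3 := card_union_le ((tri G).filter fun T => hit a b x T)
    ((tri G).filter fun T => y ∈ T ∧ x ∈ T)
  rw [← filter_hit3] at h3
  have h4 : (((tri G).filter fun T => hit3 a b y x T).card : ℝ) ≤
      ((tri G).filter fun T => hit a b x T).card +
        ((tri G).filter fun T => y ∈ T ∧ x ∈ T).card := by exact_mod_cast h3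
  linarith

theorem le_card_hit3 {a b y x : V} (hab : a ≠ b) (hay : a ≠ y) (hby : b ≠ y)
    (hx : x ∈ nb3 G a b y) :
    Y G a x + Y G b x + Y G y x - 3 ≤ (((tri G).filter fun T => hit3 a b y x T).card : ℝ) := by
  have hx := mem_nb3.1 hx
  have h1 := le_card_hit hab (mem_nb.2 ⟨hx.1, hx.2.1⟩)
  have h2 := card_tri_edge hx.2.2
  have h3 := card_union_add_card_inter ((tri G).filter fun T => hit a b x T)
    ((tri G).filter fun T => y ∈ T ∧ x ∈ T)
  rw [← filter_hit3] at h3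
  have h5 : (((tri G).filter fun T => hit a b x T) ∩
      (tri G).filter fun T => y ∈ T ∧ x ∈ T).card ≤ 2 := by
    have b1 := card_tri_triple_le (G := G) hay hx.1.ne hx.2.2.ne
    have b2 := card_tri_triple_le (G := G) hby hx.2.1.ne hx.2.2.ne
    refine le_trans (card_le_card (t := ((tri G).filter fun T => a ∈ T ∧ y ∈ T ∧ x ∈ T) ∪
      (tri G).filter fun T => b ∈ T ∧ y ∈ T ∧ x ∈ T) fun T hT => ?_)
      ((card_union_le _ _).trans (by omega))
    simp only [mem_filter, mem_inter, mem_union] at hT ⊢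
    simp only [hit] at hT
    tauto
  have h6 : ((tri G).filter fun T => hit a b x T).card +
      ((tri G).filter fun T => y ∈ T ∧ x ∈ T).card ≤
        ((tri G).filter fun T => hit3 a b y x T).card + 2 := by omega
  have h4 : (((tri G).filter fun T => hit a b x T).card : ℝ) +
      ((tri G).filter fun T => y ∈ T ∧ x ∈ T).card ≤
        ((tri G).filter fun T => hit3 a b y x T).card + 2 := by exact_mod_cast h6
  linarith

theorem inc_N3 {T : Finset V} (hT : T ∈ tri G) (a b y : V) :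
    |N3 (rem G T) a b y - N3 G a b y| ≤ 3 := by
  rw [N3_rem, abs_le]
  constructor <;> linarith [hc3_le hT a b y, hc3_nonneg (G := G) T a b y]

theorem gen_Y (a b : V) : gen (fun H => Y H a b) G = -∑ T ∈ tri G, hc G T a b := by
  rw [gen, ← sum_neg_distrib]
  exact sum_congr rfl fun T _ => by rw [Y_rem]; ring

theorem drift_Y (h : Reg G τ η) (hτ : 0 < τ) (hη : η ≤ 1 / 2) {a b : V} (hab : a ≠ b) :
    |gen (fun H => Y H a b) G + X2 G a b| ≤ 2 / τ := by
  rw [gen_Y, abs_le]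
  have h1 := sum_hc_le (G := G) a b
  have h2 := le_sum_hc (G := G) hab
  have h3 := h.Y_le hτ (by linarith) hab
  have h4 : 0 < 2 / τ := by positivity
  constructor <;> linarith

/-- generic drift of a strip operator -/
theorem drift_B (h : Reg G τ η) (hτ : 0 < τ) (hη : η ≤ 1 / 2) (F : SimpleGraph V → V → V → ℝ)
    {c Fm : ℝ} (hc0 : 0 ≤ c) (hF : 0 ≤ Fm) (h1 : ∀ u v, G.Adj u v → |F G u v| ≤ Fm)
    (h2 : ∀ T ∈ tri G, ∀ u v, G.Adj u v → |F (rem G T) u v - F G u v| ≤ c) {a b : V}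
    (hab : a ≠ b) :
    |gen (fun H => B H (F H) a b) G - B G (fun u v => gen (fun H => F H u v) G) a b +
      ∑ x ∈ nb G a b, (Y G a x + Y G b x) * (F G a x + F G b x)| ≤
        2 / τ * (2 * Fm + 4 * (2 / τ) * c) := by
  have e1 : ∑ T ∈ tri G, B G (fun u v => F (rem G T) u v - F G u v) a b =
      B G (fun u v => gen (fun H => F H u v) G) a b := by
    simp only [B, gen]
    rw [sum_comm]
    exact sum_congr rfl fun x _ => sum_add_distrib
  have e2 : ∑ T ∈ tri G, ∑ x ∈ (nb G a b).filter fun x => hit a b x T,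
      (F (rem G T) a x + F (rem G T) b x) = ∑ x ∈ nb G a b,
        ∑ T ∈ (tri G).filter fun T => hit a b x T, (F (rem G T) a x + F (rem G T) b x) := by
    simp only [sum_filter]
    exact sum_comm
  have e3 : gen (fun H => B H (F H) a b) G = B G (fun u v => gen (fun H => F H u v) G) a b -
      ∑ x ∈ nb G a b, ∑ T ∈ (tri G).filter fun T => hit a b x T,
        (F (rem G T) a x + F (rem G T) b x) := by
    rw [← e1, ← e2, ← sum_sub_distrib, gen]
    exact sum_congr rfl fun T _ => B_rem T _ _ a b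
  rw [e3, sub_sub_cancel_left, neg_add_eq_sub, ← sum_sub_distrib]
  refine (abs_sum_le_sum_abs _ _).trans ((sum_le_sum
    (g := fun _ => 2 * Fm + 4 * (2 / τ) * c) fun x hx => ?_).trans ?_)
  · have hx' := mem_nb.1 hx
    have n1 := card_hit_le hx
    have n2 := le_card_hit hab hx
    have y1 := h.Y_le hτ (by linarith) hx'.1.ne
    have y2 := h.Y_le hτ (by linarith) hx'.2.ne
    set A := (tri G).filter fun T => hit a b x T with hA
    have b1 : |∑ T ∈ A, ((F (rem G T) a x + F (rem G T) b x) - (F G a x + F G b x))| ≤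
        A.card * (2 * c) := by
      refine (abs_sum_le_sum_abs _ _).trans ((sum_le_sum (g := fun _ => 2 * c)
        fun T hT => ?_).trans ?_)
      · have hT := (mem_filter.1 hT).1
        have := abs_add_le (F (rem G T) a x - F G a x) (F (rem G T) b x - F G b x)
        have e : F (rem G T) a x + F (rem G T) b x - (F G a x + F G b x) =
          F (rem G T) a x - F G a x + (F (rem G T) b x - F G b x) := by ring
        rw [e]
        linarith [h2 T hT _ _ hx'.1, h2 T hT _ _ hx'.2]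
      · rw [sum_const, nsmul_eq_mul]
    rw [sum_sub_distrib, sum_const, nsmul_eq_mul] at b1
    have b2 : |F G a x + F G b x| ≤ 2 * Fm := by
      linarith [abs_add_le (F G a x) (F G b x), h1 _ _ hx'.1, h1 _ _ hx'.2]
    have b3 : |(Y G a x + Y G b x - A.card) * (F G a x + F G b x)| ≤ 1 * (2 * Fm) := by
      rw [abs_mul]
      refine mul_le_mul ?_ b2 (abs_nonneg _) zero_le_one
      rw [abs_le]; constructor <;> linarith
    have b4 : (A.card : ℝ) * (2 * c) ≤ (2 / τ + 2 / τ) * (2 * c) :=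
      mul_le_mul_of_nonneg_right (by linarith) (by positivity)
    set S := ∑ T ∈ A, (F (rem G T) a x + F (rem G T) b x)
    have e : (Y G a x + Y G b x) * (F G a x + F G b x) - S =
        (Y G a x + Y G b x - A.card) * (F G a x + F G b x) -
          (S - A.card * (F G a x + F G b x)) := by ring
    rw [e]
    refine (abs_sub _ _).trans ?_
    linarith
  · rw [sum_const, nsmul_eq_mul]
    exact mul_le_mul_of_nonneg_right (h.Y_le hτ (by linarith) hab) (by positivity)

theorem B_add (f g : V → V → ℝ) (a b : V) :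
    B G (fun u v => f u v + g u v) a b = B G f a b + B G g a b := by
  simp only [B, ← sum_add_distrib]
  exact sum_congr rfl fun _ _ => by ring

theorem B_sub (f g : V → V → ℝ) (a b : V) :
    B G (fun u v => f u v - g u v) a b = B G f a b - B G g a b := by
  simp only [B, ← sum_sub_distrib]
  exact sum_congr rfl fun _ _ => by ring

theorem B_mul (c : ℝ) (f : V → V → ℝ) (a b : V) :
    B G (fun u v => c * f u v) a b = c * B G f a b := by
  simp only [B, mul_sum]
  exact sum_congr rfl fun _ _ => by ring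

theorem Reg.abs_s (h : Reg G τ η) (hτ : 0 < τ) {a b x : V} (hx : x ∈ nb G a b) :
    |Y G a x + Y G b x - 2 / τ| ≤ 2 * (η / τ) := by
  have h1 := h.abs_sub hτ (mem_nb.1 hx).1.ne
  have h2 := h.abs_sub hτ (mem_nb.1 hx).2.ne
  have e : Y G a x + Y G b x - 2 / τ = (Y G a x - 1 / τ) + (Y G b x - 1 / τ) := by ring
  rw [e]
  linarith [abs_add_le (Y G a x - 1 / τ) (Y G b x - 1 / τ)]

theorem Reg.abs_sum (h : Reg G τ η) (hτ : 0 < τ) (hη : η ≤ 1 / 2) {a b : V} (hab : a ≠ b)
    {f : V → ℝ} {c : ℝ} (hc : 0 ≤ c) (hf : ∀ x ∈ nb G a b, |f x| ≤ c) :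
    |∑ x ∈ nb G a b, f x| ≤ 2 / τ * c := by
  refine (abs_sum_le_sum_abs _ _).trans ((sum_le_sum hf).trans ?_)
  rw [sum_const, nsmul_eq_mul]
  exact mul_le_mul_of_nonneg_right (h.Y_le hτ (by linarith) hab) hc

theorem drift_X2 (h : Reg G τ η) (hτ : 0 < τ) (hη : η ≤ 1 / 2) {a b : V} (hab : a ≠ b) :
    |gen (fun H => X2 H a b) G + X3 G a b + 4 / τ * X2 G a b - 4 / τ ^ 2 * Y G a b| ≤
      64 / τ ^ 2 + 8 * η ^ 2 / τ ^ 3 := by
  have hη0 := h.nonneg hab
  have h1 := drift_B h hτ hη (fun H => Y H) (c := 3) (Fm := 2 / τ) (by norm_num) (by positivity)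
    (fun u v huv => h.abs_Y hτ hη huv.ne) (fun T hT u v _ => inc_Y hT u v) hab
  have h2 := h.abs_B hτ hη (f := fun u v => gen (fun H => Y H u v) G + X2 G u v) (c := 2 / τ)
    (by positivity) (fun u v huv => drift_Y h hτ hη huv.ne) hab
  rw [B_add] at h2
  have h3 := h.abs_sum hτ hη hab (f := fun x => (Y G a x + Y G b x - 2 / τ) ^ 2)
    (c := (2 * (η / τ)) ^ 2) (by positivity) fun x hx => by
      rw [abs_pow]
      exact pow_le_pow_left₀ (abs_nonneg _) (h.abs_s hτ hx) 2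
  have e : ∑ x ∈ nb G a b, (Y G a x + Y G b x) * (Y G a x + Y G b x) =
      4 / τ * X2 G a b - 4 / τ ^ 2 * Y G a b + ∑ x ∈ nb G a b, (Y G a x + Y G b x - 2 / τ) ^ 2 := by
    have : 4 / τ ^ 2 * Y G a b = ∑ x ∈ nb G a b, 4 / τ ^ 2 := by
      rw [sum_const, nsmul_eq_mul, Y, mul_comm]
    rw [this, X2, B, mul_sum, ← sum_sub_distrib, ← sum_add_distrib]
    exact sum_congr rfl fun x _ => by ring
  rw [e] at h1
  change |gen (fun H => X2 H a b) G - _ + _| ≤ _ at h1
  change |_ + X3 G a b| ≤ _ at h2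
  have c1 : 2 / τ * (2 * (2 / τ) + 4 * (2 / τ) * 3) = 56 / τ ^ 2 := by field_simp; ring
  have c2 : 2 * (2 / τ) * (2 / τ) = 8 / τ ^ 2 := by field_simp; ring
  have c3 : 2 / τ * (2 * (η / τ)) ^ 2 = 8 * η ^ 2 / τ ^ 3 := by field_simp; ring
  have c4 : 64 / τ ^ 2 = 56 / τ ^ 2 + 8 / τ ^ 2 := by ring
  rw [c1] at h1; rw [c2] at h2; rw [c3] at h3
  rw [abs_le] at h1 h2 h3 ⊢
  constructor <;> linarith [h1.1, h1.2, h2.1, h2.2, h3.1, h3.2]

theorem Reg.abs_X2 (h : Reg G τ η) (hτ : 0 < τ) (hη : η ≤ 1 / 2) {a b : V} (hab : a ≠ b) :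
    |X2 G a b - 2 / τ ^ 2| ≤ 5 * η / τ ^ 2 := by
  have hη0 := h.nonneg hab
  have h1 : |∑ x ∈ nb G a b, (Y G a x + Y G b x - 2 / τ)| ≤ Y G a b * (2 * (η / τ)) := by
    refine (abs_sum_le_sum_abs _ _).trans ((sum_le_sum fun x hx => h.abs_s hτ hx).trans ?_)
    rw [sum_const, nsmul_eq_mul, Y]
  rw [sum_sub_distrib, sum_const, nsmul_eq_mul] at h1
  change |X2 G a b - Y G a b * _| ≤ _ at h1
  have h2 := abs_le.1 (h.abs_sub hτ hab)
  set D := 1 / τ with hD
  have hD0 : 0 < D := by positivity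
  have e1 : 2 / τ = 2 * D := by rw [hD]; ring
  have e2 : η / τ = η * D := by rw [hD]; ring
  have e3 : 2 / τ ^ 2 = 2 * D ^ 2 := by rw [hD]; ring
  have e4 : 5 * η / τ ^ 2 = 5 * η * D ^ 2 := by rw [hD]; ring
  rw [e2] at h2
  rw [e1, e2] at h1
  rw [e3, e4]
  have hy : Y G a b ≤ 3 / 2 * D := by nlinarith
  have k1 : Y G a b * (2 * (η * D)) ≤ 3 / 2 * D * (2 * (η * D)) :=
    mul_le_mul_of_nonneg_right hy (by positivity)
  have k2 := mul_le_mul_of_nonneg_right h2.1 hD0.le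
  have k3 := mul_le_mul_of_nonneg_right h2.2 hD0.le
  rw [abs_le] at h1 ⊢
  constructor <;> nlinarith [h1.1, h1.2]

theorem drift_X3 (h : Reg G τ η) (hτ : 0 < τ) (hη : η ≤ 1 / 2) {a b : V} (hab : a ≠ b) :
    |gen (fun H => X3 H a b) G + B G (X3 G) a b + 6 / τ * X3 G a b - 8 / τ ^ 3 * Y G a b| ≤
      672 / τ ^ 3 + 72 * η ^ 2 / τ ^ 4 := by
  have hη0 := h.nonneg hab
  have h1 := drift_B h hτ hη (fun H => X2 H) (c := 24 / τ) (Fm := 8 / τ ^ 2) (by positivity)
    (by positivity)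
    (fun u v huv => by rw [abs_of_nonneg (X2_nonneg u v)]; exact X2_le h hτ hη huv.ne)
    (fun T hT u v huv => inc_X2 h hτ hη hT huv.ne) hab
  have h2 := h.abs_B hτ hη (f := fun u v => gen (fun H => X2 H u v) G + X3 G u v +
      4 / τ * X2 G u v - 4 / τ ^ 2 * Y G u v) (c := 64 / τ ^ 2 + 8 * η ^ 2 / τ ^ 3)
    (by positivity) (fun u v huv => drift_X2 h hτ hη huv.ne) hab
  rw [B_sub, B_add, B_add, B_mul, B_mul] at h2
  have h3 := h.abs_sum hτ hη hab
    (f := fun x => (Y G a x + Y G b x - 2 / τ) * (X2 G a x + X2 G b x - 4 / τ ^ 2))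
    (c := 2 * (η / τ) * (10 * η / τ ^ 2)) (by positivity) fun x hx => by
      rw [abs_mul]
      refine mul_le_mul (h.abs_s hτ hx) ?_ (abs_nonneg _) (by positivity)
      have a1 := h.abs_X2 hτ hη (mem_nb.1 hx).1.ne
      have a2 := h.abs_X2 hτ hη (mem_nb.1 hx).2.ne
      have e : X2 G a x + X2 G b x - 4 / τ ^ 2 =
        (X2 G a x - 2 / τ ^ 2) + (X2 G b x - 2 / τ ^ 2) := by ring
      have e' : 10 * η / τ ^ 2 = 5 * η / τ ^ 2 + 5 * η / τ ^ 2 := by ring
      rw [e, e']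
      linarith [abs_add_le (X2 G a x - 2 / τ ^ 2) (X2 G b x - 2 / τ ^ 2)]
  have e : ∑ x ∈ nb G a b, (Y G a x + Y G b x) * (X2 G a x + X2 G b x) =
      2 / τ * X3 G a b + 4 / τ ^ 2 * X2 G a b - 8 / τ ^ 3 * Y G a b +
        ∑ x ∈ nb G a b, (Y G a x + Y G b x - 2 / τ) * (X2 G a x + X2 G b x - 4 / τ ^ 2) := by
    have e1 : 8 / τ ^ 3 * Y G a b = ∑ x ∈ nb G a b, 8 / τ ^ 3 := by
      rw [sum_const, nsmul_eq_mul, Y, mul_comm]
    have e2 : X3 G a b = ∑ x ∈ nb G a b, (X2 G a x + X2 G b x) := rfl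
    have e3 : X2 G a b = ∑ x ∈ nb G a b, (Y G a x + Y G b x) := rfl
    rw [e1, e2, e3, mul_sum, mul_sum, ← sum_add_distrib, ← sum_sub_distrib, ← sum_add_distrib]
    exact sum_congr rfl fun x _ => by ring
  rw [e] at h1
  change |gen (fun H => X3 H a b) G - _ + _| ≤ _ at h1
  change |_ + B G (X3 G) a b + 4 / τ * X3 G a b - 4 / τ ^ 2 * X2 G a b| ≤ _ at h2
  have c1 : 2 / τ * (2 * (8 / τ ^ 2) + 4 * (2 / τ) * (24 / τ)) = 416 / τ ^ 3 := by
    field_simp; ring
  have c2 : 2 * (64 / τ ^ 2 + 8 * η ^ 2 / τ ^ 3) * (2 / τ) =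
      256 / τ ^ 3 + 32 * η ^ 2 / τ ^ 4 := by field_simp; ring
  have c3 : 2 / τ * (2 * (η / τ) * (10 * η / τ ^ 2)) = 40 * η ^ 2 / τ ^ 4 := by field_simp; ring
  have c4 : 672 / τ ^ 3 + 72 * η ^ 2 / τ ^ 4 =
      416 / τ ^ 3 + (256 / τ ^ 3 + 32 * η ^ 2 / τ ^ 4) + 40 * η ^ 2 / τ ^ 4 := by ring
  have c5 : 6 / τ * X3 G a b = 4 / τ * X3 G a b + 2 / τ * X3 G a b := by ring
  rw [c1] at h1; rw [c2] at h2; rw [c3] at h3
  rw [c4, c5]
  rw [abs_le] at h1 h2 h3 ⊢
  constructor <;> linarith [h1.1, h1.2, h2.1, h2.2, h3.1, h3.2]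

theorem drift_N3 (h : Reg G τ η) (hτ : 0 < τ) {a b y : V} (hab : a ≠ b) (hay : a ≠ y)
    (hby : b ≠ y) :
    |gen (fun H => N3 H a b y) G + 3 / τ * N3 G a b y| ≤ N3 G a b y * (3 * η / τ + 3) := by
  have e1 : gen (fun H => N3 H a b y) G = -∑ T ∈ tri G, hc3 G T a b y := by
    rw [gen, ← sum_neg_distrib]
    exact sum_congr rfl fun T _ => by rw [N3_rem]; ring
  have e2 : 3 / τ * N3 G a b y = ∑ x ∈ nb3 G a b y, 3 / τ := by
    rw [sum_const, nsmul_eq_mul, N3_eq, mul_comm]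
  rw [e1, e2, sum_hc3, neg_add_eq_sub, ← sum_sub_distrib]
  refine (abs_sum_le_sum_abs _ _).trans ((sum_le_sum
    (g := fun _ => 3 * η / τ + 3) fun x hx => ?_).trans ?_)
  · have n1 := card_hit3_le hx
    have n2 := le_card_hit3 hab hay hby hx
    have hx := mem_nb3.1 hx
    have y1 := abs_le.1 (h.abs_sub hτ hx.1.ne)
    have y2 := abs_le.1 (h.abs_sub hτ hx.2.1.ne)
    have y3 := abs_le.1 (h.abs_sub hτ hx.2.2.ne)
    have c1 : 3 / τ = 3 * (1 / τ) := by ring
    have c2 : 3 * η / τ = 3 * (η / τ) := by ring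
    rw [c1, c2, abs_le]
    constructor <;> linarith [y1.1, y1.2, y2.1, y2.2, y3.1, y3.2]
  · rw [sum_const, nsmul_eq_mul, N3_eq]

theorem var_Y (h : Reg G τ η) (hτ : 0 < τ) (hη : η ≤ 1 / 2) {a b : V} (hab : a ≠ b) :
    ∑ T ∈ tri G, (Y (rem G T) a b - Y G a b) ^ 2 ≤ 24 / τ ^ 2 := by
  refine (sum_le_sum (g := fun T => 3 * hc G T a b) fun T hT => ?_).trans ?_
  · rw [Y_rem]
    nlinarith [hc_le hT a b, hc_nonneg (G := G) T a b]
  · rw [← mul_sum]
    have h1 := sum_hc_le (G := G) a b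
    have h2 := X2_le h hτ hη hab
    have : 24 / τ ^ 2 = 3 * (8 / τ ^ 2) := by ring
    linarith

theorem var_N3 (h : Reg G τ η) (hτ : 0 < τ) (hη : η ≤ 1 / 2) (a b y : V) :
    ∑ T ∈ tri G, (N3 (rem G T) a b y - N3 G a b y) ^ 2 ≤ 18 / τ * N3 G a b y := by
  refine (sum_le_sum (g := fun T => 3 * hc3 G T a b y) fun T hT => ?_).trans ?_
  · rw [N3_rem]
    nlinarith [hc3_le hT a b y, hc3_nonneg (G := G) T a b y]
  · rw [← mul_sum, sum_hc3]
    have h1 : ∑ x ∈ nb3 G a b y, (((tri G).filter fun T => hit3 a b y x T).card : ℝ) ≤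
        ∑ x ∈ nb3 G a b y, 3 * (2 / τ) := sum_le_sum fun x hx => by
      have n1 := card_hit3_le hx
      have hx := mem_nb3.1 hx
      linarith [h.Y_le hτ (by linarith) hx.1.ne, h.Y_le hτ (by linarith) hx.2.1.ne,
        h.Y_le hτ (by linarith) hx.2.2.ne]
    rw [sum_const, nsmul_eq_mul, ← N3_eq] at h1
    have : 18 / τ * N3 G a b y = 3 * (N3 G a b y * (3 * (2 / τ))) := by ring
    linarith

theorem card_hit_set (h : Reg G τ η) (hτ : 0 < τ) (S : Finset (Finset V))
    (hS : ∀ e ∈ S, e.card = 2) (hG : ∀ e ∈ S, G.IsClique (e : Set V)) :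
    (S.card : ℝ) * ((1 - η) / τ - S.card) ≤ ((tri G).filter fun T => ∃ e ∈ S, e ⊆ T).card := by
  induction S using Finset.induction_on with
  | empty => simp
  | insert e S he ih =>
    have ih := ih (fun e' h' => hS e' (mem_insert_of_mem h'))
      (fun e' h' => hG e' (mem_insert_of_mem h'))
    have he2 := hS e (mem_insert_self _ _)
    obtain ⟨u, v, huv, rfl⟩ := card_eq_two.1 he2
    have hadj : G.Adj u v := hG _ (mem_insert_self _ _) (by simp) (by simp) huv
    have h1 := card_tri_edge hadj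
    have h2 := (abs_le.1 (h.abs_sub hτ huv)).1
    set A := (tri G).filter fun T => ∃ e ∈ S, e ⊆ T with hA
    set C := (tri G).filter fun T => u ∈ T ∧ v ∈ T with hC
    have e1 : ((tri G).filter fun T => ∃ e ∈ insert ({u, v} : Finset V) S, e ⊆ T) = A ∪ C := by
      ext T
      simp only [hA, hC, mem_filter, mem_union, exists_mem_insert, insert_subset_iff,
        singleton_subset_iff]
      rw [and_or_left, or_comm]
    have h3 : (A ∩ C).card ≤ S.card := by
      refine le_trans (card_le_card (t := S.image fun e' => ({u, v} : Finset V) ∪ e')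
        fun T hT => ?_) card_image_le
      simp only [hA, hC, mem_inter, mem_filter] at hT
      obtain ⟨⟨hT, e', he', hsub⟩, -, hu, hv⟩ := hT
      refine mem_image.2 ⟨e', he', eq_of_subset_of_card_le
        (union_subset (by simp [insert_subset_iff, hu, hv]) hsub) ?_⟩
      rw [card_of_mem_tri hT]
      by_contra hlt
      have k1 : ({u, v} : Finset V) = {u, v} ∪ e' :=
        eq_of_subset_of_card_le subset_union_left (by omega)
      have k2 : e' = {u, v} ∪ e' := eq_of_subset_of_card_le subset_union_right (by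
        have := hS e' (mem_insert_of_mem he'); omega)
      exact he (by rw [k1, ← k2]; exact he')
    have h4 := card_union_add_card_inter A C
    have h5 : A.card + C.card ≤ (A ∪ C).card + S.card := by omega
    have h6 : (A.card : ℝ) + C.card ≤ (A ∪ C).card + S.card := by exact_mod_cast h5
    rw [e1, card_insert_of_notMem he]
    push_cast
    have e2 : (1 - η) / τ = 1 / τ - η / τ := by ring
    have h7 : (0 : ℝ) ≤ S.card := Nat.cast_nonneg _
    rw [e2] at ih ⊢
    nlinarith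

end Vale.Agent.P046
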