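import Vale.Agent.P046.Basic

/-! Part Law: the expectation functional of the process and the final statement. -/

namespace Vale.Agent.P046

open Finset Real
open scoped Classical

variable {V : Type} [Fintype V]

/-- expectation of `f` of the final graph -/
noncomputable def Phi (f : SimpleGraph V → ℝ) (G : SimpleGraph V) : ℝ :=
  ∑ H, (run (Fintype.card V ^ 2) G H).toReal * f H

namespace LawAux

variable {α β : Type} [Fintype α] [Fintype β]

/-- expectation under a probability mass function -/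
noncomputable def E (p : PMF α) (f : α → ℝ) : ℝ := ∑ a, (p a).toReal * f a

theorem E_bind (p : PMF α) (q : α → PMF β) (f : β → ℝ) :
    E (p.bind q) f = E p fun a => E (q a) f := by
  simp only [E, PMF.bind_apply, tsum_fintype, mul_sum]
  rw [sum_comm]
  refine sum_congr rfl fun b _ => ?_
  rw [ENNReal.toReal_sum fun a _ => ENNReal.mul_ne_top (p.apply_ne_top a) ((q a).apply_ne_top b),
    sum_mul]
  exact sum_congr rfl fun a _ => by rw [ENNReal.toReal_mul, mul_assoc]

theorem E_pure (a : α) (f : α → ℝ) : E (PMF.pure a) f = f a := by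
  rw [E, sum_eq_single a] <;> simp +contextual [PMF.pure_apply]

theorem E_map (p : PMF α) (g : α → β) (f : β → ℝ) : E (p.map g) f = E p fun a => f (g a) := by
  rw [← PMF.bind_pure_comp, E_bind]
  simp only [Function.comp, E_pure]

theorem E_unif {s : Finset α} (h : s.Nonempty) (f : α → ℝ) :
    E (PMF.uniformOfFinset s h) f = (∑ a ∈ s, f a) / s.card := by
  simp only [E, PMF.uniformOfFinset_apply, apply_ite ENNReal.toReal, ite_mul, ENNReal.toReal_zero,
    zero_mul, sum_ite_mem, univ_inter, ENNReal.toReal_inv, ENNReal.toReal_natCast, ← mul_sum]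
  rw [div_eq_inv_mul]

theorem E_const (p : PMF α) (c : ℝ) : E p (fun _ => c) = c := by
  rw [E, ← sum_mul, ← ENNReal.toReal_sum fun a _ => p.apply_ne_top a, ← tsum_fintype (L := .unconditional _),
    p.tsum_coe]
  simp

theorem E_mono (p : PMF α) {f g : α → ℝ} (h : ∀ a, f a ≤ g a) : E p f ≤ E p g :=
  sum_le_sum fun a _ => mul_le_mul_of_nonneg_left (h a) ENNReal.toReal_nonneg

theorem run_stop {G : SimpleGraph V} (h : tri G = ∅) (k : ℕ) : run k G = PMF.pure G := by
  induction k with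
  | zero => rfl
  | succ k ih => rw [run, step, dif_neg (by simp [h]), PMF.pure_bind, ih]

theorem run_succ {G : SimpleGraph V} (h : 0 < (tri G).card) (k : ℕ) (f : SimpleGraph V → ℝ) :
    E (run (k + 1) G) f = (∑ T ∈ tri G, E (run k (rem G T)) f) / (tri G).card := by
  rw [run, step, dif_pos h, E_bind, E_map, E_unif]

theorem darts_rem {G : SimpleGraph V} {T : Finset V} (h : T ∈ tri G) :
    (darts (rem G T)).card < (darts G).card := by
  obtain ⟨a, b, c, hab, -, -, rfl⟩ := SimpleGraph.is3Clique_iff.1 (mem_tri.1 h)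
  refine card_lt_card ⟨fun e he => mem_darts.2 (mem_darts.1 he).1, fun h' => ?_⟩
  exact (mem_darts.1 (h' (mem_darts.2 (show G.Adj (a, b).1 (a, b).2 from hab)))).2
    ⟨by simp, by simp⟩

theorem stab (f : SimpleGraph V → ℝ) (k : ℕ) : ∀ G : SimpleGraph V, (darts G).card ≤ k →
    E (run (k + 1) G) f = E (run k G) f := by
  induction k with
  | zero =>
    intro G hG
    have h : tri G = ∅ := eq_empty_of_forall_notMem fun T hT => by
      have := darts_rem hT
      omega
    rw [run_stop h, run_stop h]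
  | succ k ih =>
    intro G hG
    rcases Nat.eq_zero_or_pos (tri G).card with h | h
    · rw [run_stop (card_eq_zero.1 h), run_stop (card_eq_zero.1 h)]
    · rw [run_succ h, run_succ h]
      congr 1
      exact sum_congr rfl fun T hT => ih _ (by have := darts_rem hT; omega)

theorem dc_ncard (G : SimpleGraph V) : dc G = 2 * (G.edgeSet.ncard : ℝ) := by
  have h := G.two_mul_card_edgeFinset
  rw [← SimpleGraph.coe_edgeFinset, Set.ncard_coe_finset, dc]
  norm_cast
  rw [h, darts]

theorem markov (p : PMF α) (g : α → ℕ) (F : ℕ → ℝ) (hF : ∀ m, 0 ≤ F m) {ε : ℝ} (hε : 0 < ε) :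
    (p.map g).toMeasure {m | ε ≤ F m} ≤ ENNReal.ofReal ((E p fun a => F (g a)) / ε) := by
  rw [PMF.toMeasure_apply_eq_toOuterMeasure, PMF.toOuterMeasure_map_apply,
    PMF.toOuterMeasure_apply_fintype, E, sum_div, ENNReal.ofReal_sum_of_nonneg fun a _ =>
      div_nonneg (mul_nonneg ENNReal.toReal_nonneg (hF _)) hε.le]
  refine sum_le_sum fun a _ => ?_
  by_cases ha : a ∈ g ⁻¹' {m | ε ≤ F m}
  · rw [Set.indicator_of_mem ha]
    refine (ENNReal.ofReal_toReal (p.apply_ne_top a)).symm.le.trans (ENNReal.ofReal_le_ofReal ?_)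
    rw [le_div_iff₀ hε]
    exact mul_le_mul_of_nonneg_left ha ENNReal.toReal_nonneg
  · rw [Set.indicator_of_notMem ha]; exact zero_le

theorem integral_eq (p : PMF α) (g : α → ℕ) :
    ∫ m, (m : ℝ) ∂(p.map g).toMeasure = E p fun a => g a := by
  letI : MeasurableSpace α := ⊤
  rw [← PMF.toMeasure_map g p measurable_from_top, MeasureTheory.integral_map
    measurable_from_top.aemeasurable (measurable_from_top.aestronglyMeasurable),
    PMF.integral_eq_sum]
  rfl

theorem abs_E_le (p : PMF α) (f : α → ℝ) (c : ℝ) : |E p f - c| ≤ E p fun a => |f a - c| := by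
  nth_rewrite 1 [← E_const p c]
  rw [E, E, E, ← sum_sub_distrib]
  refine (abs_sum_le_sum_abs _ _).trans (sum_le_sum fun a _ => ?_)
  rw [← mul_sub, abs_mul, abs_of_nonneg ENNReal.toReal_nonneg]

theorem markov' (G : SimpleGraph V) (F : ℕ → ℝ) (hF : ∀ m, 0 ≤ F m) {ε : ℝ} (hε : 0 < ε) :
    ((run (Fintype.card V ^ 2) G).map fun H => H.edgeSet.ncard).toMeasure {m | ε ≤ F m} ≤
      ENNReal.ofReal (Phi (fun H => F H.edgeSet.ncard) G / ε) := markov _ _ F hF hε

theorem integral_le (G : SimpleGraph V) (x c : ℝ) :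
    |(∫ m : ℕ, (m : ℝ) ∂((run (Fintype.card V ^ 2) G).map fun H => H.edgeSet.ncard).toMeasure) / x - c|
      ≤ Phi (fun H => |(H.edgeSet.ncard : ℝ) / x - c|) G := by
  rw [integral_eq]
  refine le_trans (le_of_eq ?_) (abs_E_le _ _ _)
  simp only [E, sum_div, mul_div_assoc]

theorem law_eq (n : ℕ) : law n = (run (Fintype.card (Fin n) ^ 2) (⊤ : SimpleGraph (Fin n))).map
    fun H => H.edgeSet.ncard := by rw [Fintype.card_fin, law]

end LawAux

open LawAux

theorem Phi_harm (f : SimpleGraph V → ℝ) (G : SimpleGraph V) : gen (Phi f) G = 0 := by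
  rcases Nat.eq_zero_or_pos (tri G).card with h | h
  · rw [gen, card_eq_zero.1 h, sum_empty]
  have h1 := stab f (Fintype.card V ^ 2) G ((card_le_univ _).trans (by simp [sq]))
  rw [run_succ h, div_eq_iff (by exact_mod_cast h.ne')] at h1
  rw [gen, sum_sub_distrib, sum_const, nsmul_eq_mul, mul_comm, sub_eq_zero]
  exact h1

theorem Phi_stop (f : SimpleGraph V → ℝ) {G : SimpleGraph V} (h : tri G = ∅) : Phi f G = f G := by
  rw [Phi, run_stop h]; exact E_pure G f

theorem Phi_const (c : ℝ) (G : SimpleGraph V) : Phi (fun _ => c) G = c := E_const _ c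

theorem Phi_mono {f g : SimpleGraph V → ℝ} (h : ∀ H, f H ≤ g H) (G : SimpleGraph V) :
    Phi f G ≤ Phi g G := E_mono _ h

theorem result_of_L1
    (h : ∀ ε : ℝ, 0 < ε → ∀ᶠ n : ℕ in Filter.atTop,
      Phi (fun G : SimpleGraph (Fin n) => |dc G / (2 * (n : ℝ) ^ (3 / 2 : ℝ)) - 1 / (2 * √2)|) ⊤ ≤ ε) :
    (∀ ε : ℝ, 0 < ε → Filter.Tendsto (fun n : ℕ => (law n).toMeasure
        {m : ℕ | ε ≤ |(m : ℝ) / (n : ℝ) ^ (3 / 2 : ℝ) - 1 / (2 * √2)|}) Filter.atTop (nhds 0)) ∧
      Filter.Tendsto (fun n : ℕ => (∫ m, (m : ℝ) ∂(law n).toMeasure) / (n : ℝ) ^ (3 / 2 : ℝ))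
        Filter.atTop (nhds (1 / (2 * √2))) := by
  have h' : Filter.Tendsto (fun n : ℕ => Phi (fun G : SimpleGraph (Fin n) =>
      |(G.edgeSet.ncard : ℝ) / (n : ℝ) ^ (3 / 2 : ℝ) - 1 / (2 * √2)|) ⊤) Filter.atTop (nhds 0) := by
    refine tendsto_order.2 ⟨fun a ha => .of_forall fun n => ha.trans_le
      ((Phi_const 0 _).symm.le.trans (Phi_mono (fun _ => abs_nonneg _) _)), fun a ha => ?_⟩
    filter_upwards [h (a / 2) (by linarith)] with n hn
    simp only [dc_ncard, mul_div_mul_left _ _ (two_ne_zero' ℝ)] at hn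
    exact lt_of_le_of_lt hn (by linarith)
  simp only [law_eq]
  refine ⟨fun ε hε => ?_, ?_⟩
  · have h2 := ENNReal.tendsto_ofReal (h'.div_const ε)
    rw [zero_div, ENNReal.ofReal_zero] at h2
    exact tendsto_of_tendsto_of_tendsto_of_le_of_le tendsto_const_nhds h2 (fun _ => zero_le)
      fun n => markov' _ (fun m => |(m : ℝ) / (n : ℝ) ^ (3 / 2 : ℝ) - 1 / (2 * √2)|)
        (fun _ => abs_nonneg _) hε
  · rw [tendsto_iff_dist_tendsto_zero]
    exact squeeze_zero (fun _ => dist_nonneg) (fun n => integral_le _ _ _) h'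

end Vale.Agent.P046
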