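import Vale.Agent.P046.GapB

/-! Part Gap: the iterates approximate the fixed point on average. -/

namespace Vale.Agent.P046

open Finset Real
open scoped Classical

variable {V : Type} [Fintype V]

namespace GapAux

variable {G : SimpleGraph V} {D Λ : ℝ} {K j₁ : ℕ}

theorem pow_eq_exp (H : Hyp G D Λ K) (n : ℕ) : Λ ^ n = exp (n * log Λ) := by
  rw [exp_nat_mul, exp_log H.Λ_pos]

theorem II_half (H : Hyp G D Λ K) (C : Cr G D Λ K j₁) :
    ∀ j ≤ K, ∀ u v, G.Adj u v → ∀ x ∈ nb G u v, II G K j u v x ≤ 1 / 2 := by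
  intro j hj u v huv x hx
  refine (C.small j hj u v huv x hx).trans ?_
  rw [div_le_iff₀ H.hD]
  have h1 := H.pow_le_D
  have h2 : Λ ^ 9 ≤ Λ ^ 100 := pow_le_pow_right₀ H.one_le_Λ (by norm_num)
  have h3 : Λ ^ 9 = Λ ^ 8 * Λ := pow_succ Λ 8
  have h4 : 0 < Λ ^ 8 := pow_pos H.Λ_pos 8
  nlinarith [H.hΛ]

theorem two_exp (H : Hyp G D Λ K) (t : ℝ) : 2 * exp (t - log Λ) ≤ exp t := by
  rw [exp_sub, exp_log H.Λ_pos, mul_div_assoc', div_le_iff₀ H.Λ_pos]
  nlinarith [H.hΛ, exp_pos t]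

theorem ph1 (H : Hyp G D Λ K) (C : Cr G D Λ K j₁) {k : ℕ}
    (hk : 2 * ⌈1000 * sg D K j₁ + 4005 * log Λ⌉₊ + 1 ≤ k) {i : ℕ} (hi : i ≤ j₁) {u v : V}
    (huv : G.Adj u v) : Gp G K k i u v (exp (-(4004 * log Λ))) := by
  set t := 1000 * sg D K j₁ + 4005 * log Λ with ht
  have hD := H.hD
  have hl := H.one_le_logΛ
  have P : Ph G D Λ K 0 j₁ 0 0 (exp (-t)) 1 0 (1 + 800 * D / exp (-t)) fun _ => ∅ :=
    { hJ := C.le
      he0 := le_rfl
      he1 := zero_le_one
      hε := exp_pos _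
      he := by simpa using (exp_pos _).le
      hb := le_rfl
      hΓ1 := by have := exp_pos (-t); have : 0 ≤ 800 * D / exp (-t) := by positivity
                linarith
      hΓ := by
        have := exp_pos (-t)
        rw [mul_add, mul_div_cancel₀ _ this.ne']; linarith
      hII := II_half H C
      h0 := fun _ _ i hi => absurd hi (Nat.not_lt_zero i)
      h3 := fun i hi => absurd hi (Nat.not_lt_zero i)
      hB := fun i _ hi u v huv _ c => by
        linarith [C.sup i hi u v c huv, pp_pos (D := D) (K := K) i]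
      hBc := fun _ _ _ => by simp
      hM := fun k _ i _ hi u v c _ =>
        ⟨W_le_one k (hi.trans C.le) u v c, pi_le_one (hi.trans C.le) u v c⟩ }
  obtain ⟨m, hm, hkm⟩ : ∃ m, ⌈t⌉₊ ≤ m ∧ (k = 2 * (0 + m) + 1 ∨ k = 2 * (0 + m) + 2) :=
    ⟨(k - 1) / 2, by omega, by omega⟩
  have hmt : t ≤ m := (Nat.le_ceil t).trans (by exact_mod_cast hm)
  have hE : (exp (-(m : ℝ)) + exp (-t)) * EE D K 0 i ≤ exp (-(4004 * log Λ)) := by
    have h1 : exp (-(m : ℝ)) ≤ exp (-t) := exp_le_exp.2 (by linarith)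
    have h2 : EE D K 0 i ≤ exp (1000 * sg D K j₁) :=
      exp_le_exp.2 (by linarith [H.sg_mono hi, H.sg_nonneg 0])
    have h3 := two_exp H (-(4004 * log Λ))
    have h4 : exp (-t) * exp (1000 * sg D K j₁) = exp (-(4004 * log Λ) - log Λ) := by
      rw [← exp_add]; congr 1; rw [ht]; ring
    calc (exp (-(m : ℝ)) + exp (-t)) * EE D K 0 i
        ≤ (exp (-t) + exp (-t)) * exp (1000 * sg D K j₁) := by
          have := EE_pos (D := D) (K := K) (j₀ := 0) i
          gcongr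
      _ = 2 * (exp (-t) * exp (1000 * sg D K j₁)) := by ring
      _ ≤ _ := by rw [h4]; exact h3
  have hE1 : exp (-(4004 * log Λ)) ≤ 1 := exp_le_one_iff.2 (by linarith)
  have hE0 : 0 ≤ (exp (-(m : ℝ)) + exp (-t)) * EE D K 0 i :=
    mul_nonneg (by positivity) (EE_pos i).le
  obtain ⟨⟨C₁, h1, g1⟩, ⟨C₂, h2, g2⟩⟩ := phase H P m
  rw [zero_mul] at h1 h2
  have e1 : C₁ = ∅ := card_eq_zero.1 (by exact_mod_cast le_antisymm h1 (Nat.cast_nonneg _))
  have e2 : C₂ = ∅ := card_eq_zero.1 (by exact_mod_cast le_antisymm h2 (Nat.cast_nonneg _))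
  rcases hkm with rfl | rfl
  · exact (g1 i (Nat.zero_le i) hi u v huv (by simp [e1])).mono (hi.trans C.le) hE
  · exact (g2 i (Nat.zero_le i) hi (by linarith) u v huv (by simp [e2])).mono (hi.trans C.le)
      (by linarith)

theorem pp_ratio (H : Hyp G D Λ K) (C : Cr G D Λ K j₁) : pp D K j₁ ≤ Λ ^ 4 * pp D K K := by
  have h1 := C.p1
  have h2 := H.le_pp_sq (le_refl K)
  have hD := H.hD
  have hΛ := H.Λ_pos
  have h3 : pp D K j₁ ^ 2 ≤ (Λ ^ 4 * pp D K K) ^ 2 := by
    calc pp D K j₁ ^ 2 ≤ 2 * Λ ^ 7 / D := h1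
      _ = 8 * Λ ^ 7 * (1 / (4 * D)) := by field_simp; ring
      _ ≤ Λ * Λ ^ 7 * pp D K K ^ 2 := by
          gcongr
          linarith [H.hΛ]
      _ = _ := by ring
  exact le_of_sq_le_sq h3 (mul_nonneg (by positivity) (pp_pos K).le)

theorem both_le (H : Hyp G D Λ K) (C : Cr G D Λ K j₁) {k : ℕ}
    (hk : 2 * ⌈1000 * sg D K j₁ + 4005 * log Λ⌉₊ + 1 ≤ k) {i : ℕ} (hi : j₁ ≤ i) (hiK : i ≤ K)
    {u v : V} (c : V) (huv : G.Adj u v) :
    W G K k i u v c ≤ 4 * pp D K j₁ ∧ fx G K i u v c ≤ 4 * pp D K j₁ := by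
  have h1 := (abs_le.1 (ph1 H C hk le_rfl huv c)).2
  have h2 := C.sup j₁ le_rfl u v c huv
  have h3 := W_anti (G := G) k hi hiK u v c
  have h4 := pi_anti (G := G) hi hiK u v c
  have h5 : exp (-(4004 * log Λ)) ≤ 1 := exp_le_one_iff.2 (by linarith [H.one_le_logΛ])
  have h6 := pi_nonneg (G := G) C.le u v c
  have h7 := pp_pos (D := D) (K := K) j₁
  constructor <;> nlinarith

theorem final_sum {k : ℕ} {S : Finset (V × V)} {ψ M : ℝ} (hψ : 0 ≤ ψ) (hM0 : 0 ≤ M)
    (h : ∀ u v, G.Adj u v → (u, v) ∉ S → Gp G K k K u v ψ)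
    (hM : ∀ u v c, G.Adj u v → W G K k K u v c ≤ M ∧ fx G K K u v c ≤ M) :
    ∑ d ∈ darts G, |W G K k K d.1 d.2 d.1 - fx G K K d.1 d.2 d.1| ≤
      ψ * ∑ d ∈ darts G, fx G K K d.1 d.2 d.1 + S.card * M := by
  have h1 : ∀ d ∈ darts G, |W G K k K d.1 d.2 d.1 - fx G K K d.1 d.2 d.1| ≤
      ψ * fx G K K d.1 d.2 d.1 + M * ind S d.1 d.2 := by
    intro d hd
    have hadj := mem_darts.1 hd
    have hf := pi_nonneg (G := G) (le_refl K) d.1 d.2 d.1
    have hw := W_nonneg (G := G) k (le_refl K) d.1 d.2 d.1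
    by_cases hS : (d.1, d.2) ∈ S
    · have : ind S d.1 d.2 = 1 := if_pos hS
      obtain ⟨a1, a2⟩ := hM d.1 d.2 d.1 hadj
      rw [this, abs_le]
      constructor <;> nlinarith [mul_nonneg hψ hf]
    · have := h d.1 d.2 hadj hS d.1
      linarith [mul_nonneg hM0 (ind_nonneg S d.1 d.2)]
  refine (sum_le_sum h1).trans ?_
  rw [sum_add_distrib, ← mul_sum, ← mul_sum, mul_comm (S.card : ℝ)]
  refine add_le_add le_rfl (mul_le_mul_of_nonneg_left ?_ hM0)
  simp only [ind, Prod.mk.eta, sum_boole]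
  exact_mod_cast card_le_card fun d hd => (mem_filter.1 hd).2

end GapAux

open GapAux in
theorem gap {G : SimpleGraph V} {D Λ : ℝ} {K j₁ : ℕ} (H : Hyp G D Λ K) (C : Cr G D Λ K j₁)
    (hbad : ∀ j ≤ K,
      (((darts G).filter fun d => ∃ c, 3 * pp D K j < fx G K j d.1 d.2 c).card : ℝ) ≤
        dc G * (2 * Λ ^ 43 * exp (-(log D / 8)))) :
    ∃ R : ℕ, (R : ℝ) ≤ 600 * log D ∧ ∀ k, k = 2 * R + 1 ∨ k = 2 * R + 2 →
      ∑ d ∈ darts G, |W G K k K d.1 d.2 d.1 - fx G K K d.1 d.2 d.1| ≤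
        (∑ d ∈ darts G, fx G K K d.1 d.2 d.1 + dc G * pp D K K) / Λ := by
  have hD := H.hD
  have hΛ := H.Λ_pos
  have hl := H.one_le_logΛ
  have hbig := H.hbig
  have hN : 0 ≤ dc G := Nat.cast_nonneg _
  set m₁ := ⌈1000 * sg D K j₁ + 4005 * log Λ⌉₊ with hm₁
  set m₂ := ⌈4002 * log Λ⌉₊ with hm₂
  have hm2 : (m₂ : ℝ) ≤ 4003 * log Λ := by
    have := Nat.ceil_lt_add_one (a := 4002 * log Λ) (by linarith)
    linarith
  have hm2' : 4002 * log Λ ≤ m₂ := Nat.le_ceil _
  have P : Ph G D Λ K j₁ K m₁ (exp (-(4004 * log Λ))) (exp (-(4002 * log Λ))) (4 * pp D K j₁)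
      (dc G * (2 * Λ ^ 43 * exp (-(log D / 8)))) (exp (4010 * log Λ))
      fun j => (darts G).filter fun d => ∃ c, 3 * pp D K j < fx G K j d.1 d.2 c :=
    { hJ := le_rfl
      he0 := (exp_pos _).le
      he1 := exp_le_one_iff.2 (by linarith)
      hε := exp_pos _
      he := by
        have e : exp (-(4002 * log Λ)) = Λ ^ 2 * exp (-(4004 * log Λ)) := by
          rw [pow_eq_exp H, ← exp_add]; congr 1; push_cast; ring
        rw [e]
        have h1 := exp_pos (-(4004 * log Λ))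
        have h2 : 10800 * Λ ≤ Λ ^ 2 := by nlinarith [H.hΛ]
        nlinarith
      hb := by positivity
      hΓ1 := one_le_exp (by linarith)
      hΓ := by
        have e : exp (-(4002 * log Λ)) * exp (4010 * log Λ) = Λ * Λ ^ 7 := by
          rw [← pow_succ', pow_eq_exp H, ← exp_add]; congr 1; push_cast; ring
        rw [e]
        have h1 := C.p1
        rw [le_div_iff₀ hD] at h1
        have h2 : 0 < Λ ^ 7 := by positivity
        nlinarith [H.hΛ]
      hII := II_half H C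
      h0 := fun k hk i hi u v huv => ph1 H C hk hi.le huv
      h3 := fun i hi u v c huv => by
        linarith [C.sup i hi.le u v c huv, pp_pos (D := D) (K := K) i]
      hB := fun i _ _ u v huv hn c => by
        by_contra hlt
        exact hn (mem_filter.2 ⟨mem_darts.2 huv, c, not_le.1 hlt⟩)
      hBc := fun i _ hi => hbad i hi
      hM := fun k hk i hi hiK u v c huv => both_le H C hk hi hiK c huv }
  have hrat := pp_ratio H C
  have hE : (exp (-(m₂ : ℝ)) + exp (-(4002 * log Λ))) * EE D K j₁ K ≤ 1 / Λ := by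
    have h1 : exp (-(m₂ : ℝ)) ≤ exp (-(4002 * log Λ)) := exp_le_exp.2 (by linarith)
    have h2 : EE D K j₁ K ≤ exp (4000 * log Λ) := by
      refine exp_le_exp.2 ?_
      rw [pow_eq_exp H, pp, pp, ← exp_add, exp_le_exp] at hrat
      push_cast at hrat
      linarith
    have h3 := two_exp H (-log Λ)
    have h4 : exp (-(4002 * log Λ)) * exp (4000 * log Λ) = exp (-log Λ - log Λ) := by
      rw [← exp_add]; congr 1; ring
    calc (exp (-(m₂ : ℝ)) + exp (-(4002 * log Λ))) * EE D K j₁ K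
        ≤ (exp (-(4002 * log Λ)) + exp (-(4002 * log Λ))) * exp (4000 * log Λ) := by
          have := EE_pos (D := D) (K := K) (j₀ := j₁) K
          gcongr
      _ = 2 * (exp (-(4002 * log Λ)) * exp (4000 * log Λ)) := by ring
      _ ≤ exp (-log Λ) := by rw [h4]; exact h3
      _ = 1 / Λ := by rw [exp_neg, exp_log hΛ, one_div]
  have hE0 : 0 ≤ (exp (-(m₂ : ℝ)) + exp (-(4002 * log Λ))) * EE D K j₁ K :=
    mul_nonneg (by positivity) (EE_pos K).le
  have hinv : 1 / Λ ≤ 1 := by rw [div_le_one hΛ]; exact H.one_le_Λ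
  have hcard : ∀ n : ℕ, n ≤ 2 * m₂ + 1 →
      dc G * (2 * Λ ^ 43 * exp (-(log D / 8))) * (2 * exp (4010 * log Λ)) ^ n *
        (4 * pp D K j₁) ≤ dc G * pp D K K / Λ := by
    intro n hn
    have hn' : (n : ℝ) ≤ 8007 * log Λ := by
      have : (n : ℝ) ≤ 2 * m₂ + 1 := by exact_mod_cast hn
      linarith
    have h1 : 2 * exp (4010 * log Λ) ≤ exp (4011 * log Λ) := by
      have := two_exp H (4011 * log Λ)
      rwa [show 4011 * log Λ - log Λ = 4010 * log Λ by ring] at this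
    have h2 : (2 * exp (4010 * log Λ)) ^ n ≤ exp (4011 * 8007 * log Λ ^ 2) := by
      calc (2 * exp (4010 * log Λ)) ^ n ≤ exp (4011 * log Λ) ^ n := by gcongr
        _ = exp (n * (4011 * log Λ)) := (exp_nat_mul _ _).symm
        _ ≤ _ := exp_le_exp.2 (by nlinarith)
    have h3 : 8 * Λ ^ 48 ≤ exp (49 * log Λ) := by
      have := pow_eq_exp H 49
      push_cast at this
      rw [← this, pow_succ' Λ 48]
      have : 0 < Λ ^ 48 := by positivity
      nlinarith [H.hΛ]
    have h4 : exp (49 * log Λ) * (exp (-(log D / 8)) * exp (4011 * 8007 * log Λ ^ 2)) ≤ 1 := by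
      rw [← exp_add, ← exp_add, exp_le_one_iff]
      nlinarith
    have hp := pp_pos (D := D) (K := K) K
    have hp1 := pp_pos (D := D) (K := K) j₁
    rw [le_div_iff₀ hΛ]
    calc dc G * (2 * Λ ^ 43 * exp (-(log D / 8))) * (2 * exp (4010 * log Λ)) ^ n *
          (4 * pp D K j₁) * Λ
        ≤ dc G * (2 * Λ ^ 43 * exp (-(log D / 8))) * exp (4011 * 8007 * log Λ ^ 2) *
          (4 * (Λ ^ 4 * pp D K K)) * Λ := by gcongr
      _ = dc G * pp D K K * (8 * Λ ^ 48 *
          (exp (-(log D / 8)) * exp (4011 * 8007 * log Λ ^ 2))) := by ring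
      _ ≤ dc G * pp D K K * (exp (49 * log Λ) *
          (exp (-(log D / 8)) * exp (4011 * 8007 * log Λ ^ 2))) := by gcongr
      _ ≤ dc G * pp D K K * 1 := by gcongr
      _ = _ := mul_one _
  have hp1 := pp_pos (D := D) (K := K) j₁
  refine ⟨m₁ + m₂, ?_, ?_⟩
  · have h1 : (m₁ : ℝ) ≤ 1000 * sg D K j₁ + 4005 * log Λ + 1 :=
      (Nat.ceil_lt_add_one (by linarith [H.sg_nonneg j₁])).le
    have h2 : 2 * sg D K j₁ ≤ log D + 2 := by
      have h3 := H.exp_sg_le_four C.le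
      have h4 : 4 * D ≤ exp (log D + 2) := by
        rw [exp_add, exp_log hD]
        have h5 : exp 2 = exp 1 * exp 1 := by rw [← exp_add]; norm_num
        have h6 := exp_one_gt_d9
        have h7 : 4 ≤ exp 2 := by rw [h5]; nlinarith
        nlinarith
      exact exp_le_exp.1 (h3.trans h4)
    push_cast
    nlinarith
  · obtain ⟨⟨C₁, h1, g1⟩, ⟨C₂, h2, g2⟩⟩ := phase H P m₂
    intro k hk
    have hM : ∀ u v c, G.Adj u v → W G K k K u v c ≤ 4 * pp D K j₁ ∧
        fx G K K u v c ≤ 4 * pp D K j₁ := fun u v c huv =>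
      both_le H C (by omega) C.le le_rfl c huv
    rw [add_div, div_eq_inv_mul (∑ d ∈ darts G, fx G K K d.1 d.2 d.1), ← one_div]
    rcases hk with rfl | rfl
    · refine (final_sum (S := C₁) (ψ := 1 / Λ) (by positivity) (by positivity)
        (fun u v huv hn => (g1 K C.le le_rfl u v huv hn).mono le_rfl hE) hM).trans ?_
      refine add_le_add le_rfl (le_trans ?_ (hcard (2 * m₂) (by omega)))
      gcongr
    · refine (final_sum (S := C₂) (ψ := 1 / Λ) (by positivity) (by positivity)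
        (fun u v huv hn => (g2 K C.le le_rfl (by linarith) u v huv hn).mono le_rfl
          (by linarith)) hM).trans ?_
      refine add_le_add le_rfl (le_trans ?_ (hcard (2 * m₂ + 1) le_rfl))
      gcongr

end Vale.Agent.P046
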