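import Vale.Agent.P046.BP0

/-! Part L2: the quadratic potential. -/

namespace Vale.Agent.P046

open Finset Real
open scoped Classical

variable {V : Type} [Fintype V]

namespace L2Aux

theorem tri_ineq {A B C : ℝ} (hA : 0 ≤ A) (hB : 0 ≤ B) (hC : 0 ≤ C) :
    2 * A * (A - 1) * (1 - B * C) + 2 * C * (C - 1) * (1 - A * B) + 2 * B * (B - 1) * (1 - C * A) ≤
      7 / 2 * ((A - 1) ^ 2 + (C - 1) ^ 2 + (B - 1) ^ 2) := by
  suffices h : (A + B + C - 3) * (1 - A * B * C) ≤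
      3 / 4 * ((A - 1) ^ 2 + (C - 1) ^ 2 + (B - 1) ^ 2) by nlinarith
  rcases le_total (A + B + C) 3 with h | h
  · have h1 : A * B * C ≤ 1 := by
      have h2 : A * B ≤ ((A + B) / 2) ^ 2 := by nlinarith [sq_nonneg (A - B)]
      have h3 : A * B * C ≤ ((A + B) / 2) ^ 2 * (3 - (A + B)) :=
        mul_le_mul h2 (by linarith) hC (sq_nonneg _)
      nlinarith [mul_nonneg (sq_nonneg ((A + B) / 2 - 1)) (show 0 ≤ A + B + 1 by linarith)]
    have := mul_nonpos_of_nonpos_of_nonneg (show A + B + C - 3 ≤ 0 by linarith)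
      (show 0 ≤ 1 - A * B * C by linarith)
    have : 0 ≤ (A - 1) ^ 2 + (C - 1) ^ 2 + (B - 1) ^ 2 := by positivity
    linarith
  · have key : ∀ x : ℝ, 0 ≤ x → ∃ x', 0 ≤ x' ∧ x' ≤ 1 ∧ x' ≤ x ∧ (x - x') ^ 2 ≤ (x - 1) ^ 2 := by
      intro x hx
      rcases le_total x 1 with h | h
      · exact ⟨x, hx, h, le_rfl, by simpa using sq_nonneg _⟩
      · exact ⟨1, zero_le_one, le_rfl, h, le_rfl⟩
    obtain ⟨a, a0, a1, a2, a3⟩ := key A hA
    obtain ⟨b, b0, b1, b2, b3⟩ := key B hB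
    obtain ⟨c, c0, c1, c2, c3⟩ := key C hC
    have h1 : a * b * c ≤ A * B * C := by gcongr
    have h2 : a + b + c - 2 ≤ a * b * c := by
      have h3 : a * b ≤ 1 := mul_le_one₀ a1 b0 b1
      nlinarith [mul_nonneg (sub_nonneg.2 a1) (sub_nonneg.2 b1),
        mul_nonneg (sub_nonneg.2 h3) (sub_nonneg.2 c1)]
    have h3 := mul_le_mul_of_nonneg_left (show 1 - A * B * C ≤ 3 - (a + b + c) by linarith)
      (show 0 ≤ A + B + C - 3 by linarith)
    nlinarith [sq_nonneg ((A - a) + (B - b) + (C - c) - 2 * (3 - (a + b + c))),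
      sq_nonneg ((A - a) - (B - b)), sq_nonneg ((A - a) - (C - c)), sq_nonneg ((B - b) - (C - c))]

theorem prod_approx {ι : Type} (s : Finset ι) (u : ι → ℝ) (h : ∀ i ∈ s, 0 ≤ u i)
    (h1 : ∑ i ∈ s, u i ≤ 1) :
    1 - ∑ i ∈ s, u i ≤ ∏ i ∈ s, (1 - u i) ∧
      ∏ i ∈ s, (1 - u i) ≤ 1 - ∑ i ∈ s, u i + (∑ i ∈ s, u i) ^ 2 ∧ ∏ i ∈ s, (1 - u i) ≤ 1 := by
  induction s using Finset.induction_on with
  | empty => simp
  | insert i s hi ih =>
    rw [sum_insert hi] at h1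
    have h2 := h i (mem_insert_self _ _)
    have h3 : 0 ≤ ∑ i ∈ s, u i := sum_nonneg fun j hj => h j (mem_insert_of_mem hj)
    obtain ⟨i1, i2, i3⟩ := ih (fun j hj => h j (mem_insert_of_mem hj)) (by linarith)
    rw [sum_insert hi, prod_insert hi]
    have h4 : 0 ≤ 1 - u i := by linarith
    refine ⟨by nlinarith [mul_le_mul_of_nonneg_left i1 h4], ?_, by nlinarith⟩
    nlinarith [mul_le_mul_of_nonneg_left i2 h4, mul_nonneg h2 (sq_nonneg (∑ i ∈ s, u i)),
      mul_nonneg h2 h3]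

theorem ratio {w I₀ I₁ I₂ ι : ℝ} (hw : 0 ≤ w) (hι : ι ≤ 1 / 100) (h0 : 0 ≤ I₀ ∧ I₀ ≤ ι)
    (h1 : 0 ≤ I₁ ∧ I₁ ≤ ι) (h2 : 0 ≤ I₂ ∧ I₂ ≤ ι) {u : ℝ}
    (hu : u * ((1 - I₀) * ((1 - I₁) * (1 - I₂))) = w) : w ≤ u ∧ u ≤ (1 + 4 * ι) * w := by
  have a1 : 1 - 2 * ι ≤ (1 - I₁) * (1 - I₂) := by nlinarith [mul_nonneg h1.1 h2.1]
  have a2 : (1 - I₁) * (1 - I₂) ≤ 1 := mul_le_one₀ (by linarith) (by linarith) (by linarith)
  have a3 : 1 - 3 * ι ≤ (1 - I₀) * ((1 - I₁) * (1 - I₂)) := by nlinarith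
  have a4 : (1 - I₀) * ((1 - I₁) * (1 - I₂)) ≤ 1 := mul_le_one₀ (by linarith) (by linarith) a2
  generalize (1 - I₀) * ((1 - I₁) * (1 - I₂)) = q at *
  have a5 : 0 ≤ u := by
    by_contra c
    nlinarith
  have a6 : 1 ≤ (1 + 4 * ι) * q := by nlinarith
  exact ⟨by nlinarith, by nlinarith⟩

theorem expand {t U P : ℝ} (ht : 0 ≤ t) (ht1 : t ≤ 1) (hU : 0 ≤ U) (h1 : 1 - U ≤ P)
    (h2 : P ≤ 1 - U + U ^ 2) (h3 : P ≤ 1) (h4 : U ≤ 1) :
    |exp t * P - (1 + t - U)| ≤ t * U + t ^ 2 + 2 * U ^ 2 := by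
  have h5 := abs_le.1 (abs_exp_sub_one_sub_id_le (x := t) (by rwa [abs_of_nonneg ht]))
  have h6 : exp t * P - (1 + t - U) =
      -(t * U) + (exp t - 1 - t) * P + (P - (1 - U)) * (1 + t) := by ring
  have h7 : 0 ≤ P := by linarith
  have h8 := mul_nonneg ht hU
  rw [h6, abs_le]
  constructor <;> nlinarith [mul_le_mul_of_nonneg_right h5.1 h7, mul_le_mul_of_nonneg_right h5.2 h7,
    mul_nonneg (sub_nonneg.2 h1) (show 0 ≤ 1 + t by linarith), sq_nonneg t, sq_nonneg U,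
    mul_le_mul (show P - (1 - U) ≤ U ^ 2 by linarith) (show 1 + t ≤ 2 by linarith)
      (by linarith) (sq_nonneg U)]

theorem final {y L ι M A S r U W Z m : ℝ} (hy : 0 < y) (L8 : 1 ≤ L) (hι : 0 ≤ ι) (hM : ι * L = M)
    (r1 : y * L * L ≤ M) (r4 : A ≤ M) (r5 : 10 ^ 5 * M ≤ S) (t0 : 0 ≤ y * r) (t1 : y * r ≤ y * 2)
    (W0 : 0 ≤ W) (W1 : W ≤ y * (2 * L)) (U1 : W ≤ U) (U2 : U ≤ (1 + 4 * ι) * W)
    (U3 : U ≤ y * (4 * L)) (sc : -(9 * A) ≤ Z - r ∧ Z - r ≤ 9 * A)
    (ex : -(y * r * U + (y * r) ^ 2 + 2 * U ^ 2) ≤ m - (1 + y * r - U) ∧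
      m - (1 + y * r - U) ≤ y * r * U + (y * r) ^ 2 + 2 * U ^ 2) :
    |m - (1 + (y * Z - W))| ≤ y * S := by
  have q1 : y * r * U ≤ y * 2 * (y * (4 * L)) := mul_le_mul t1 U3 (W0.trans U1) (by positivity)
  have q2 : (y * r) ^ 2 ≤ (y * 2) ^ 2 := by gcongr
  have q3 : U ^ 2 ≤ (y * (4 * L)) ^ 2 := pow_le_pow_left₀ (W0.trans U1) U3 2
  have q4 : 4 * ι * W ≤ 4 * ι * (y * (2 * L)) := by gcongr
  have q5 := mul_le_mul_of_nonneg_left sc.1 hy.le
  have q6 := mul_le_mul_of_nonneg_left sc.2 hy.le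
  have r2 : y * L ≤ y * L * L := le_mul_of_one_le_right (by positivity) L8
  have r3 : y ≤ y * L := le_mul_of_one_le_right hy.le L8
  have r7 : 8 * (y * L) + 4 * y + 32 * (y * L * L) + 8 * (ι * L) + 9 * A ≤ S := by linarith
  have r8 := mul_le_mul_of_nonneg_left r7 hy.le
  have r9 : 0 ≤ 4 * ι * W := by positivity
  rw [abs_le]
  constructor <;> linarith [ex.1, ex.2]

variable {G : SimpleGraph V} {D Λ : ℝ} {K j₁ j : ℕ}

/-- normalised node value -/
noncomputable def aa (G : SimpleGraph V) (D : ℝ) (K j : ℕ) (a b : V) : ℝ :=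
  fx G K j a b a * exp (sg D K j * (1 + rr G D a b))

theorem aa_comm (a b : V) : aa G D K j a b = aa G D K j b a := by rw [aa, aa, pi_node, rr_comm]

theorem fx_eq (a b : V) : fx G K j a b a = pp D K j * (chi G D K j a b * aa G D K j a b) := by
  rw [aa, pp, chi, mul_comm (fx G K j a b a), ← mul_assoc, ← mul_assoc, ← exp_add, ← exp_add]
  rw [show -sg D K j + -(sg D K j * rr G D a b) + sg D K j * (1 + rr G D a b) = 0 by ring]
  simp

theorem aa_nonneg (hj : j ≤ K) (a b : V) : 0 ≤ aa G D K j a b :=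
  mul_nonneg (pi_nonneg hj _ _ _) (exp_pos _).le

/-- the potential -/
noncomputable def VV (G : SimpleGraph V) (D : ℝ) (K j : ℕ) : ℝ :=
  ∑ d ∈ darts G, chi G D K j d.1 d.2 * (aa G D K j d.1 d.2 - 1) ^ 2

/-- the drift -/
noncomputable def ZZ (G : SimpleGraph V) (D : ℝ) (K j : ℕ) (a b : V) : ℝ :=
  (∑ x ∈ nb G a b, chi G D K j a x * chi G D K j b x * (1 - aa G D K j a x * aa G D K j b x)) / D

theorem sum_cyc (F : V → V → V → ℝ) : ∑ d ∈ darts G, ∑ x ∈ nb G d.1 d.2, F d.1 d.2 x =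
    ∑ d ∈ darts G, ∑ x ∈ nb G d.1 d.2, F d.2 x d.1 := by
  have e : ∀ F : V → V → V → ℝ, ∑ d ∈ darts G, ∑ x ∈ nb G d.1 d.2, F d.1 d.2 x =
      ∑ a, ∑ b, ∑ x, if G.Adj a b ∧ G.Adj a x ∧ G.Adj b x then F a b x else 0 := fun F => by
    simp only [darts, nb, sum_filter, Fintype.sum_prod_type]
    refine sum_congr rfl fun a _ => sum_congr rfl fun b _ => ?_
    by_cases h : G.Adj a b <;> simp [h]
  rw [e F, e fun a b x => F b x a]
  symm
  rw [sum_comm]
  refine sum_congr rfl fun b _ => ?_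
  rw [sum_comm]
  refine sum_congr rfl fun x _ => sum_congr rfl fun a _ => if_congr ?_ rfl rfl
  rw [G.adj_comm a b, G.adj_comm a x]
  tauto

section

variable (H : Hyp G D Λ K) (C : Cr G D Λ K j₁)
include H

theorem small (k : ℕ) (hk : k ≤ 99) : Λ ^ k / D ≤ 1 / 10 ^ 5 := by
  have h1 := H.pow_le_D
  have h2 : Λ ^ (k + 1) ≤ Λ ^ 100 := pow_le_pow_right₀ H.one_le_Λ (by omega)
  have h3 := pow_pos H.Λ_pos k
  rw [div_le_div_iff₀ H.hD (by norm_num)]
  rw [pow_succ] at h2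
  nlinarith [H.hΛ]

theorem sum_chi_le (hj : j ≤ K) {a b : V} (hab : G.Adj a b) :
    (∑ x ∈ nb G a b, chi G D K j a x * chi G D K j b x) / D ≤ 101 / 100 := by
  have h1 := (abs_le.1 (H.sum_chi hj hab)).2
  have h2 := (abs_le.1 (H.rr_abs hab)).2
  have h3 := H.inv_pow_le 49 (by norm_num)
  have h4 := small H 3 (by norm_num)
  rw [mul_div_assoc] at h1
  linarith

theorem drift (hj : j ≤ K) : ∑ d ∈ darts G, chi G D K j d.1 d.2 *
    (2 * aa G D K j d.1 d.2 * (aa G D K j d.1 d.2 - 1) * ZZ G D K j d.1 d.2) ≤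
    354 / 100 * VV G D K j := by
  set χ := chi G D K j with hχ
  set A := aa G D K j with hA
  set F : V → V → V → ℝ := fun a b x =>
    χ a b * χ a x * χ b x * (2 * A a b * (A a b - 1) * (1 - A a x * A b x)) with hF
  set E : V → V → V → ℝ := fun a b x => χ a b * χ a x * χ b x * (A a b - 1) ^ 2 with hE
  have f1 := sum_cyc (G := G) F
  have f2 := sum_cyc (G := G) fun a b x => F b x a
  have e1 := sum_cyc (G := G) E
  have e2 := sum_cyc (G := G) fun a b x => E b x a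
  have h1 : ∑ d ∈ darts G, ∑ x ∈ nb G d.1 d.2, (F d.1 d.2 x + F d.2 x d.1 + F x d.1 d.2) ≤
      ∑ d ∈ darts G, ∑ x ∈ nb G d.1 d.2, 7 / 2 * (E d.1 d.2 x + E d.2 x d.1 + E x d.1 d.2) := by
    refine sum_le_sum fun d _ => sum_le_sum fun x _ => ?_
    have := mul_le_mul_of_nonneg_left (tri_ineq (aa_nonneg (G := G) (D := D) hj d.1 d.2)
      (aa_nonneg (G := G) (D := D) hj d.1 x) (aa_nonneg (G := G) (D := D) hj d.2 x))
      (mul_pos (mul_pos (chi_pos (G := G) (D := D) (K := K) j d.1 d.2)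
        (chi_pos (G := G) (D := D) (K := K) j d.1 x))
        (chi_pos (G := G) (D := D) (K := K) j d.2 x)).le
    simp only [hF, hE, hχ, hA, chi_comm j d.2 d.1, chi_comm j x, aa_comm d.2 d.1, aa_comm x]
    linarith
  simp only [sum_add_distrib, ← mul_sum] at h1
  have h2 : ∑ d ∈ darts G, χ d.1 d.2 * (2 * A d.1 d.2 * (A d.1 d.2 - 1) * ZZ G D K j d.1 d.2) =
      (∑ d ∈ darts G, ∑ x ∈ nb G d.1 d.2, F d.1 d.2 x) / D := by
    rw [sum_div]
    refine sum_congr rfl fun d _ => ?_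
    rw [ZZ, ← mul_div_assoc, ← mul_div_assoc, mul_sum, mul_sum]
    congr 1
    exact sum_congr rfl fun x _ => by simp only [hF]; ring
  have h3 : (∑ d ∈ darts G, ∑ x ∈ nb G d.1 d.2, E d.1 d.2 x) / D ≤ 101 / 100 * VV G D K j := by
    rw [sum_div, VV, mul_sum]
    refine sum_le_sum fun d hd => ?_
    have h4 := mul_le_mul_of_nonneg_right (sum_chi_le H hj (mem_darts.1 hd))
      (mul_nonneg (chi_pos (G := G) (D := D) (K := K) j d.1 d.2).le (sq_nonneg (A d.1 d.2 - 1)))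
    refine le_trans (le_of_eq ?_) h4
    rw [div_mul_eq_mul_div, sum_mul]
    congr 1
    exact sum_congr rfl fun x _ => by simp only [hE]; ring
  have h4 : (∑ d ∈ darts G, ∑ x ∈ nb G d.1 d.2, F d.1 d.2 x) / D ≤
      7 / 2 * ((∑ d ∈ darts G, ∑ x ∈ nb G d.1 d.2, E d.1 d.2 x) / D) := by
    rw [← mul_div_assoc]
    exact div_le_div_of_nonneg_right (by linarith) H.hD.le
  have h5 : 0 ≤ VV G D K j := sum_nonneg fun d _ => mul_nonneg (chi_pos _ _ _).le (sq_nonneg _)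
  rw [h2]
  linarith

include C

omit H in
theorem chi_aa_le (hj : j ≤ K) {a b : V} (hab : G.Adj a b) :
    chi G D K j a b * aa G D K j a b ≤ Λ ^ 4 := by
  have := C.crude j hj a b a hab
  rw [fx_eq (D := D), mul_comm] at this
  exact le_of_mul_le_mul_right this (pp_pos j)

theorem aa_le (hj : j ≤ K) {a b : V} (hab : G.Adj a b) : aa G D K j a b ≤ 2 * Λ ^ 4 := by
  have h1 := chi_aa_le C hj hab
  have h2 := mul_le_mul_of_nonneg_right (H.le_chi hj hab) (aa_nonneg (G := G) (D := D) hj a b)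
  have h3 := pow_pos H.Λ_pos 4
  linarith

theorem step (hj : j < K) {a b : V} (hab : G.Adj a b) : ∃ m, aa G D K (j + 1) a b =
    aa G D K j a b * m ∧ |m - (1 + yy D K j * ZZ G D K j a b)| ≤ yy D K j * (Λ ^ 17 / D) ∧
      |ZZ G D K j a b| ≤ 2 * Λ ^ 8 := by
  have hD := H.hD
  have hΛ := H.hΛ
  have hy := H.yy_pos j
  have hy1 := H.yy_le j
  have hy2 := H.inv_sq_le
  have s8 := small H 8 (by norm_num)
  set y := yy D K j with hyd
  set u : V → ℝ := fun x => fx G K j a x b * fx G K j b x a / K / (1 - II G K j a b x) with hu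
  set w : V → ℝ := fun x => y / D * (chi G D K j a x * aa G D K j a x *
    (chi G D K j b x * aa G D K j b x)) with hw
  have hI : ∀ a b, G.Adj a b → ∀ x ∈ nb G a b, 0 ≤ II G K j a b x ∧ II G K j a b x ≤ Λ ^ 8 / D :=
    fun a b h x hx => ⟨(II_mem hj.le a b x).1, C.small j hj.le a b h x hx⟩
  have hc : ∀ a b, 0 ≤ chi G D K j a b * aa G D K j a b := fun a b =>
    mul_nonneg (chi_pos _ _ _).le (aa_nonneg hj.le _ _)
  have w0 : ∀ x, 0 ≤ w x := fun x => mul_nonneg (by positivity) (mul_nonneg (hc _ _) (hc _ _))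
  have h1 : ∀ x ∈ nb G a b, w x ≤ u x ∧ u x ≤ (1 + 4 * (Λ ^ 8 / D)) * w x := by
    intro x hx
    obtain ⟨hax, hbx⟩ := mem_nb.1 hx
    have m1 : b ∈ nb G a x := mem_nb.2 ⟨hab, hbx.symm⟩
    have m2 : a ∈ nb G b x := mem_nb.2 ⟨hab.symm, hax.symm⟩
    have i0 := hI a b hab x hx
    refine ratio (w0 x) (by linarith) i0 (hI a x hax b m1) (hI b x hbx a m2) ?_
    have n1 := pi_node_eq hj.le m1
    have n2 := pi_node_eq hj.le m2
    rw [fx_eq (D := D)] at n1 n2
    have i1 : 1 - II G K j a b x ≠ 0 := by linarith [i0.2]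
    calc _ = ((1 - II G K j a x b) * fx G K j a x b) * ((1 - II G K j b x a) * fx G K j b x a) / K := by
          simp only [hu]; field_simp
      _ = _ := by
          rw [← n1, ← n2]
          simp only [hw, hyd, yy]; field_simp
  have W0 : 0 ≤ ∑ x ∈ nb G a b, w x := sum_nonneg fun x _ => w0 x
  have W1 : ∑ x ∈ nb G a b, w x ≤ y * (2 * Λ ^ 8) := by
    refine (sum_le_card_nsmul _ _ (y / D * (Λ ^ 4 * Λ ^ 4)) fun x hx => ?_).trans ?_
    · exact mul_le_mul_of_nonneg_left (mul_le_mul (chi_aa_le C hj.le (mem_nb.1 hx).1)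
        (chi_aa_le C hj.le (mem_nb.1 hx).2) (hc _ _) (by positivity)) (by positivity)
    · rw [nsmul_eq_mul]
      refine (mul_le_mul_of_nonneg_right (H.Y_le hab) (by positivity)).trans (le_of_eq ?_)
      field_simp
  have U1 : ∑ x ∈ nb G a b, w x ≤ ∑ x ∈ nb G a b, u x := sum_le_sum fun x hx => (h1 x hx).1
  have U2 : ∑ x ∈ nb G a b, u x ≤ (1 + 4 * (Λ ^ 8 / D)) * ∑ x ∈ nb G a b, w x := by
    rw [mul_sum]; exact sum_le_sum fun x hx => (h1 x hx).2
  have hZ : y * ZZ G D K j a b = y * ((∑ x ∈ nb G a b, chi G D K j a x * chi G D K j b x) / D) -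
      ∑ x ∈ nb G a b, w x := by
    rw [ZZ, sum_div, sum_div, mul_sum, mul_sum, ← sum_sub_distrib]
    exact sum_congr rfl fun x _ => by simp only [hw]; ring
  have L8 : (1 : ℝ) ≤ Λ ^ 8 := one_le_pow₀ H.one_le_Λ
  have y8 : y * Λ ^ 8 ≤ Λ ^ 8 / D / D := by
    rw [div_div, ← sq, div_eq_mul_one_div, mul_comm]; gcongr
  have y9 : Λ ^ 8 / D / D ≤ Λ ^ 8 / D := div_le_self (by positivity) (by linarith [H.D_ge])
  have U3 : ∑ x ∈ nb G a b, u x ≤ y * (4 * Λ ^ 8) := by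
    linarith [mul_le_mul_of_nonneg_right s8 W0]
  have hr := abs_le.1 (H.rr_abs hab)
  have hr' := H.inv_pow_le 49 (by norm_num)
  obtain ⟨p1, p2, p3⟩ := prod_approx (nb G a b) u (fun x hx => (w0 x).trans (h1 x hx).1)
    (by linarith)
  have t0 : 0 ≤ y * (1 + rr G D a b) := mul_nonneg hy.le (by linarith)
  have t1 : y * (1 + rr G D a b) ≤ y * 2 := by gcongr; linarith
  have ex := abs_le.1 (expand t0 (by linarith) (W0.trans U1) p1 p2 p3 (by linarith))
  have sc := abs_le.1 (H.sum_chi hj.le hab)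
  have sc0 : 0 ≤ (∑ x ∈ nb G a b, chi G D K j a x * chi G D K j b x) / D :=
    div_nonneg (sum_nonneg fun x _ => (mul_pos (chi_pos _ _ _) (chi_pos _ _ _)).le) hD.le
  refine ⟨exp (y * (1 + rr G D a b)) * ∏ x ∈ nb G a b, (1 - u x), ?_, ?_, ?_⟩
  · have e : fx G K (j + 1) a b a = fx G K j a b a * ∏ x ∈ nb G a b, (1 - u x) := by
      rw [pi_eq hj, pi_eq hj.le, erase_eq_of_notMem fun h => G.irrefl (mem_nb.1 h).1,
        ← prod_mul_distrib]
      refine prod_congr rfl fun x hx => ?_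
      have i1 : 1 - II G K j a b x ≠ 0 := by linarith [(hI a b hab x hx).2]
      rw [II_succ]
      simp only [hu]; field_simp; ring
    rw [aa, aa, e, sg_succ, add_mul, exp_add]
    ring
  · have r1 : y * Λ ^ 8 * Λ ^ 8 ≤ Λ ^ 16 / D := by
      refine (mul_le_mul_of_nonneg_right (y8.trans y9) (by positivity)).trans (le_of_eq ?_)
      ring
    have r4 : Λ ^ 3 / D ≤ Λ ^ 16 / D := div_le_div_of_nonneg_right
      (pow_le_pow_right₀ H.one_le_Λ (by norm_num)) hD.le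
    have r5 : 10 ^ 5 * (Λ ^ 16 / D) ≤ Λ ^ 17 / D := by
      rw [← mul_div_assoc, pow_succ' Λ 16]; gcongr
    rw [mul_div_assoc 9] at sc
    rw [hZ]
    exact final hy L8 (by positivity) (by ring) r1 r4 r5 t0 t1 W0 W1 U1 U2 U3 sc ex
  · have h2 := mul_le_mul_of_nonneg_left (sum_chi_le H hj.le hab) hy.le
    have h3 := mul_nonneg hy.le sc0
    have h4 := mul_le_mul_of_nonneg_left L8 hy.le
    rw [abs_le]
    constructor
    · refine le_of_mul_le_mul_left ?_ hy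
      linarith
    · refine le_of_mul_le_mul_left ?_ hy
      linarith

theorem VV_succ (hj : j < K) : VV G D K (j + 1) ≤
    (1 + 36 / 10 * yy D K j) * VV G D K j + yy D K j * (dc G * (600 * Λ ^ 42 / D ^ 2)) := by
  have hD := H.hD
  have hΛ := H.Λ_pos
  have hy := H.yy_pos j
  have hy1 := H.yy_le j
  have hy2 := H.inv_sq_le
  set y := yy D K j with hyd
  set Q := Λ ^ 42 / D ^ 2 with hQ
  have Q0 : 0 ≤ Q := by positivity
  have h1 : ∀ d ∈ darts G, chi G D K (j + 1) d.1 d.2 * (aa G D K (j + 1) d.1 d.2 - 1) ^ 2 ≤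
      (1 + y / 100) * ((1 + y / 100) * (chi G D K j d.1 d.2 * (aa G D K j d.1 d.2 - 1) ^ 2) +
        y * (chi G D K j d.1 d.2 * (2 * aa G D K j d.1 d.2 * (aa G D K j d.1 d.2 - 1) *
          ZZ G D K j d.1 d.2)) + y * (550 * Q)) := by
    intro d hd
    have hab := mem_darts.1 hd
    obtain ⟨m, m1, m2, m3⟩ := step H C hj hab
    have a0 := aa_nonneg (G := G) (D := D) hj.le d.1 d.2
    have a1 := aa_le H C hj.le hab
    have c0 := chi_pos (G := G) (D := D) (K := K) j d.1 d.2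
    have c1 := H.chi_le hj.le hab
    have c2 : chi G D K (j + 1) d.1 d.2 ≤ (1 + y / 100) * chi G D K j d.1 d.2 := by
      rw [chi, chi, sg_succ, add_mul, neg_add, add_comm, exp_add]
      refine mul_le_mul_of_nonneg_right ?_ (exp_pos _).le
      have r1 : |y * rr G D d.1 d.2| ≤ y * (1 / 10 ^ 5) := by
        rw [abs_mul, abs_of_pos hy]
        exact mul_le_mul_of_nonneg_left ((H.rr_abs hab).trans (H.inv_pow_le 49 (by norm_num))) hy.le
      have := (abs_le.1 (abs_exp_sub_one_le (x := -(y * rr G D d.1 d.2))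
        (by rw [abs_neg]; linarith))).2
      rw [abs_neg] at this
      linarith
    rw [m1]
    generalize aa G D K j d.1 d.2 = A at *
    generalize ZZ G D K j d.1 d.2 = Z at *
    generalize chi G D K j d.1 d.2 = χ at *
    obtain ⟨ε, rfl⟩ : ∃ ε, m = 1 + y * Z + y * ε := ⟨(m - (1 + y * Z)) / y, by field_simp; ring⟩
    rw [add_sub_cancel_left, abs_mul, abs_of_pos hy] at m2
    have e1 : |ε| ≤ Λ ^ 17 / D := le_of_mul_le_mul_left m2 hy
    have e2 : (A * ε) ^ 2 ≤ 4 * Q := by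
      calc (A * ε) ^ 2 = (A * |ε|) ^ 2 := by rw [mul_pow, mul_pow, sq_abs]
        _ ≤ (2 * Λ ^ 4 * (Λ ^ 17 / D)) ^ 2 := by gcongr
        _ = _ := by rw [hQ]; ring
    have e3 : y * (A * (Z + ε)) ^ 2 ≤ 36 * Q := by
      have e4 : |Z + ε| ≤ 3 * Λ ^ 8 := by
        have := small H 17 (by norm_num)
        have : (1 : ℝ) ≤ Λ ^ 8 := one_le_pow₀ H.one_le_Λ
        linarith [abs_add_le Z ε]
      calc y * (A * (Z + ε)) ^ 2 = y * (A * |Z + ε|) ^ 2 := by rw [mul_pow, mul_pow, sq_abs]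
        _ ≤ 1 / D ^ 2 * (2 * Λ ^ 4 * (3 * Λ ^ 8)) ^ 2 := by gcongr
        _ = 36 * (Λ ^ 24 / D ^ 2) := by ring
        _ ≤ _ := by
          rw [hQ]
          gcongr
          · exact H.one_le_Λ
          · norm_num
    have e5 : (A * (1 + y * Z + y * ε) - 1) ^ 2 ≤
        (1 + y / 100) * (A - 1) ^ 2 + y * (2 * A * (A - 1) * Z) + y * (436 * Q) := by
      have e6 : 2 * (A - 1) * (A * ε) ≤ (A - 1) ^ 2 / 100 + 100 * (A * ε) ^ 2 := by
        nlinarith [sq_nonneg ((A - 1) / 10 - 10 * (A * ε))]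
      have e7 : 2 * (A - 1) * (A * ε) + y * (A * (Z + ε)) ^ 2 ≤ (A - 1) ^ 2 / 100 + 436 * Q := by
        linarith
      have e8 := mul_le_mul_of_nonneg_left e7 hy.le
      nlinarith
    have e6 := mul_le_mul_of_nonneg_left e5 c0.le
    have e7 : χ * (y * (436 * Q)) ≤ y * (550 * Q) := by nlinarith [mul_nonneg hy.le Q0]
    calc _ ≤ (1 + y / 100) * χ * (A * (1 + y * Z + y * ε) - 1) ^ 2 := by gcongr
      _ ≤ _ := by
        rw [mul_assoc]
        exact mul_le_mul_of_nonneg_left (by linarith) (by positivity)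
  have h2 := sum_le_sum h1
  simp only [← mul_sum, sum_add_distrib, sum_const, nsmul_eq_mul] at h2
  have h3 := mul_le_mul_of_nonneg_left (drift H hj.le) hy.le
  have h5 : 0 ≤ VV G D K j := sum_nonneg fun d _ => mul_nonneg (chi_pos _ _ _).le (sq_nonneg _)
  have h6 : 0 ≤ dc G * Q := mul_nonneg (Nat.cast_nonneg _) Q0
  refine h2.trans ((mul_le_mul_of_nonneg_left (add_le_add (add_le_add le_rfl h3) le_rfl)
    (by positivity)).trans ?_)
  rw [mul_div_assoc]
  change (1 + y / 100) * ((1 + y / 100) * VV G D K j + _ + y * (550 * (dc G * Q))) ≤ _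
  have h7 := mul_nonneg hy.le h5
  have h8 := mul_nonneg hy.le h6
  nlinarith [mul_le_mul_of_nonneg_right (hy1.trans hy2) h7,
    mul_le_mul_of_nonneg_right (hy1.trans hy2) h8]

theorem VV_le (hj : j ≤ K) : VV G D K j ≤ dc G * (Λ ^ 43 * exp (-(log D / 8))) := by
  have hD := H.hD
  have hΛ := H.Λ_pos
  have N0 : 0 ≤ dc G := Nat.cast_nonneg _
  set c := dc G * (600 * Λ ^ 42 / D ^ 2) with hc
  have c0 : 0 ≤ c := by positivity
  have key : ∀ j ≤ K, VV G D K j ≤ 7 * c * exp (15 / 4 * sg D K j) := by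
    intro j
    induction j with
    | zero =>
      intro _
      have : VV G D K 0 = 0 := sum_eq_zero fun d _ => by simp [aa, pi_zero, sg]
      rw [this]; positivity
    | succ j ih =>
      intro hj
      have h1 := VV_succ H C hj
      have hy := H.yy_pos j
      have h2 := mul_le_mul_of_nonneg_left (ih (by omega))
        (show 0 ≤ 1 + 36 / 10 * yy D K j by positivity)
      have h3 := add_one_le_exp (15 / 4 * yy D K j)
      have h4 : 1 ≤ exp (15 / 4 * sg D K j) := one_le_exp (by have := H.sg_nonneg j; positivity)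
      rw [sg_succ, mul_add, exp_add, ← mul_assoc]
      have h5 := mul_le_mul_of_nonneg_left h3
        (show 0 ≤ 7 * c * exp (15 / 4 * sg D K j) by positivity)
      have h6 := mul_le_mul_of_nonneg_left h4 (mul_nonneg hy.le c0)
      have h7 := mul_nonneg hy.le c0
      nlinarith
  have h1 : exp (15 / 4 * sg D K j) ≤ 16 * D ^ 2 * exp (-(log D / 8)) := by
    have h2 : 2 * sg D K j ≤ log (4 * D) := (le_log_iff_exp_le (by positivity)).2
      (H.exp_sg_le_four hj)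
    have h3 : 0 ≤ log 4 := log_nonneg (by norm_num)
    have h4 : 16 * D ^ 2 = exp (2 * log (4 * D)) := by
      rw [two_mul, exp_add, exp_log (by positivity)]; ring
    rw [h4, ← exp_add, exp_le_exp]
    rw [log_mul (by norm_num) hD.ne'] at h2 ⊢
    linarith
  refine (key j hj).trans ((mul_le_mul_of_nonneg_left h1 (by positivity)).trans ?_)
  calc _ = dc G * (67200 * Λ ^ 42 * exp (-(log D / 8))) := by rw [hc]; field_simp; ring
    _ ≤ _ := by
      rw [pow_succ' Λ 42]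
      gcongr
      linarith [H.hΛ]

end

end L2Aux

open L2Aux

theorem l2_bad {G : SimpleGraph V} {D Λ : ℝ} {K j₁ : ℕ} (H : Hyp G D Λ K) (C : Cr G D Λ K j₁)
    {j : ℕ} (hj : j ≤ K) :
    (((darts G).filter fun d => ∃ c, 3 * pp D K j < fx G K j d.1 d.2 c).card : ℝ) ≤
      dc G * (2 * Λ ^ 43 * exp (-(log D / 8))) := by
  have h1 := VV_le H C hj
  have h2 : (((darts G).filter fun d => ∃ c, 3 * pp D K j < fx G K j d.1 d.2 c).card : ℝ) * (1 / 2) ≤
      VV G D K j := by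
    rw [← nsmul_eq_mul]
    refine (card_nsmul_le_sum _ _ _ fun d hd => ?_).trans (sum_le_sum_of_subset_of_nonneg
      (filter_subset _ _) fun d _ _ => mul_nonneg (chi_pos _ _ _).le (sq_nonneg _))
    obtain ⟨hd, c, hc⟩ := mem_filter.1 hd
    have hab := mem_darts.1 hd
    have p0 := pp_pos (D := D) (K := K) j
    have h3 : 99 / 100 * fx G K j d.1 d.2 c ≤ fx G K j d.1 d.2 d.1 := by
      have f0 := pi_nonneg (G := G) hj d.1 d.2 c
      by_cases e : c ∈ nb G d.1 d.2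
      · have := (C.small j hj _ _ hab c e).trans (small H 8 (by norm_num))
        rw [pi_node_eq hj e]
        gcongr
        linarith
      · rw [← pi_of_notMem hj e]
        linarith
    rw [fx_eq (D := D)] at h3
    have h4 : 297 / 100 ≤ chi G D K j d.1 d.2 * aa G D K j d.1 d.2 :=
      le_of_mul_le_mul_left (by linarith) p0
    have h5 := mul_le_mul_of_nonneg_right (H.chi_le hj hab) (aa_nonneg (G := G) (D := D) hj d.1 d.2)
    have h6 := H.le_chi hj hab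
    have h7 : 1 ≤ (aa G D K j d.1 d.2 - 1) ^ 2 := one_le_pow₀ (by linarith)
    nlinarith
  linarith

theorem l2_sum {G : SimpleGraph V} {D Λ : ℝ} {K j₁ : ℕ} (H : Hyp G D Λ K) (C : Cr G D Λ K j₁) :
    |∑ d ∈ darts G, fx G K K d.1 d.2 d.1 - dc G * pp D K K| ≤ 4 / Λ * (dc G * pp D K K) := by
  have h1 := VV_le H C le_rfl
  have hΛ := H.Λ_pos
  have p0 := pp_pos (D := D) (K := K) K
  have N0 : 0 ≤ dc G := Nat.cast_nonneg _
  have h2 : ∑ d ∈ darts G, fx G K K d.1 d.2 d.1 - dc G * pp D K K =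
      pp D K K * ∑ d ∈ darts G, (chi G D K K d.1 d.2 * aa G D K K d.1 d.2 - 1) := by
    simp only [fx_eq (D := D), sum_sub_distrib, ← mul_sum, sum_const, nsmul_eq_mul, dc]
    ring
  have h3 : ∀ d ∈ darts G, |chi G D K K d.1 d.2 * aa G D K K d.1 d.2 - 1| ≤
      3 * (1 / Λ) + Λ * (chi G D K K d.1 d.2 * (aa G D K K d.1 d.2 - 1) ^ 2) := by
    intro d hd
    have hab := mem_darts.1 hd
    have c0 := chi_pos (G := G) (D := D) (K := K) K d.1 d.2
    have c1 := H.chi_le le_rfl hab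
    have c2 := H.chi_abs le_rfl hab
    have c3 : 2 / Λ ^ 48 ≤ 1 / Λ := by
      rw [div_le_div_iff₀ (by positivity) hΛ, one_mul, pow_succ Λ 47]
      gcongr
      linarith [le_self_pow₀ H.one_le_Λ (show 47 ≠ 0 by norm_num), H.hΛ]
    generalize aa G D K K d.1 d.2 = A at *
    generalize chi G D K K d.1 d.2 = χ at *
    have c4 : |A - 1| ≤ 1 / Λ + Λ * (A - 1) ^ 2 := by
      rw [← sq_abs]
      have : Λ * (1 / Λ) = 1 := by field_simp
      refine le_of_mul_le_mul_left ?_ hΛ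
      nlinarith [sq_nonneg (Λ * |A - 1| - 1), mul_nonneg hΛ.le (abs_nonneg (A - 1))]
    have c5 := abs_add_le (χ * (A - 1)) (χ - 1)
    rw [abs_mul, abs_of_pos c0, show χ * (A - 1) + (χ - 1) = χ * A - 1 by ring] at c5
    have c6 := mul_le_mul_of_nonneg_left c4 c0.le
    have c7 : 0 < 1 / Λ := by positivity
    nlinarith
  have h4 := (abs_sum_le_sum_abs _ _).trans (sum_le_sum h3)
  simp only [sum_add_distrib, ← mul_sum, sum_const, nsmul_eq_mul] at h4
  have h5 : Λ * (Λ ^ 43 * exp (-(log D / 8))) ≤ 1 / Λ := by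
    have e : Λ ^ 45 = exp (45 * log Λ) := by
      rw [show (45 : ℝ) = (45 : ℕ) by norm_num, exp_nat_mul, exp_log hΛ]
    rw [le_div_iff₀ hΛ]
    calc _ = Λ ^ 45 * exp (-(log D / 8)) := by ring
      _ ≤ 1 := by
        rw [e, ← exp_add, exp_le_one_iff]
        nlinarith [H.hbig, H.one_le_logΛ]
  have h6 := mul_le_mul_of_nonneg_left h1 hΛ.le
  have h7 := mul_le_mul_of_nonneg_left h5 N0
  rw [h2, abs_mul, abs_of_pos p0]
  calc _ ≤ pp D K K * (dc G * (4 * (1 / Λ))) := by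
        refine mul_le_mul_of_nonneg_left (h4.trans ?_) p0.le
        change 3 * (dc G * (1 / Λ)) + Λ * VV G D K K ≤ _
        linarith
    _ = _ := by ring

end Vale.Agent.P046
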