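import Vale.Agent.P046.Prob

/-! Part Lab: harmonic functions are computed by the label process. -/

namespace Vale.Agent.P046

open Finset Real
open scoped Classical

variable {V : Type} [Fintype V]

namespace LabAux

variable {K : ℕ} {H : SimpleGraph V} {l l' : Finset V → Fin K} {A : Finset (Finset V)}

/-- distinct labels, all at least `lo` -/
def SS (A : Finset (Finset V)) (lo : ℕ) (l : Finset V → Fin K) : Prop :=
  (∀ T ∈ A, ∀ T' ∈ A, l T = l T' → T = T') ∧ ∀ T ∈ A, lo ≤ (l T : ℕ)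

noncomputable def ind (A : Finset (Finset V)) (lo : ℕ) (l : Finset V → Fin K) : ℝ :=
  if SS A lo l then 1 else 0

noncomputable def cc (K : ℕ) : ℕ → ℕ → ℝ
  | 0, _ => 1
  | m + 1, lo => ∑ j ∈ Ico lo K, cc K m (j + 1) * (m + 1 : ℕ) / K

theorem pr_le (i : ℕ) : pr H l i ≤ H := by
  induction i with
  | zero => exact le_rfl
  | succ i ih => exact fun _ _ h => ih h.1

theorem pr_congr (h : ∀ T ∈ tri H, l T = l' T) (i : ℕ) : pr H l i = pr H l' i := by
  induction i with
  | zero => rfl
  | succ i ih =>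
    ext u v
    simp only [pr, sweep, ← ih]
    exact and_congr_right fun _ => not_congr (exists_congr fun T => and_congr_right fun hT => by
      rw [h T (tri_mono (pr_le i) hT)])

theorem pr_fix {j : ℕ} (h : ∀ T ∈ tri H, j ≤ (l T : ℕ)) : ∀ i ≤ j, pr H l i = H := by
  intro i
  induction i with
  | zero => exact fun _ => rfl
  | succ i ih =>
    intro hi
    ext u v
    simp only [pr, sweep, ih (by omega)]
    exact and_iff_left fun ⟨T, a, b, _⟩ => by have := h T a; omega

/-- the graph after the first ring -/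
noncomputable def nx (H : SimpleGraph V) (T : Finset V) : SimpleGraph V :=
  if T ∈ tri H then rem H T else H

theorem tri_nx (hA : tri H ⊆ A) (T : Finset V) : tri (nx H T) ⊆ A.erase T := fun S hS => by
  unfold nx at hS
  split_ifs at hS with h
  · exact mem_erase.2 ⟨fun e => not_mem_tri_rem T (e ▸ hS), hA (tri_mono (rem_le H T) hS)⟩
  · exact mem_erase.2 ⟨fun e => h (e ▸ hS), hA hS⟩

theorem pr_nx (hA : tri H ⊆ A) {T : Finset V} (h : SS (A.erase T) (l T + 1) l) :
    pr H l K = pr (nx H T) l K := by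
  have h1 : ∀ S ∈ tri H, S ≠ T → (l T : ℕ) < l S := fun S hS e => h.2 S (mem_erase.2 ⟨e, hA hS⟩)
  have h2 : pr H l (l T + 1) = nx H T := by
    rw [pr, pr_fix (j := l T) (fun S hS => by
      by_cases e : S = T
      · rw [e]
      · exact (h1 S hS e).le) _ le_rfl]
    ext u v
    unfold nx
    split_ifs with a
    · exact and_congr_right fun _ => not_congr ⟨fun ⟨S, b, c, d⟩ => by
        rwa [← by_contra fun e => (h1 S b e).ne' c], fun d => ⟨T, a, rfl, d⟩⟩
    · exact and_iff_left fun ⟨S, b, c, _⟩ => (h1 S b fun e => a (e ▸ b)).ne' c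
  have h3 : ∀ n, pr H l (l T + 1 + n) = pr (nx H T) l (l T + 1 + n) := by
    intro n
    induction n with
    | zero => exact h2.trans (pr_fix (fun S hS => h.2 S (tri_nx hA T hS)) _ le_rfl).symm
    | succ n ih => rw [← add_assoc, pr, pr, ih]
  simpa only [Nat.add_sub_of_le (Nat.succ_le_of_lt (l T).2)] using h3 (K - (l T + 1))

omit [Fintype V] in
theorem ind_split (hA : A.Nonempty) (lo : ℕ) : ind A lo l = ∑ T ∈ A, ∑ j ∈ Ico lo K,
    (if (l T : ℕ) = j then (1 : ℝ) else 0) * ind (A.erase T) (j + 1) l := by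
  have h1 : ∀ T, ∑ j ∈ Ico lo K, (if (l T : ℕ) = j then (1 : ℝ) else 0) * ind (A.erase T) (j + 1) l =
      if lo ≤ (l T : ℕ) ∧ SS (A.erase T) (l T + 1) l then 1 else 0 := fun T => by
    simp only [ite_mul, one_mul, zero_mul, sum_ite_eq, mem_Ico, (l T).2, and_true, ind, ite_and]
  simp only [h1]
  have h2 : ∀ T ∈ A, lo ≤ (l T : ℕ) ∧ SS (A.erase T) (l T + 1) l ↔
      SS A lo l ∧ ∀ S ∈ A, l T ≤ l S := fun T hT => by
    constructor
    · rintro ⟨a, b, c⟩
      have d : ∀ S ∈ A, S ≠ T → l T < l S := fun S hS e => c S (mem_erase.2 ⟨e, hS⟩)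
      have d' : ∀ S ∈ A, l T ≤ l S := fun S hS => by
        by_cases e : S = T
        · rw [e]
        · exact (d S hS e).le
      refine ⟨⟨fun S hS S' hS' e => ?_, fun S hS => a.trans (d' S hS)⟩, d'⟩
      by_cases e1 : S = T <;> by_cases e2 : S' = T
      · rw [e1, e2]
      · exact absurd (e1 ▸ e) (d S' hS' e2).ne
      · exact absurd (e2 ▸ e) (d S hS e1).ne'
      · exact b S (mem_erase.2 ⟨e1, hS⟩) S' (mem_erase.2 ⟨e2, hS'⟩) e
    · rintro ⟨⟨a, b⟩, c⟩
      exact ⟨b T hT, fun S hS S' hS' => a S (mem_of_mem_erase hS) S' (mem_of_mem_erase hS'),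
        fun S hS => lt_of_le_of_ne (c S (mem_of_mem_erase hS)) fun e =>
          (mem_erase.1 hS).1 (a T hT S (mem_of_mem_erase hS) e).symm⟩
  rw [sum_congr rfl fun T hT => if_congr (h2 T hT) rfl rfl, ind]
  split_ifs with h
  · obtain ⟨T, hT, hm⟩ := exists_min_image A l hA
    rw [sum_eq_single_of_mem T hT fun S hS e => if_neg fun c =>
      e (h.1 S hS T hT (le_antisymm (c.2 T hT) (hm S hS))), if_pos ⟨h, hm⟩]
  · simp [h]

theorem claim (hK : 0 < K) {f Φ : SimpleGraph V → ℝ} (hharm : ∀ H, gen Φ H = 0)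
    (hstop : ∀ H, tri H = ∅ → Φ H = f H) : ∀ (m : ℕ) (A : Finset (Finset V)), A.card = m →
    ∀ lo H, tri H ⊆ A → Ev K (fun l => ind A lo l * f (pr H l K)) = cc K m lo * Φ H := by
  intro m
  induction m with
  | zero =>
    intro A hA lo H hH
    obtain rfl := card_eq_zero.1 hA
    have h1 := subset_empty.1 hH
    have h2 : ∀ l : Finset V → Fin K, pr H l K = H := fun l =>
      pr_fix (j := K) (by simp [h1]) _ le_rfl
    simp [ind, SS, h2, cc, hstop H h1, Ev_const hK]
  | succ m ih =>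
    intro A hA lo H hH
    have h1 : ∀ l : Finset V → Fin K, ind A lo l * f (pr H l K) = ∑ T ∈ A, ∑ j ∈ Ico lo K,
        (if (l T : ℕ) = j then (1 : ℝ) else 0) *
          (ind (A.erase T) (j + 1) l * f (pr (nx H T) l K)) := fun l => by
      rw [ind_split (card_pos.1 (by omega)), sum_mul]
      refine sum_congr rfl fun T _ => ?_
      rw [sum_mul]
      refine sum_congr rfl fun j _ => ?_
      unfold ind
      split_ifs with a b
      · rw [pr_nx hH (a ▸ b), mul_assoc]
      all_goals simp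
    have h2 : ∑ T ∈ A, Φ (nx H T) = (m + 1 : ℕ) * Φ H := by
      have h3 : ∑ T ∈ A, (Φ (nx H T) - Φ H) = 0 := by
        rw [← sum_subset hH fun T _ a => by simp [nx, a], ← hharm H]
        exact sum_congr rfl fun T a => by rw [nx, if_pos a]
      rwa [sum_sub_distrib, sum_const, nsmul_eq_mul, hA, sub_eq_zero] at h3
    simp only [h1, Ev_sum]
    rw [sum_congr rfl fun T hT => sum_congr rfl fun j hj => (Ev_coord_mul (notMem_erase T A)
      (mem_Ico.1 hj).2 fun l l' e => ?_).trans (by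
        rw [ih _ (by rw [card_erase_of_mem hT, hA]; rfl) _ _ (tri_nx hH T)]), sum_comm, cc, sum_mul]
    · refine sum_congr rfl fun j _ => ?_
      rw [← sum_div, ← mul_sum, h2]
      ring
    · rw [pr_congr fun S hS => e S (tri_nx hH T hS)]
      congr 1
      exact if_congr (and_congr (forall₂_congr fun S a => forall₂_congr fun S' b => by
        rw [e S a, e S' b]) (forall₂_congr fun S a => by rw [e S a])) rfl rfl

theorem Ev_eq {T T' : Finset V} (h : T ≠ T') (hK : 0 < K) :
    Ev K (fun l : Finset V → Fin K => if l T = l T' then (1 : ℝ) else 0) = 1 / K := by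
  have h1 : ∀ l : Finset V → Fin K, (if l T = l T' then (1 : ℝ) else 0) = ∑ j ∈ range K,
      (if (l T : ℕ) = j then (1 : ℝ) else 0) * if (l T' : ℕ) = j then (1 : ℝ) else 0 := fun l => by
    simp [Fin.ext_iff, eq_comm]
  have hK' : (K : ℝ) ≠ 0 := by positivity
  simp only [h1, Ev_sum]
  rw [sum_congr rfl fun j hj => (Ev_coord_mul (S := {T'}) (by simpa) (mem_range.1 hj)
    fun l l' e => by simp only [e T' (mem_singleton_self _)]).trans
      (by rw [Ev_coord T' (mem_range.1 hj)])]
  rw [sum_const, card_range, nsmul_eq_mul]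
  field_simp

theorem half_le (hK : 0 < K) (hA : 2 * A.card ^ 2 ≤ K) : 1 / 2 ≤ Ev K fun l => ind A 0 l := by
  have h1 : ∀ l : Finset V → Fin K,
      1 - ∑ p ∈ A.offDiag, (if l p.1 = l p.2 then (1 : ℝ) else 0) ≤ ind A 0 l := fun l => by
    have h0 : ∀ p : Finset V × Finset V, 0 ≤ if l p.1 = l p.2 then (1 : ℝ) else 0 := fun p => by
      positivity
    unfold ind
    split_ifs with h
    · exact sub_le_self _ (sum_nonneg fun p _ => h0 p)
    · simp only [SS, zero_le, implies_true, and_true, not_forall] at h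
      obtain ⟨T, a, T', b, c, d⟩ := h
      have := single_le_sum (fun p _ => h0 p) (mem_offDiag.2 ⟨a, b, d⟩ : (T, T') ∈ A.offDiag)
      rw [if_pos c] at this
      linarith
  refine le_trans ?_ (Ev_mono h1)
  rw [Ev_sub, Ev_const hK, Ev_sum, sum_congr rfl fun p hp => Ev_eq (mem_offDiag.1 hp).2.2 hK,
    sum_const, nsmul_eq_mul]
  have h2 : 2 * A.offDiag.card ≤ K := by
    rw [offDiag_card]
    rw [sq] at hA
    omega
  have h3 : (2 : ℝ) * A.offDiag.card ≤ K := by exact_mod_cast h2
  have h4 : (A.offDiag.card : ℝ) * (1 / K) ≤ 1 / 2 := by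
    rw [mul_one_div, div_le_iff₀ (by positivity)]
    linarith
  linarith

end LabAux

open LabAux

theorem lab_bound {K : ℕ} (hK : 0 < K) {f Φ : SimpleGraph V → ℝ} (hf : ∀ H, 0 ≤ f H)
    (hΦ : ∀ H, 0 ≤ Φ H) (hharm : ∀ H, gen Φ H = 0) (hstop : ∀ H, tri H = ∅ → Φ H = f H)
    (G : SimpleGraph V) (hG : 2 * (tri G).card ^ 2 ≤ K) :
    Φ G ≤ 2 * Ev K fun l => f (pr G l K) := by
  have h1 := claim hK hharm hstop _ (tri G) rfl 0 G Subset.rfl
  have h2 := claim hK (f := fun _ => 1) (Φ := fun _ => 1) (fun _ => by simp [gen])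
    (fun _ _ => rfl) _ (tri G) rfl 0 G Subset.rfl
  simp only [mul_one] at h2
  have h3 := mul_le_mul_of_nonneg_right (h2 ▸ half_le hK hG) (hΦ G)
  have h4 : Ev K (fun l => ind (tri G) 0 l * f (pr G l K)) ≤ Ev K fun l => f (pr G l K) :=
    Ev_mono fun l => mul_le_of_le_one_left (hf _) (by unfold ind; split_ifs <;> norm_num)
  linarith

end Vale.Agent.P046
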