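import Vale.Agent.P046.Basic

/-! Part Sparse: tree likeness, the number of edges, counting dense sets. -/

namespace Vale.Agent.P046

open Finset Real
open scoped Classical

variable {V : Type} [Fintype V]

namespace SparseAux

variable {G : SimpleGraph V} {m : ℕ} {a0 b0 : V}

/-- sets with the maximal number of edges -/
def Tight (G : SimpleGraph V) (a0 b0 : V) (U : Finset V) : Prop :=
  a0 ∈ U ∧ b0 ∈ U ∧ 2 * U.card ≤ ec G U + 3

/-- an unexplored edge -/
def Act (G : SimpleGraph V) (U : Finset V) (a b c : V) : Prop :=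
  a ∈ U ∧ b ∈ U ∧ G.Adj a b ∧ ∀ z ∈ U, z ∈ nb G a b → z = c

omit [Fintype V] in
theorem ec_eq (U : Finset V) :
    ec G U = ((powersetCard 2 U).filter fun e : Finset V => G.IsClique (e : Set V)).card := by
  rw [ec, ← card_image_of_injective _ Finset.coe_injective]
  congr 1
  ext e
  simp only [mem_filter, mem_image, bind, pure, Finset.mem_sup, mem_singleton]
  constructor
  · rintro ⟨⟨a, h1, rfl⟩, h2⟩
    exact ⟨a, ⟨h1, h2⟩, rfl⟩
  · rintro ⟨a, ⟨h1, h2⟩, rfl⟩
    exact ⟨⟨a, h1, rfl⟩, h2⟩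

omit [Fintype V] in
theorem ec_insert {U N : Finset V} {x : V} (hx : x ∉ U) (hN : N ⊆ U) (h : ∀ z ∈ N, G.Adj z x) :
    ec G U + N.card ≤ ec G (insert x U) := by
  have hi : (N.image fun z => ({z, x} : Finset V)).card = N.card := by
    refine card_image_of_injOn fun z hz w _ e => ?_
    have : z ∈ ({w, x} : Finset V) := by
      have e' : ({z, x} : Finset V) = {w, x} := e
      rw [← e']; simp
    simp only [mem_insert, mem_singleton] at this
    exact this.resolve_right (h z hz).ne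
  rw [← hi, ec_eq, ec_eq, ← card_union_of_disjoint]
  · refine card_le_card fun e he => ?_
    rcases mem_union.1 he with he | he
    · obtain ⟨h1, h2⟩ := mem_filter.1 he
      exact mem_filter.2 ⟨powersetCard_mono (subset_insert _ _) h1, h2⟩
    · obtain ⟨z, hz, rfl⟩ := mem_image.1 he
      refine mem_filter.2 ⟨mem_powersetCard.2 ⟨?_, card_pair (h z hz).ne⟩, ?_⟩
      · simp [insert_subset_iff, hN hz]
      · simpa [SimpleGraph.isClique_pair] using fun _ => h z hz
  · refine disjoint_left.2 fun e he he' => ?_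
    obtain ⟨z, -, rfl⟩ := mem_image.1 he'
    exact hx ((mem_powersetCard.1 (mem_filter.1 he).1).1 (by simp))

theorem step (hS : Sp G m a0 b0) {U : Finset V} (hU : Tight G a0 b0 U) {a b x : V} (ha : a ∈ U)
    (hb : b ∈ U) (hab : a ≠ b) (hx : x ∉ U) (hn : x ∈ nb G a b) (hm : U.card + 1 ≤ m) :
    Tight G a0 b0 (insert x U) ∧ (∀ z ∈ U, G.Adj z x → z = a ∨ z = b) ∧
      Act G (insert x U) a x b ∧ Act G (insert x U) b x a := by
  obtain ⟨h1, h2⟩ := mem_nb.1 hn
  have c1 := card_insert_of_notMem hx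
  have t1 := ec_insert (G := G) (N := {a, b}) hx (by simp [insert_subset_iff, ha, hb])
    (by simp [h1, h2])
  rw [card_pair hab] at t1
  have t2 := hU.2.2
  have key : ∀ z ∈ U, G.Adj z x → z = a ∨ z = b := fun z hz hzx => by
    by_contra hc
    rw [not_or] at hc
    have t3 := ec_insert (G := G) (N := {a, b, z}) hx (by simp [insert_subset_iff, ha, hb, hz])
      (by simp [h1, h2, hzx])
    rw [card_eq_three.2 ⟨a, b, z, hab, Ne.symm hc.1, Ne.symm hc.2, rfl⟩] at t3
    have t4 := hS _ (mem_insert_of_mem hU.1) (mem_insert_of_mem hU.2.1) (c1 ▸ hm)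
    omega
  refine ⟨⟨mem_insert_of_mem hU.1, mem_insert_of_mem hU.2.1, by omega⟩, key,
    ⟨mem_insert_of_mem ha, mem_insert_self _ _, h1, fun z hz hz' => ?_⟩,
    ⟨mem_insert_of_mem hb, mem_insert_self _ _, h2, fun z hz hz' => ?_⟩⟩ <;>
  obtain ⟨h3, h4⟩ := mem_nb.1 hz'
  · exact (key z ((mem_insert.1 hz).resolve_left h4.ne') h4.symm).resolve_left h3.ne'
  · exact (key z ((mem_insert.1 hz).resolve_left h4.ne') h4.symm).resolve_right h3.ne'

theorem Act.notMem {U : Finset V} {a b c x : V} (h : Act G U a b c)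
    (hx : x ∈ (nb G a b).erase c) : x ∉ U := fun h' =>
  ne_of_mem_erase hx (h.2.2.2 x h' (mem_of_mem_erase hx))

theorem explore (hS : Sp G m a0 b0) (k : ℕ) : ∀ (U : Finset V) (a b c y : V), Tight G a0 b0 U →
    Act G U a b c → U.card + k ≤ m → y ∈ Vs G k a b c → ∃ U', U ⊆ U' ∧ Tight G a0 b0 U' ∧
      U'.card ≤ U.card + k ∧ y ∈ U' ∧ y ∉ U ∧
      ∀ v ∈ U', v ∉ U → ∀ z ∈ U, G.Adj z v → z = a ∨ z = b := by
  induction k with
  | zero => exact fun _ _ _ _ y _ _ _ hy => absurd hy (notMem_empty y)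
  | succ k ih =>
    intro U a b c y hU hA hm hy
    obtain ⟨x, hx, hy⟩ := mem_biUnion.1 hy
    have hxU := hA.notMem hx
    have c1 := card_insert_of_notMem hxU
    obtain ⟨s1, s2, s3, s4⟩ := step hS hU hA.1 hA.2.1 hA.2.2.1.ne hxU (mem_of_mem_erase hx)
      (by omega)
    rcases mem_insert.1 hy with rfl | hy
    · exact ⟨_, subset_insert _ _, s1, by omega, mem_insert_self _ _, hxU, fun v hv hv' z hz h =>
        s2 z hz (((mem_insert.1 hv).resolve_right hv') ▸ h)⟩
    have fin : ∀ p q, (p = a ∨ p = b) → Act G (insert x U) p x q → y ∈ Vs G k p x q →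
        ∃ U', U ⊆ U' ∧ Tight G a0 b0 U' ∧ U'.card ≤ U.card + (k + 1) ∧ y ∈ U' ∧ y ∉ U ∧
          ∀ v ∈ U', v ∉ U → ∀ z ∈ U, G.Adj z v → z = a ∨ z = b := fun p q hp hA' hy' => by
      obtain ⟨U', u1, u2, u3, u4, u5, u6⟩ := ih _ p x q y s1 hA' (by omega) hy'
      refine ⟨U', (subset_insert _ _).trans u1, u2, by omega, u4,
        fun h => u5 (mem_insert_of_mem h), fun v hv hv' z hz h => ?_⟩
      by_cases hvx : v = x
      · exact s2 z hz (hvx ▸ h)
      · rcases u6 v hv (by simp [hvx, hv']) z (mem_insert_of_mem hz) h with rfl | rfl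
        · exact hp
        · exact absurd hz hxU
    rcases mem_union.1 hy with hy | hy
    exacts [fin a b (.inl rfl) s3 hy, fin b a (.inr rfl) s4 hy]

theorem disj (hS : Sp G m a0 b0) {k : ℕ} {U : Finset V} {a b c a' b' c' : V}
    (hU : Tight G a0 b0 U) (hA : Act G U a b c) (hA' : Act G U a' b' c')
    (hne : (a' ≠ a ∧ a' ≠ b) ∨ (b' ≠ a ∧ b' ≠ b)) (hm : U.card + 2 * k ≤ m) :
    Disjoint (Vs G k a b c) (Vs G k a' b' c') := by
  refine disjoint_left.2 fun y hy hy' => ?_
  obtain ⟨U', u1, u2, u3, u4, -, u6⟩ := explore hS k U a b c y hU hA (by omega) hy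
  have hB : Act G U' a' b' c' := by
    refine ⟨u1 hA'.1, u1 hA'.2.1, hA'.2.2.1, fun z hz hz' => ?_⟩
    by_cases hzU : z ∈ U
    · exact hA'.2.2.2 z hzU hz'
    · have t1 := u6 z hz hzU a' hA'.1 (mem_nb.1 hz').1
      have t2 := u6 z hz hzU b' hA'.2.1 (mem_nb.1 hz').2
      tauto
  obtain ⟨_, -, -, -, -, h, -⟩ := explore hS k U' a' b' c' y u2 hB (by omega) hy'
  exact h u4

theorem tl (hS : Sp G m a0 b0) (k : ℕ) : ∀ (U : Finset V) (a b c : V), Tight G a0 b0 U →
    Act G U a b c → U.card + 2 * k ≤ m → TL G k a b c := by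
  induction k with
  | zero => exact fun _ _ _ _ _ _ _ => trivial
  | succ k ih =>
    intro U a b c hU hA hm
    have out : ∀ y ∈ Vs G (k + 1) a b c, y ∉ U := fun y hy => by
      obtain ⟨_, -, -, -, -, h, -⟩ := explore hS _ U a b c y hU hA (by omega) hy
      exact h
    have hab := hA.2.2.1.ne
    refine ⟨fun h => out a h hA.1, fun h => out b h hA.2.1, fun x hx => ?_, fun x hx y hy hxy => ?_⟩
    all_goals
      have hxU := hA.notMem hx
      have c1 := card_insert_of_notMem hxU
      obtain ⟨s1, s2, s3, s4⟩ := step hS hU hA.1 hA.2.1 hab hxU (mem_of_mem_erase hx) (by omega)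
    · exact ⟨ih _ _ _ _ s1 s3 (by omega), ih _ _ _ _ s1 s4 (by omega),
        disj hS s1 s3 s4 (.inl ⟨hab.symm, s4.2.2.1.ne⟩) (by omega)⟩
    · have hyU : y ∉ insert x U := by simp [hxy.symm, hA.notMem hy]
      have c2 := card_insert_of_notMem hyU
      obtain ⟨r1, r2, r3, r4⟩ := step hS s1 (mem_insert_of_mem hA.1) (mem_insert_of_mem hA.2.1)
        hab hyU (mem_of_mem_erase hy) (by omega)
      have up : ∀ p q, Act G (insert x U) p x q → Act G (insert y (insert x U)) p x q :=
        fun p q h => by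
        refine ⟨mem_insert_of_mem h.1, mem_insert_of_mem h.2.1, h.2.2.1, fun z hz hz' => ?_⟩
        rcases mem_insert.1 hz with rfl | hz
        · rcases r2 x (mem_insert_self _ _) (mem_nb.1 hz').2 with rfl | rfl
          exacts [absurd hA.1 hxU, absurd hA.2.1 hxU]
        · exact h.2.2.2 z hz hz'
      have q3 := up _ _ s3
      have q4 := up _ _ s4
      have out2 : ∀ p u q v, Act G (insert y (insert x U)) p u q → v ∈ Vs G k p u q →
          v ≠ x ∧ v ≠ y := fun p u q v h hv => by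
        obtain ⟨_, -, -, -, -, h, -⟩ := explore hS _ _ p u q v r1 h (by omega) hv
        exact ⟨fun e => h (by simp [e]), fun e => h (by simp [e])⟩
      have ya := r3.2.2.1.ne'
      have yb := r4.2.2.1.ne'
      have d1 := disjoint_left.1 (disj hS (k := k) r1 q3 r3 (.inr ⟨ya, hxy.symm⟩) (by omega))
      have d2 := disjoint_left.1 (disj hS (k := k) r1 q3 r4 (.inr ⟨ya, hxy.symm⟩) (by omega))
      have d3 := disjoint_left.1 (disj hS (k := k) r1 q4 r3 (.inr ⟨yb, hxy.symm⟩) (by omega))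
      have d4 := disjoint_left.1 (disj hS (k := k) r1 q4 r4 (.inr ⟨yb, hxy.symm⟩) (by omega))
      refine disjoint_left.2 fun v hv hv' => ?_
      simp only [mem_insert, mem_union] at hv hv'
      rcases hv with h | h | h <;> rcases hv' with h' | h' | h'
      exacts [hxy (h.symm.trans h'), (out2 _ _ _ _ r3 h').1 h, (out2 _ _ _ _ r4 h').1 h,
        (out2 _ _ _ _ q3 h).2 h', d1 h h', d2 h h', (out2 _ _ _ _ q4 h).2 h', d3 h h', d4 h h']

/-- adjacency indicator -/
noncomputable def ia (G : SimpleGraph V) (a x : V) : ℝ := if G.Adj a x then 1 else 0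

/-- degree -/
noncomputable def dg (G : SimpleGraph V) (a : V) : ℝ := ∑ x, ia G a x

omit [Fintype V] in
theorem ia_comm (a x : V) : ia G a x = ia G x a := by simp only [ia, G.adj_comm]

omit [Fintype V] in
theorem ia_mem (a x : V) : 0 ≤ ia G a x ∧ ia G a x ≤ 1 := by unfold ia; split_ifs <;> norm_num

theorem Y_eq (a b : V) : Y G a b = ∑ x, ia G a x * ia G b x := by
  rw [Y, nb, ← sum_boole]
  refine sum_congr rfl fun x _ => ?_
  by_cases h1 : G.Adj a x <;> by_cases h2 : G.Adj b x <;> simp [ia, h1, h2]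

theorem Y_self (a : V) : Y G a a = dg G a := by
  rw [Y_eq]
  exact sum_congr rfl fun x _ => by unfold ia; split_ifs <;> norm_num

theorem dc_eq : dc G = ∑ a, dg G a := by
  rw [dc, darts, ← sum_boole, Fintype.sum_prod_type]; rfl

theorem dg_mem (a : V) : 0 ≤ dg G a ∧ dg G a ≤ Fintype.card V :=
  ⟨sum_nonneg fun x _ => (ia_mem a x).1,
    (sum_le_card_nsmul _ _ 1 fun x _ => (ia_mem a x).2).trans (by simp)⟩

theorem sum_Y (x : V) : ∑ z, Y G x z = ∑ y, ia G x y * dg G y := by
  simp only [Y_eq, dg, mul_sum]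
  rw [sum_comm]
  exact sum_congr rfl fun y _ => sum_congr rfl fun z _ => by rw [ia_comm z y]

end SparseAux

open SparseAux

theorem TL_of_Sp {G : SimpleGraph V} {k m : ℕ} (hm : 2 * k + 2 ≤ m) {a b : V} (hab : G.Adj a b)
    (h : Sp G m a b) : TL G k a b a := by
  have c := card_pair hab.ne
  refine tl h k {a, b} a b a ⟨by simp, by simp, ?_⟩ ⟨by simp, by simp, hab, fun z hz hz' => ?_⟩
    (by omega)
  · have := ec_insert (G := G) (U := {b}) (N := {b}) (x := a) (by simpa using hab.ne) Subset.rfl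
      (by simpa using hab.symm)
    rw [card_singleton] at this
    omega
  · simp only [mem_insert, mem_singleton] at hz
    exact hz.resolve_right (mem_nb.1 hz').2.ne'

theorem dc_approx {G : SimpleGraph V} {τ η ε : ℝ} (h : Reg G τ η) (hτ : 0 < τ) (h1 : η ≤ ε)
    (h2 : τ ≤ ε) (h3 : 1 ≤ ε * Fintype.card V) (h4 : ε ≤ 1 / 10) :
    (1 - 6 * ε) * (Fintype.card V : ℝ) ^ 3 ≤ τ * dc G ^ 2 ∧
      τ * dc G ^ 2 ≤ (1 + 6 * ε) * (Fintype.card V : ℝ) ^ 3 := by
  have hε : 0 < ε := by linarith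
  have dm := dg_mem (G := G)
  have hN := dc_eq (G := G)
  have hS : ∑ x, ∑ z, Y G x z = ∑ y, dg G y ^ 2 := by
    simp only [sum_Y]
    rw [sum_comm]
    refine sum_congr rfl fun y _ => ?_
    rw [← sum_mul, sq, dg]
    simp only [ia_comm y]
  have cs := sq_sum_le_card_mul_sum_sq (s := univ) (f := dg G)
  rw [← hN, card_univ] at cs
  have hN2 : dc G ≤ (Fintype.card V : ℝ) ^ 2 := by
    rw [hN]
    exact (sum_le_card_nsmul _ _ _ fun a _ => (dm a).2).trans (by simp [sq])
  have hc : ∀ a : V, ((univ.erase a).card : ℝ) = Fintype.card V - 1 := fun a => by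
    rw [cast_card_erase_of_mem (mem_univ a), card_univ]
  have up : ∀ a b, a ≠ b → τ * Y G a b ≤ 1 + ε := fun a b hab => by
    linarith [(abs_le.1 (h a b hab)).2]
  have lo : ∀ a, (Fintype.card V - 1) * (1 - ε) ≤ τ * ∑ z, Y G a z := fun a => by
    rw [mul_sum, ← add_sum_erase _ _ (mem_univ a), ← hc a, ← nsmul_eq_mul]
    refine (card_nsmul_le_sum _ _ _ fun z hz => ?_).trans
      (le_add_of_nonneg_left (mul_nonneg hτ.le (Y_nonneg a a)))
    linarith [(abs_le.1 (h a z (ne_of_mem_erase hz).symm)).1]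
  have hi : ∀ a, τ * ∑ z, Y G a z ≤ τ * dg G a + Fintype.card V * (1 + ε) := fun a => by
    rw [mul_sum, ← add_sum_erase _ _ (mem_univ a), Y_self]
    have := sum_le_card_nsmul _ _ _ fun z (hz : z ∈ univ.erase a) =>
      up a z (ne_of_mem_erase hz).symm
    rw [nsmul_eq_mul, hc] at this
    linarith
  have loc : ∀ a, dg G a * ((Fintype.card V - 1) * (1 - ε))
      ≤ ε * Fintype.card V * dg G a + dc G * (1 + ε) := fun a => by
    have e : ∑ x, ia G a x * ∑ z, Y G x z = ∑ y, dg G y * Y G a y := by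
      simp only [sum_Y]
      simp only [Y_eq, mul_sum]
      rw [sum_comm]
      exact sum_congr rfl fun y _ => sum_congr rfl fun x _ => by rw [ia_comm y x]; ring
    calc _ ≤ τ * ∑ x, ia G a x * ∑ z, Y G x z := by
          rw [dg, sum_mul, mul_sum]
          refine sum_le_sum fun x _ => ?_
          rw [mul_left_comm τ]
          exact mul_le_mul_of_nonneg_left (lo x) (ia_mem a x).1
      _ = τ * dg G a * dg G a + ∑ y ∈ univ.erase a, dg G y * (τ * Y G a y) := by
          rw [e, mul_sum, ← add_sum_erase _ _ (mem_univ a), Y_self, mul_assoc]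
          congr 1
          exact sum_congr rfl fun y _ => by ring
      _ ≤ _ := by
          refine add_le_add (mul_le_mul_of_nonneg_right
            (mul_le_mul h2 (dm a).2 (dm a).1 hε.le) (dm a).1) ?_
          rw [hN, sum_mul]
          exact (sum_le_sum fun y hy => mul_le_mul_of_nonneg_left
            (up a y (ne_of_mem_erase hy).symm) (dm y).1).trans
            (sum_le_sum_of_subset_of_nonneg (erase_subset _ _) fun y _ _ =>
              mul_nonneg (dm y).1 (by linarith))
  have S1 : τ * ∑ y, dg G y ^ 2 ≤ τ * dc G + Fintype.card V * (Fintype.card V * (1 + ε)) := by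
    rw [← hS, mul_sum, hN, mul_sum]
    refine (sum_le_sum fun a _ => hi a).trans (le_of_eq ?_)
    rw [sum_add_distrib, sum_const, card_univ, nsmul_eq_mul]
  have S2 : Fintype.card V * ((Fintype.card V - 1) * (1 - ε)) ≤ τ * ∑ y, dg G y ^ 2 := by
    rw [← hS, mul_sum, ← nsmul_eq_mul, ← card_univ]
    exact card_nsmul_le_sum _ _ _ fun a _ => lo a
  have hN0 : 0 ≤ dc G := Nat.cast_nonneg _
  generalize (Fintype.card V : ℝ) = n at *
  have hn : 0 < n := by
    by_contra hn
    nlinarith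
  have c1 : n * (1 - 2 * ε) ≤ (n - 1) * (1 - ε) := by nlinarith
  have S3 : n * (1 - 3 * ε) * ∑ y, dg G y ^ 2 ≤ dc G ^ 2 * (1 + ε) := by
    rw [mul_sum, sq (dc G), mul_assoc]
    nth_rewrite 1 [hN]
    rw [sum_mul]
    refine sum_le_sum fun a _ => ?_
    have t := mul_le_mul_of_nonneg_left c1 (dm a).1
    have := mul_le_mul_of_nonneg_left (t.trans (loc a)) (dm a).1
    nlinarith
  generalize ∑ y, dg G y ^ 2 = Q at *
  generalize dc G = N at *
  constructor
  · refine le_of_mul_le_mul_right ?_ (show 0 < 1 + ε by linarith)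
    have t1 := mul_le_mul_of_nonneg_left S3 hτ.le
    have t2 := mul_le_mul_of_nonneg_left ((mul_le_mul_of_nonneg_left c1 hn.le).trans S2)
      (show 0 ≤ n * (1 - 3 * ε) from mul_nonneg hn.le (by linarith))
    have t3 : 0 ≤ n ^ 3 * ε ^ 2 := by positivity
    nlinarith
  · have t1 := mul_le_mul_of_nonneg_left cs hτ.le
    have t2 := mul_le_mul_of_nonneg_left S1 hn.le
    have t3 := mul_le_mul_of_nonneg_left (mul_le_mul h2 hN2 hN0 hε.le) hn.le
    have t4 : 0 ≤ n ^ 3 * ε := by positivity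
    nlinarith

theorem bad_le (Λ : (SimpleGraph V → ℝ) →ₗ[ℝ] ℝ) (hΛ : Monotone Λ) {ρ : ℝ} (hρ : 0 ≤ ρ) (m : ℕ)
    (h : ∀ S : Finset (Finset V), (∀ e ∈ S, e.card = 2) → S.card ≤ 2 * m →
      Λ (fun G => if ∀ e ∈ S, G.IsClique (e : Set V) then 1 else 0) ≤ ρ ^ S.card) :
    Λ (fun G => bad G m) ≤
      Fintype.card V * (m : ℝ) ^ 3 * ((m : ℝ) ^ 4 * (Fintype.card V * ρ ^ 2 + 1)) ^ m := by
  let I : Finset (Finset V) → SimpleGraph V → ℝ := fun S G =>
    if ∀ e ∈ S, G.IsClique (e : Set V) then 1 else 0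
  have I0 : ∀ S G, 0 ≤ I S G := fun S G => by simp only [I]; split_ifs <;> norm_num
  have h1 : (fun G => bad G m) ≤ ∑ v ∈ Icc 2 m, ∑ U ∈ powersetCard v (univ : Finset V),
      ∑ S ∈ powersetCard (2 * v - 2) (powersetCard 2 U), ((v : ℝ) ^ 2) • I S := by
    intro G
    simp only [Finset.sum_apply, Pi.smul_apply, smul_eq_mul]
    calc bad G m ≤ ∑ e : V × V, ∑ v ∈ Icc 2 m, ∑ U ∈ powersetCard v (univ : Finset V),
          ∑ S ∈ powersetCard (2 * v - 2) (powersetCard 2 U),
            (if e ∈ U ×ˢ U then 1 else 0) * I S G := by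
          have nn : ∀ (e : V × V) (U : Finset V) S, 0 ≤ (if e ∈ U ×ˢ U then 1 else 0) * I S G :=
            fun e U S => mul_nonneg (by split_ifs <;> norm_num) (I0 S G)
          rw [bad, card_eq_sum_ones, Nat.cast_sum]
          refine (sum_le_sum fun e he => ?_).trans (sum_le_sum_of_subset_of_nonneg (subset_univ _)
            fun e _ _ => sum_nonneg fun v _ => sum_nonneg fun U _ => sum_nonneg fun S _ => nn e U S)
          obtain ⟨he, hs⟩ := mem_filter.1 he
          unfold Sp at hs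
          push Not at hs
          obtain ⟨U, u1, u2, u3, u4⟩ := hs
          have u5 : 2 ≤ U.card := one_lt_card.2 ⟨_, u1, _, u2, (mem_darts.1 he).ne⟩
          obtain ⟨S, s1, s2⟩ := exists_subset_card_eq (n := 2 * U.card - 2)
            (s := (powersetCard 2 U).filter fun e : Finset V => G.IsClique (e : Set V))
            (by rw [ec_eq] at u4; omega)
          refine le_trans ?_ (single_le_sum (fun v _ => sum_nonneg fun U _ =>
            sum_nonneg fun S _ => nn e U S) (mem_Icc.2 ⟨u5, u3⟩))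
          refine le_trans ?_ (single_le_sum (fun U _ => sum_nonneg fun S _ => nn e U S)
            (mem_powersetCard.2 ⟨subset_univ U, rfl⟩))
          refine le_trans ?_ (single_le_sum (fun S _ => nn e U S)
            (mem_powersetCard.2 ⟨s1.trans (filter_subset _ _), s2⟩))
          rw [if_pos (mem_product.2 ⟨u1, u2⟩), show I S G = 1 from
            if_pos fun e he => (mem_filter.1 (s1 he)).2]
          simp
      _ = _ := by
          rw [sum_comm]
          refine sum_congr rfl fun v _ => ?_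
          rw [sum_comm]
          refine sum_congr rfl fun U hU => ?_
          rw [sum_comm]
          refine sum_congr rfl fun S _ => ?_
          rw [← sum_mul, sum_boole, filter_mem_eq_inter, univ_inter, card_product,
            (mem_powersetCard.1 hU).2, sq, Nat.cast_mul]
  refine (hΛ h1).trans ?_
  simp only [map_sum, map_smul, smul_eq_mul]
  have hn : (0 : ℝ) ≤ Fintype.card V := Nat.cast_nonneg _
  refine (sum_le_card_nsmul _ _ (Fintype.card V * (m : ℝ) ^ 2 *
    ((m : ℝ) ^ 4 * (Fintype.card V * ρ ^ 2 + 1)) ^ m) fun v hv => ?_).trans ?_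
  · obtain ⟨v1, v2⟩ := mem_Icc.1 hv
    obtain ⟨w, rfl⟩ : ∃ w, v = w + 1 := ⟨v - 1, by omega⟩
    have e : 2 * (w + 1) - 2 = 2 * w := by omega
    rw [e]
    have hvm : ((w + 1 : ℕ) : ℝ) ≤ m := by exact_mod_cast v2
    have hv1 : (1 : ℝ) ≤ (w + 1 : ℕ) := by exact_mod_cast (by omega : 1 ≤ w + 1)
    refine (sum_le_card_nsmul _ _ ((((w + 1 : ℕ) : ℝ) ^ 2) ^ (2 * w) *
      (((w + 1 : ℕ) : ℝ) ^ 2 * ρ ^ (2 * w))) fun U hU => ?_).trans ?_
    · refine (sum_le_card_nsmul _ _ (((w + 1 : ℕ) : ℝ) ^ 2 * ρ ^ (2 * w)) fun S hS => ?_).trans ?_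
      · obtain ⟨s1, s2⟩ := mem_powersetCard.1 hS
        refine mul_le_mul_of_nonneg_left ?_ (by positivity)
        rw [← s2]
        exact h S (fun e he => (mem_powersetCard.1 (s1 he)).2) (by omega)
      · rw [nsmul_eq_mul]
        refine mul_le_mul_of_nonneg_right ?_ (by positivity)
        rw [card_powersetCard, card_powersetCard, (mem_powersetCard.1 hU).2]
        exact_mod_cast (Nat.choose_le_pow _ _).trans
          (Nat.pow_le_pow_left (Nat.choose_le_pow _ _) _)
    · rw [nsmul_eq_mul, card_powersetCard, card_univ]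
      have c1 : ((Fintype.card V).choose (w + 1) : ℝ) ≤ (Fintype.card V : ℝ) ^ (w + 1) := by
        exact_mod_cast Nat.choose_le_pow _ _
      refine (mul_le_mul_of_nonneg_right c1 (by positivity)).trans ?_
      generalize ((w + 1 : ℕ) : ℝ) = x at *
      generalize (Fintype.card V : ℝ) = n at *
      have m1 : (1 : ℝ) ≤ (m : ℝ) ^ 4 := one_le_pow₀ (by linarith)
      have p1 : 0 ≤ n * ρ ^ 2 := by positivity
      calc _ = n * x ^ 2 * (x ^ 4 * (n * ρ ^ 2)) ^ w := by
            simp only [mul_pow, ← pow_mul]; ring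
        _ ≤ n * (m : ℝ) ^ 2 * ((m : ℝ) ^ 4 * (n * ρ ^ 2 + 1)) ^ w := by gcongr; linarith
        _ ≤ _ := mul_le_mul_of_nonneg_left (pow_le_pow_right₀ (by nlinarith) (by omega))
            (by positivity)
  · rw [nsmul_eq_mul, Nat.card_Icc]
    have : ((m + 1 - 2 : ℕ) : ℝ) ≤ m := by exact_mod_cast (by omega : m + 1 - 2 ≤ m)
    refine (mul_le_mul_of_nonneg_right this (by positivity)).trans (le_of_eq (by ring))

end Vale.Agent.P046
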