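import Vale.Agent.P046.Prob
import Vale.Agent.P046.BP0

/-! Part Tree: the label process versus belief propagation. -/

namespace Vale.Agent.P046

open Finset Real
open scoped Classical

variable {V : Type} [Fintype V]

namespace TreeAux

variable {K : ℕ} {G : SimpleGraph V}

/-- truncated survival events -/
def Ap (G : SimpleGraph V) (l : Finset V → Fin K) : ℕ → ℕ → V → V → V → Prop
  | 0, _, _, _, _ => True
  | k + 1, j, a, b, c => ∀ x ∈ (nb G a b).erase c, (l {a, b, x} : ℕ) < j →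
      ¬ (Ap G l k (l {a, b, x}) a x b ∧ Ap G l k (l {a, b, x}) b x a)

/-- triangles inspected by the exploration -/
noncomputable def supp (G : SimpleGraph V) : ℕ → V → V → V → Finset (Finset V)
  | 0, _, _, _ => ∅
  | k + 1, a, b, c => ((nb G a b).erase c).biUnion fun x =>
      insert {a, b, x} (supp G k a x b ∪ supp G k b x a)

/-- indicator of the truncated event -/
noncomputable def A (G : SimpleGraph V) (k j : ℕ) (a b c : V) (l : Finset V → Fin K) : ℝ :=
  if Ap G l k j a b c then 1 else 0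

theorem pr_le (l : Finset V → Fin K) (j : ℕ) : pr G l j ≤ G := by
  induction j with
  | zero => exact le_rfl
  | succ j ih => exact fun _ _ h => ih h.1

theorem pr_adj (l : Finset V → Fin K) (j : ℕ) {a b : V} (hab : G.Adj a b) :
    (pr G l j).Adj a b ↔ ∀ x ∈ nb G a b, (l {a, b, x} : ℕ) < j →
      ¬ ((pr G l (l {a, b, x})).Adj a x ∧ (pr G l (l {a, b, x})).Adj b x) := by
  induction j with
  | zero => exact iff_of_true hab fun _ _ h => absurd h (Nat.not_lt_zero _)
  | succ j ih =>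
    constructor
    · rintro ⟨h1, h2⟩ x hx hl h3
      rcases Nat.lt_succ_iff_lt_or_eq.1 hl with h | h
      · exact ih.1 h1 x hx h h3
      · rw [h] at h3
        exact h2 ⟨_, triple_mem_tri h1 (mem_nb.2 h3), h, by simp, by simp⟩
    · intro h
      refine ⟨ih.2 fun x hx hl => h x hx (by omega), ?_⟩
      rintro ⟨T, hT, hl, ha, hb⟩
      obtain ⟨x, hx, rfl⟩ := exists_third hT ha hb hab.ne
      refine h x (nb_mono (pr_le l j) a b hx) (by omega) ?_
      rw [hl]; exact mem_nb.1 hx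

omit [Fintype V] in
theorem e1 (a b x : V) : ({a, x, b} : Finset V) = {a, b, x} := by rw [pair_comm x b]

omit [Fintype V] in
theorem e2 (a b x : V) : ({b, x, a} : Finset V) = {a, b, x} := by
  ext; simp only [mem_insert, mem_singleton]; tauto

/-- upper approximation -/
def Up (G : SimpleGraph V) (l : Finset V → Fin K) (k : ℕ) : Prop :=
  ∀ (j : ℕ) a b c, G.Adj a b → (c ∈ nb G a b → j ≤ (l {a, b, c} : ℕ)) → (pr G l j).Adj a b →
    Ap G l k j a b c

/-- lower approximation -/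
def Lo (G : SimpleGraph V) (l : Finset V → Fin K) (k : ℕ) : Prop :=
  ∀ (j : ℕ) a b c, G.Adj a b → (c ∈ nb G a b → j ≤ (l {a, b, c} : ℕ)) → Ap G l k j a b c →
    (pr G l j).Adj a b

theorem Up.lo {l : Finset V → Fin K} {k : ℕ} (h : Up G l k) : Lo G l (k + 1) := by
  intro j a b c hab hc hA
  refine (pr_adj l j hab).2 fun x hx hl h3 => hA x (mem_erase.2 ⟨?_, hx⟩) hl
    ⟨h _ a x b (mem_nb.1 hx).1 (fun _ => by rw [e1 a b x]) h3.1,
      h _ b x a (mem_nb.1 hx).2 (fun _ => by rw [e2 a b x]) h3.2⟩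
  rintro rfl
  have := hc hx
  omega

theorem Lo.up {l : Finset V → Fin K} {k : ℕ} (h : Lo G l k) : Up G l (k + 1) := by
  intro j a b c hab _ hA x hx hl h3
  have hx' := mem_of_mem_erase hx
  exact (pr_adj l j hab).1 hA x hx' hl
    ⟨h _ a x b (mem_nb.1 hx').1 (fun _ => by rw [e1 a b x]) h3.1,
      h _ b x a (mem_nb.1 hx').2 (fun _ => by rw [e2 a b x]) h3.2⟩

theorem up_even (l : Finset V → Fin K) (R : ℕ) : Up G l (2 * R) := by
  induction R with
  | zero => exact fun _ _ _ _ _ _ _ => trivial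
  | succ R ih => exact ih.lo.up

theorem dc_pr (l : Finset V → Fin K) :
    dc (pr G l K) = ∑ d ∈ darts G, if (pr G l K).Adj d.1 d.2 then (1 : ℝ) else 0 := by
  rw [sum_boole, dc]
  congr 2
  ext d
  rw [mem_filter, mem_darts, mem_darts]
  exact ⟨fun h => ⟨pr_le l K h, h⟩, fun h => h.2⟩

theorem sandwich (l : Finset V → Fin K) (R : ℕ) :
    ∑ d ∈ darts G, A G (2 * R + 1) K d.1 d.2 d.1 l ≤ dc (pr G l K) ∧
      dc (pr G l K) ≤ ∑ d ∈ darts G, A G (2 * R + 2) K d.1 d.2 d.1 l := by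
  have hn : ∀ a b : V, a ∈ nb G a b → K ≤ l {a, b, a} := fun a b h =>
    absurd (mem_nb.1 h).1 G.irrefl
  rw [dc_pr]
  refine ⟨sum_le_sum fun d hd => ?_, sum_le_sum fun d hd => ?_⟩ <;> unfold A
  · by_cases h : Ap G l (2 * R + 1) K d.1 d.2 d.1
    · rw [if_pos h, if_pos ((up_even l R).lo _ _ _ _ (mem_darts.1 hd) (hn _ _) h)]
    · rw [if_neg h]; split_ifs <;> norm_num
  · by_cases h : (pr G l K).Adj d.1 d.2
    · rw [if_pos h, if_pos ((up_even l R).lo.up _ _ _ _ (mem_darts.1 hd) (hn _ _) h)]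
    · rw [if_neg h]; split_ifs <;> norm_num

theorem Ap_congr {l l' : Finset V → Fin K} (k : ℕ) : ∀ j a b c, (∀ T ∈ supp G k a b c, l T = l' T) →
    (Ap G l k j a b c ↔ Ap G l' k j a b c) := by
  induction k with
  | zero => exact fun _ _ _ _ _ => Iff.rfl
  | succ k ih =>
    intro j a b c h
    refine forall₂_congr fun x hx => ?_
    have h' : ∀ T ∈ insert {a, b, x} (supp G k a x b ∪ supp G k b x a), l T = l' T :=
      fun T hT => h T (mem_biUnion.2 ⟨x, hx, hT⟩)
    rw [h' _ (mem_insert_self _ _),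
      ih _ a x b fun T hT => h' T (mem_insert_of_mem (mem_union_left _ hT)),
      ih _ b x a fun T hT => h' T (mem_insert_of_mem (mem_union_right _ hT))]

theorem dep_A (k j : ℕ) (a b c : V) : Dep (K := K) (supp G k a b c) (A G k j a b c) :=
  fun l l' h => by unfold A; rw [Ap_congr k j a b c h]

theorem A_mem (k j : ℕ) (a b c : V) (l : Finset V → Fin K) :
    0 ≤ A G k j a b c l ∧ A G k j a b c l ≤ 1 := by
  unfold A; split_ifs <;> norm_num

theorem supp_step {k : ℕ} (ih : ∀ a b c, ∀ T ∈ supp G k a b c,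
      (∀ v ∈ T, v = a ∨ v = b ∨ v ∈ Vs G k a b c) ∧ ∃ v ∈ T, v ∈ Vs G k a b c) (a b x : V) :
    ∀ T ∈ insert {a, b, x} (supp G k a x b ∪ supp G k b x a),
      (∀ v ∈ T, v = a ∨ v = b ∨ v ∈ insert x (Vs G k a x b ∪ Vs G k b x a)) ∧
        ∃ v ∈ T, v ∈ insert x (Vs G k a x b ∪ Vs G k b x a) := by
  intro T hT
  simp only [mem_insert, mem_union] at hT ⊢
  rcases hT with rfl | hT | hT
  · exact ⟨fun v hv => by simp only [mem_insert, mem_singleton] at hv; tauto, x, by simp, .inl rfl⟩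
  · obtain ⟨h1, v, hv, h2⟩ := ih _ _ _ T hT
    exact ⟨fun v hv => by have := h1 v hv; tauto, v, hv, .inr (.inl h2)⟩
  · obtain ⟨h1, v, hv, h2⟩ := ih _ _ _ T hT
    exact ⟨fun v hv => by have := h1 v hv; tauto, v, hv, .inr (.inr h2)⟩

theorem supp_Vs (k : ℕ) : ∀ a b c, ∀ T ∈ supp G k a b c,
    (∀ v ∈ T, v = a ∨ v = b ∨ v ∈ Vs G k a b c) ∧ ∃ v ∈ T, v ∈ Vs G k a b c := by
  induction k with
  | zero => exact fun _ _ _ T hT => absurd hT (notMem_empty T)
  | succ k ih =>
    intro a b c T hT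
    obtain ⟨x, hx, hT⟩ := mem_biUnion.1 hT
    obtain ⟨h1, v, hv, h2⟩ := supp_step ih a b x T hT
    exact ⟨fun v hv => (h1 v hv).imp_right fun h => h.imp_right fun h => mem_biUnion.2 ⟨x, hx, h⟩,
      v, hv, mem_biUnion.2 ⟨x, hx, h2⟩⟩

theorem TL_notMem {k : ℕ} {a b c : V} (h : TL G k a b c) : b ∉ Vs G k a b c := by
  cases k with
  | zero => exact notMem_empty _
  | succ k => exact h.2.1

theorem A_succ (k j : ℕ) (a b c : V) (l : Finset V → Fin K) : A G (k + 1) j a b c l =
    ∏ x ∈ (nb G a b).erase c, (1 - ∑ i ∈ range j, (if (l {a, b, x} : ℕ) = i then (1 : ℝ) else 0) *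
      (A G k i a x b l * A G k i b x a l)) := by
  simp only [ite_mul, one_mul, zero_mul, sum_ite_eq, mem_range]
  by_cases h : Ap G l (k + 1) j a b c
  · rw [A, if_pos h]
    refine (prod_eq_one fun x hx => ?_).symm
    split_ifs with hl
    · rcases not_and_or.1 (h x hx hl) with h1 | h1 <;> simp [A, h1]
    · simp
  · rw [A, if_neg h]
    obtain ⟨x, hx⟩ := not_forall.1 h
    obtain ⟨hx, h⟩ := Classical.not_imp.1 hx
    obtain ⟨hl, h⟩ := Classical.not_imp.1 h
    rw [not_not] at h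
    exact (prod_eq_zero hx (by simp [A, hl, h.1, h.2])).symm

theorem Ev_A (hK : 0 < K) (k : ℕ) : ∀ j ≤ K, ∀ a b c, TL G k a b c →
    Ev K (A G k j a b c) = W G K k j a b c := by
  induction k with
  | zero =>
    intro j _ a b c _
    exact (congrArg (Ev K) (funext fun l => if_pos trivial)).trans (Ev_const hK 1)
  | succ k ih =>
    rintro j hj a b c ⟨ha, hb, h1, h2⟩
    have sub : ∀ x ∈ (nb G a b).erase c, ∀ v ∈ insert x (Vs G k a x b ∪ Vs G k b x a),
        v ≠ a ∧ v ≠ b := fun x hx v hv =>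
      have hm : v ∈ Vs G (k + 1) a b c := mem_biUnion.2 ⟨x, hx, hv⟩
      ⟨fun h => ha (by rw [h] at hm; exact hm), fun h => hb (by rw [h] at hm; exact hm)⟩
    rw [funext (A_succ k j a b c), W_succ, Ev_prod hK _
      (fun x => insert {a, b, x} (supp G k a x b ∪ supp G k b x a))]
    · refine prod_congr rfl fun x hx => ?_
      obtain ⟨t1, t2, t3⟩ := h1 x hx
      have d1 : Disjoint (supp G k a x b) (supp G k b x a) := disjoint_left.2 fun T hT hT' => by
        obtain ⟨v, hv, hv'⟩ := (supp_Vs k _ _ _ T hT).2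
        rcases (supp_Vs k _ _ _ T hT').1 v hv with h | h | h
        · exact (sub x hx v (mem_insert_of_mem (mem_union_left _ hv'))).2 h
        · exact TL_notMem t1 (h ▸ hv')
        · exact disjoint_left.1 t3 hv' h
      have d2 : ({a, b, x} : Finset V) ∉ supp G k a x b ∪ supp G k b x a := fun hT => by
        rcases mem_union.1 hT with hT | hT <;> obtain ⟨v, hv, hv'⟩ := (supp_Vs k _ _ _ _ hT).2 <;>
          simp only [mem_insert, mem_singleton] at hv
        · have := sub x hx v (mem_insert_of_mem (mem_union_left _ hv'))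
          exact TL_notMem t1 (((hv.resolve_left this.1).resolve_left this.2) ▸ hv')
        · have := sub x hx v (mem_insert_of_mem (mem_union_right _ hv'))
          exact TL_notMem t2 (((hv.resolve_left this.1).resolve_left this.2) ▸ hv')
      rw [Ev_sub, Ev_const hK, Ev_sum, sum_div]
      congr 1
      refine sum_congr rfl fun i hi => ?_
      have hi' := mem_range.1 hi
      rw [Ev_coord_mul d2 (by omega) (((dep_A k i a x b).mono subset_union_left).mul
        ((dep_A k i b x a).mono subset_union_right)),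
        Ev_indep (dep_A k i a x b) (dep_A k i b x a) d1, ih i (by omega) _ _ _ t1,
        ih i (by omega) _ _ _ t2]
    · intro x _ l l' h
      dsimp only
      congr 1
      refine sum_congr rfl fun i _ => ?_
      rw [h _ (mem_insert_self _ _),
        dep_A k i a x b l l' fun T hT => h T (mem_insert_of_mem (mem_union_left _ hT)),
        dep_A k i b x a l l' fun T hT => h T (mem_insert_of_mem (mem_union_right _ hT))]
    · intro x hx y hy hxy
      refine disjoint_left.2 fun T hT hT' => ?_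
      obtain ⟨v, hv, hv'⟩ := (supp_step (supp_Vs k) a b y T hT').2
      have := sub y hy v hv'
      exact disjoint_left.1 (h2 x hx y hy hxy)
        ((((supp_step (supp_Vs k) a b x T hT).1 v hv).resolve_left this.1).resolve_left this.2) hv'

/-- darts in a common triangle -/
def Ad (G : SimpleGraph V) (d d' : V × V) : Prop :=
  d = d' ∨ ∃ T ∈ tri G, d ∈ T.offDiag ∧ d' ∈ T.offDiag

/-- chains of adjacent darts -/
def Rch (G : SimpleGraph V) : ℕ → V × V → V × V → Prop
  | 0, d, d' => d = d'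
  | k + 1, d, d' => ∃ e, Rch G k d e ∧ Ad G e d'

theorem Rch.refl (k : ℕ) (d : V × V) : Rch G k d d := by
  induction k with
  | zero => rfl
  | succ k ih => exact ⟨d, ih, .inl rfl⟩

theorem Rch.trans {k k' : ℕ} {d e f : V × V} (h : Rch G k d e) (h' : Rch G k' e f) :
    Rch G (k + k') d f := by
  induction k' generalizing f with
  | zero => exact h' ▸ h
  | succ k' ih =>
    obtain ⟨g, h1, h2⟩ := h'
    exact ⟨g, ih h1, h2⟩

theorem Rch.cons {k : ℕ} {d e f : V × V} (h : Ad G d e) (h' : Rch G k e f) :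
    Rch G (k + 1) d f := by
  rw [add_comm]; exact Rch.trans (k := 1) ⟨d, rfl, h⟩ h'

theorem Rch.symm {k : ℕ} {d e : V × V} (h : Rch G k d e) : Rch G k e d := by
  induction k generalizing e with
  | zero => exact Eq.symm h
  | succ k ih =>
    obtain ⟨g, h1, h2⟩ := h
    exact Rch.cons (h2.imp Eq.symm fun ⟨T, a, b, c⟩ => ⟨T, a, c, b⟩) (ih h1)

theorem card_Ad {M : ℕ} (hM : ∀ a b, G.Adj a b → (nb G a b).card ≤ M) (d : V × V) :
    (univ.filter (Ad G d)).card ≤ 6 * M + 1 := by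
  by_cases h : G.Adj d.1 d.2
  · have : univ.filter (Ad G d) ⊆ insert d ((nb G d.1 d.2).biUnion fun x =>
        ({d.1, d.2, x} : Finset V).offDiag) := fun e he => by
      rcases (mem_filter.1 he).2 with rfl | ⟨T, hT, h1, h2⟩
      · exact mem_insert_self _ _
      · obtain ⟨x, hx, rfl⟩ := exists_third hT (mem_offDiag.1 h1).1 (mem_offDiag.1 h1).2.1 h.ne
        exact mem_insert_of_mem (mem_biUnion.2 ⟨x, hx, h2⟩)
    refine (card_le_card this).trans ((card_insert_le _ _).trans (Nat.succ_le_succ ?_))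
    refine (card_biUnion_le_card_mul _ _ 6 fun x hx => ?_).trans ?_
    · rw [offDiag_card, card_of_mem_tri (triple_mem_tri h hx)]
    · have := hM _ _ h
      omega
  · refine le_trans (card_le_one.2 fun e he f hf => ?_) (by omega)
    have key : ∀ e, Ad G d e → d = e := fun e he => he.resolve_right fun ⟨T, hT, h1, _⟩ =>
      h (adj_of_mem_tri hT (mem_offDiag.1 h1).1 (mem_offDiag.1 h1).2.1 (mem_offDiag.1 h1).2.2)
    rw [← key e (mem_filter.1 he).2, ← key f (mem_filter.1 hf).2]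

theorem card_Rch {M : ℕ} (hM : ∀ a b, G.Adj a b → (nb G a b).card ≤ M) (k : ℕ) (d : V × V) :
    (univ.filter (Rch G k d)).card ≤ (6 * M + 1) ^ k := by
  induction k with
  | zero =>
    refine card_le_one.2 fun e he f hf => ?_
    exact Eq.trans (Eq.symm (mem_filter.1 he).2) (mem_filter.1 hf).2
  | succ k ih =>
    have : univ.filter (Rch G (k + 1) d) ⊆ (univ.filter (Rch G k d)).biUnion fun e =>
        univ.filter (Ad G e) := fun f hf => by
      obtain ⟨e, h1, h2⟩ := (mem_filter.1 hf).2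
      exact mem_biUnion.2 ⟨e, mem_filter.2 ⟨mem_univ _, h1⟩, mem_filter.2 ⟨mem_univ _, h2⟩⟩
    refine (card_le_card this).trans
      ((card_biUnion_le_card_mul _ _ _ fun e _ => card_Ad hM e).trans ?_)
    rw [pow_succ]; exact Nat.mul_le_mul_right _ ih

theorem supp_Rch (k : ℕ) : ∀ a b c, G.Adj a b → ∀ T ∈ supp G k a b c,
    T ∈ tri G ∧ ∀ d ∈ T.offDiag, Rch G k (a, b) d := by
  induction k with
  | zero => exact fun _ _ _ _ T hT => absurd hT (notMem_empty T)
  | succ k ih =>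
    intro a b c hab T hT
    obtain ⟨x, hx, hT⟩ := mem_biUnion.1 hT
    have hx' := mem_of_mem_erase hx
    have h0 := triple_mem_tri hab hx'
    have o1 : (a, b) ∈ ({a, b, x} : Finset V).offDiag := mem_offDiag.2 ⟨by simp, by simp, hab.ne⟩
    rcases mem_insert.1 hT with rfl | hT
    · exact ⟨h0, fun d hd => ⟨_, Rch.refl k _, .inr ⟨_, h0, o1, hd⟩⟩⟩
    rcases mem_union.1 hT with hT | hT
    · obtain ⟨h1, h2⟩ := ih _ _ _ (mem_nb.1 hx').1 T hT
      exact ⟨h1, fun d hd => Rch.cons (.inr ⟨_, h0, o1,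
        mem_offDiag.2 ⟨by simp, by simp, (mem_nb.1 hx').1.ne⟩⟩) (h2 d hd)⟩
    · obtain ⟨h1, h2⟩ := ih _ _ _ (mem_nb.1 hx').2 T hT
      exact ⟨h1, fun d hd => Rch.cons (.inr ⟨_, h0, o1,
        mem_offDiag.2 ⟨by simp, by simp, (mem_nb.1 hx').2.ne⟩⟩) (h2 d hd)⟩

theorem EvA_mem (hK : 0 < K) (k j : ℕ) (a b c : V) :
    0 ≤ Ev K (A G k j a b c) ∧ Ev K (A G k j a b c) ≤ 1 :=
  ⟨Ev_nonneg fun l => (A_mem k j a b c l).1,
    (Ev_mono fun l => (A_mem k j a b c l).2).trans (Ev_const hK 1).le⟩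

theorem var_le (hK : 0 < K) {M : ℕ} (hM : ∀ a b, G.Adj a b → (nb G a b).card ≤ M) (k : ℕ) :
    Ev K (fun l => (∑ d ∈ darts G, (A G k K d.1 d.2 d.1 l - Ev K (A G k K d.1 d.2 d.1))) ^ 2)
      ≤ dc G * (6 * M + 1) ^ (2 * k) := by
  simp only [sq, sum_mul_sum, Ev_sum]
  rw [dc, ← nsmul_eq_mul]
  refine sum_le_card_nsmul _ _ _ fun d hd => ?_
  calc _ ≤ ∑ d' ∈ darts G, if Rch G (2 * k) d d' then (1 : ℝ) else 0 := by
        refine sum_le_sum fun d' hd' => ?_
        split_ifs with h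
        · refine (Ev_mono fun l => ?_).trans (Ev_const hK 1).le
          have a1 := A_mem (G := G) k K d.1 d.2 d.1 l
          have a2 := A_mem (G := G) k K d'.1 d'.2 d'.1 l
          have a3 := EvA_mem (G := G) hK k K d.1 d.2 d.1
          have a4 := EvA_mem (G := G) hK k K d'.1 d'.2 d'.1
          refine (le_abs_self _).trans ?_
          rw [abs_mul]
          exact mul_le_one₀ (abs_le.2 ⟨by linarith, by linarith⟩) (abs_nonneg _)
            (abs_le.2 ⟨by linarith, by linarith⟩)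
        · have hdis : Disjoint (supp G k d.1 d.2 d.1) (supp G k d'.1 d'.2 d'.1) :=
            disjoint_left.2 fun T hT hT' => by
              obtain ⟨h1, h2⟩ := supp_Rch k _ _ _ (mem_darts.1 hd) T hT
              obtain ⟨-, h3⟩ := supp_Rch k _ _ _ (mem_darts.1 hd') T hT'
              obtain ⟨e, he⟩ : T.offDiag.Nonempty := by
                rw [← card_pos, offDiag_card, card_of_mem_tri h1]; norm_num
              exact h (two_mul k ▸ (h2 e he).trans (h3 e he).symm)
          rw [Ev_indep (S := supp G k d.1 d.2 d.1) (S' := supp G k d'.1 d'.2 d'.1)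
            (fun l l' h => by simp only [dep_A k K _ _ _ l l' h])
            (fun l l' h => by simp only [dep_A k K _ _ _ l l' h]) hdis, Ev_sub, Ev_const hK,
            sub_self, zero_mul]
    _ ≤ _ := by
        rw [sum_boole]
        exact_mod_cast (card_le_card (filter_subset_filter _ (subset_univ _))).trans
          (card_Rch hM _ d)

theorem level (hK : 0 < K) {M : ℕ} (hM : ∀ a b, G.Adj a b → (nb G a b).card ≤ M) (k : ℕ)
    {μ e γ : ℝ} (hγ : 0 < γ) (h : |∑ d ∈ darts G, W G K k K d.1 d.2 d.1 - μ| ≤ e) :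
    Ev K (fun l => |∑ d ∈ darts G, A G k K d.1 d.2 d.1 l - μ|) ≤
      e + (((darts G).filter fun d => ¬ TL G k d.1 d.2 d.1).card : ℝ) +
        (γ + dc G * (6 * M + 1) ^ (2 * k) / γ) := by
  have h1 : |∑ d ∈ darts G, (Ev K (A G k K d.1 d.2 d.1) - W G K k K d.1 d.2 d.1)|
      ≤ (((darts G).filter fun d => ¬ TL G k d.1 d.2 d.1).card : ℝ) := by
    rw [← sum_boole]
    refine (abs_sum_le_sum_abs _ _).trans (sum_le_sum fun d _ => ?_)
    by_cases ht : TL G k d.1 d.2 d.1
    · rw [Ev_A hK k K le_rfl _ _ _ ht]; simp [ht]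
    · have a1 := EvA_mem (G := G) hK k K d.1 d.2 d.1
      have a2 := W_mem (G := G) k (le_refl K) d.1 d.2 d.1
      rw [if_pos ht]
      exact abs_le.2 ⟨by linarith, by linarith⟩
  have h2 := div_le_div_of_nonneg_right (var_le hK hM k) hγ.le
  rw [div_eq_mul_inv (Ev K _), ← Ev_mul_const] at h2
  refine le_trans (Ev_mono (g := fun l => (e + (((darts G).filter fun d =>
      ¬ TL G k d.1 d.2 d.1).card : ℝ) + γ) + (∑ d ∈ darts G, (A G k K d.1 d.2 d.1 l -
        Ev K (A G k K d.1 d.2 d.1))) ^ 2 * γ⁻¹) fun l => ?_) ?_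
  · set z := ∑ d ∈ darts G, (A G k K d.1 d.2 d.1 l - Ev K (A G k K d.1 d.2 d.1)) with hz
    have h3 : |z| ≤ γ + z ^ 2 * γ⁻¹ := by
      rw [← sq_abs z, ← sub_le_iff_le_add', ← div_eq_mul_inv, le_div_iff₀ hγ]
      nlinarith [abs_nonneg z, sq_nonneg (|z| - γ)]
    rw [sum_sub_distrib] at h1 hz
    rw [abs_le] at h h1 ⊢
    have := le_abs_self z
    have := neg_abs_le z
    constructor <;> linarith [h.1, h.2, h1.1, h1.2]
  · rw [Ev_add, Ev_const hK]; linarith

end TreeAux

open TreeAux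

theorem tree_bound {K : ℕ} (hK : 0 < K) (G : SimpleGraph V) (R M : ℕ)
    (hM : ∀ a b, G.Adj a b → (nb G a b).card ≤ M) {μ e γ : ℝ} (hγ : 0 < γ)
    (h1 : |∑ d ∈ darts G, W G K (2 * R + 1) K d.1 d.2 d.1 - μ| ≤ e)
    (h2 : |∑ d ∈ darts G, W G K (2 * R + 2) K d.1 d.2 d.1 - μ| ≤ e) :
    Ev K (fun l => |dc (pr G l K) - μ|) ≤ 2 * e +
      (((darts G).filter fun d => ¬ TL G (2 * R + 1) d.1 d.2 d.1).card : ℝ) +
      (((darts G).filter fun d => ¬ TL G (2 * R + 2) d.1 d.2 d.1).card : ℝ) +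
      2 * (γ + dc G * (6 * M + 1) ^ (4 * R + 4) / γ) := by
  have a1 := level hK hM _ hγ h1
  have a2 := level hK hM _ hγ h2
  have a3 : dc G * (6 * (M : ℝ) + 1) ^ (2 * (2 * R + 1)) / γ
      ≤ dc G * (6 * M + 1) ^ (4 * R + 4) / γ := by
    have : (0 : ℝ) ≤ M := Nat.cast_nonneg _
    exact div_le_div_of_nonneg_right (mul_le_mul_of_nonneg_left
      (pow_le_pow_right₀ (by linarith) (by omega)) (Nat.cast_nonneg _)) hγ.le
  rw [show 2 * (2 * R + 2) = 4 * R + 4 by ring] at a2
  refine le_trans (Ev_mono (g := fun l =>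
    |∑ d ∈ darts G, A G (2 * R + 1) K d.1 d.2 d.1 l - μ| +
      |∑ d ∈ darts G, A G (2 * R + 2) K d.1 d.2 d.1 l - μ|) fun l => ?_) ?_
  · obtain ⟨s1, s2⟩ := sandwich (G := G) l R
    have b1 := neg_abs_le (∑ d ∈ darts G, A G (2 * R + 1) K d.1 d.2 d.1 l - μ)
    have b2 := le_abs_self (∑ d ∈ darts G, A G (2 * R + 2) K d.1 d.2 d.1 l - μ)
    have b3 := abs_nonneg (∑ d ∈ darts G, A G (2 * R + 1) K d.1 d.2 d.1 l - μ)
    have b4 := abs_nonneg (∑ d ∈ darts G, A G (2 * R + 2) K d.1 d.2 d.1 l - μ)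
    exact abs_le.2 ⟨by linarith, by linarith⟩
  · rw [Ev_add]; linarith

end Vale.Agent.P046
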