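import Vale.Agent.P046.Sup
import Vale.Agent.P046.L2
import Vale.Agent.P046.Gap
import Vale.Agent.P046.Tree
import Vale.Agent.P046.Lab
import Vale.Agent.P046.Sparse

/-! The sparse phase. -/

namespace Vale.Agent.P046

open Finset Real
open scoped Classical

variable {V : Type} [Fintype V]

theorem dc_nonneg (G : SimpleGraph V) : 0 ≤ dc G := Nat.cast_nonneg _

theorem bp_main {G : SimpleGraph V} {D Λ : ℝ} {K : ℕ} (H : Hyp G D Λ K) :
    ∃ R : ℕ, (R : ℝ) ≤ 600 * log D ∧ ∀ k, k = 2 * R + 1 ∨ k = 2 * R + 2 →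
      |∑ d ∈ darts G, W G K k K d.1 d.2 d.1 - dc G / √(2 * D)| ≤ 10 / Λ * (dc G / √(2 * D)) := by
  obtain ⟨j₁, C⟩ := exists_cr H
  obtain ⟨R, hR, hg⟩ := gap H C fun j hj => l2_bad H C hj
  refine ⟨R, hR, fun k hk => ?_⟩
  have h1 := (abs_sum_le_sum_abs _ _).trans (hg k hk)
  rw [sum_sub_distrib] at h1
  have h2 := l2_sum H C
  have hD := H.hD
  have hΛ := H.hΛ
  have hΛD := H.Λ_le_D
  have hN := dc_nonneg G
  have hp := pp_pos (D := D) (K := K) K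
  have e := pp_sq_mul (D := D) (K := K) K
  have a1 := H.exp_sg_K_ge
  have a2 := H.exp_sg_K_le
  have hq : 0 < √(2 * D) := sqrt_pos.2 (by linarith)
  have hq2 : √(2 * D) ^ 2 = 2 * D := sq_sqrt (by linarith)
  set p := pp D K K
  set r := √(2 * D)
  have hl : 0 < 1 / Λ := by positivity
  have hl1 : 1 / Λ ≤ 1 / 10 ^ 5 := one_div_le_one_div_of_le (by norm_num) hΛ
  have b1 : p * r ≤ 1 := by
    refine (pow_le_one_iff_of_nonneg (by positivity) two_ne_zero).1 ?_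
    rw [mul_pow, hq2]; nlinarith [sq_nonneg p]
  have b2 : 1 - 1 / Λ ≤ p * r := by
    refine (pow_le_pow_iff_left₀ (by linarith) (by positivity) two_ne_zero).1 ?_
    rw [mul_pow, hq2]
    have c1 : 1 ≤ p ^ 2 * (2 * D + 2) := by nlinarith [sq_nonneg p]
    have c2 : p ^ 2 * (2 * D) ≤ 1 := by nlinarith [sq_nonneg p]
    have c3 : 2 * p ^ 2 ≤ 1 / Λ := by
      rw [le_div_iff₀ (by linarith)]; nlinarith [sq_nonneg p]
    nlinarith
  have e1 : dc G * p = dc G / r * (p * r) := by field_simp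
  have hx : 0 ≤ dc G / r := by positivity
  rw [e1] at h1 h2
  rw [div_eq_mul_one_div _ Λ] at h1
  rw [div_eq_mul_one_div 4 Λ] at h2
  rw [div_eq_mul_one_div 10 Λ]
  generalize dc G / r = x at *
  generalize p * r = y at *
  generalize 1 / Λ = l at *
  generalize ∑ d ∈ darts G, W G K k K d.1 d.2 d.1 = A at *
  generalize ∑ d ∈ darts G, fx G K K d.1 d.2 d.1 = S at *
  have c1 : x * y ≤ x := mul_le_of_le_one_right hx b1
  have c2 : x - l * x ≤ x * y := by nlinarith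
  have c3 : l * (x * y) ≤ l * x := by gcongr
  have h2' := abs_le.1 h2
  have c4 : S ≤ 2 * x := by nlinarith
  have c5 : (S + x * y) * l ≤ 3 * x * l := by gcongr; linarith
  have h1' := abs_le.1 h1
  rw [abs_le]; constructor <;> nlinarith

theorem close_of_sq {x μ l : ℝ} (hx0 : 0 ≤ x) (hμ0 : 0 < μ) (hl : 0 < l) (hl1 : l ≤ 1 / 10 ^ 5)
    (d1 : (1 - 6 * l) * (2 * μ ^ 2) ≤ 2 * x ^ 2) (d2 : 2 * x ^ 2 ≤ (1 + 6 * l) * (2 * μ ^ 2)) :
    |x - μ| ≤ 6 * l * μ ∧ x ≤ 2 * μ := by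
  have c1 : |x - μ| ≤ 6 * l * μ := by
    rw [abs_le]
    constructor
    · by_contra hc
      have : x < (1 - 6 * l) * μ := by linarith
      have : x ^ 2 < ((1 - 6 * l) * μ) ^ 2 := by gcongr
      nlinarith [mul_pos hl (pow_pos hμ0 2)]
    · by_contra hc
      have : (1 + 6 * l) * μ < x := by linarith
      have : ((1 + 6 * l) * μ) ^ 2 < x ^ 2 := by gcongr
      nlinarith [mul_pos hl (pow_pos hμ0 2), mul_pos (pow_pos hl 2) (pow_pos hμ0 2)]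
  exact ⟨c1, by nlinarith [(abs_le.1 c1).2]⟩

theorem var_term {D Λ μ N : ℝ} {R m : ℕ} (hD1 : 10 ^ 5 ≤ D) (hΛ0 : 0 < Λ) (hΛD : Λ ≤ D)
    (hμ0 : 0 < μ) (hRm : 4 * R + 6 ≤ m) (c2 : N / √(2 * D) ≤ 2 * μ) :
    N * (6 * (⌈2 * D⌉₊ : ℝ) + 1) ^ (4 * R + 4) / (1 / Λ * μ) ≤ (20 * D) ^ (m + 2) / 2 := by
  have hD : 0 < D := by linarith
  have hq : 0 < √(2 * D) := sqrt_pos.2 (by linarith)
  have u1 : (6 * (⌈2 * D⌉₊ : ℝ) + 1) ≤ 20 * D := by
    linarith [Nat.ceil_lt_add_one (by linarith : 0 ≤ 2 * D)]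
  have u2 : (6 * (⌈2 * D⌉₊ : ℝ) + 1) ^ (4 * R + 4) ≤ (20 * D) ^ m :=
    (pow_le_pow_left₀ (by positivity) u1 _).trans (pow_le_pow_right₀ (by linarith) (by omega))
  have u3 : √(2 * D) ≤ D := sqrt_le_iff.2 ⟨hD.le, by nlinarith⟩
  have u4 : N ≤ 2 * μ * D := by
    rw [div_le_iff₀ hq] at c2
    exact c2.trans (by gcongr)
  rw [div_le_iff₀ (by positivity)]
  calc _ ≤ 2 * μ * D * (20 * D) ^ m := by gcongr
    _ = (20 * D) ^ m * (2 * D * Λ) * (1 / Λ * μ) := by field_simp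
    _ ≤ (20 * D) ^ m * ((20 * D) ^ 2 / 2) * (1 / Λ * μ) := by gcongr; nlinarith
    _ = _ := by ring

theorem phase3 {G : SimpleGraph V} {D Λ η m0 : ℝ} {K m : ℕ} (H : Hyp G D Λ K)
    (hreg : Reg G (1 / D) η) (hη : η ≤ 1 / Λ) (hn : Λ ≤ Fintype.card V)
    (hK : 2 * (tri G).card ^ 2 ≤ K) (hm : 2400 * log D + 6 ≤ m) (hm0 : 0 < m0)
    (hm1 : m0 ^ 2 = (Fintype.card V : ℝ) ^ 3) {Φ : SimpleGraph V → ℝ} (hΦ : ∀ H, 0 ≤ Φ H)
    (hharm : ∀ H, gen Φ H = 0)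
    (hstop : ∀ H, tri H = ∅ → Φ H = |dc H / (2 * m0) - 1 / (2 * √2)|) :
    Φ G ≤ 54 / Λ + 2 / m0 * bad G m + (20 * D) ^ (m + 2) / m0 := by
  obtain ⟨R, hR, hbp⟩ := bp_main H
  have hD := H.hD
  have hD1 := H.D_ge
  have hΛ := H.hΛ
  have hΛ0 := H.Λ_pos
  have hΛD := H.Λ_le_D
  have hN := dc_nonneg G
  have hl : 0 < 1 / Λ := by positivity
  have hl1 : 1 / Λ ≤ 1 / 10 ^ 5 := one_div_le_one_div_of_le (by norm_num) hΛ
  have hRm : 4 * R + 6 ≤ m := by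
    have : (4 * R + 6 : ℝ) ≤ m := by linarith
    exact_mod_cast this
  have h2 : (0 : ℝ) < √2 := by positivity
  have h22 : √2 ^ 2 = 2 := sq_sqrt (by norm_num)
  have h21 : 1 ≤ √2 := by rw [one_le_sqrt]; norm_num
  set μ := m0 / √2 with hμ
  have hμ0 : 0 < μ := by positivity
  have hμ1 : μ ≤ m0 := div_le_self hm0.le h21
  have hq : 0 < √(2 * D) := sqrt_pos.2 (by linarith)
  have hq2 : √(2 * D) ^ 2 = 2 * D := sq_sqrt (by linarith)
  obtain ⟨d1, d2⟩ := dc_approx (ε := 1 / Λ) hreg (by positivity) hη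
    (one_div_le_one_div_of_le hΛ0 hΛD) (by rw [one_div_mul_eq_div, le_div_iff₀ hΛ0]; linarith)
    (by linarith)
  set x := dc G / √(2 * D) with hx
  have hx0 : 0 ≤ x := by positivity
  have ex : 1 / D * dc G ^ 2 = 2 * x ^ 2 := by rw [hx, div_pow, hq2]; field_simp
  have eμ : (Fintype.card V : ℝ) ^ 3 = 2 * μ ^ 2 := by rw [hμ, div_pow, h22, hm1]; ring
  rw [ex, eμ] at d1 d2
  obtain ⟨c1, c2⟩ := close_of_sq hx0 hμ0 hl hl1 d1 d2
  have c3 : ∀ k, k = 2 * R + 1 ∨ k = 2 * R + 2 →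
      |∑ d ∈ darts G, W G K k K d.1 d.2 d.1 - μ| ≤ 26 * (1 / Λ) * μ := by
    intro k hk
    have := hbp k hk
    rw [div_eq_mul_one_div 10 Λ] at this
    have h3 := abs_sub_le (∑ d ∈ darts G, W G K k K d.1 d.2 d.1) x μ
    linarith [mul_le_mul_of_nonneg_left c2 hl.le]
  have tb := tree_bound H.K_pos G R ⌈2 * D⌉₊ (fun a b hab => by
    have := (H.Y_le hab).trans (Nat.le_ceil _)
    rw [Y] at this
    exact_mod_cast this) (γ := 1 / Λ * μ) (by positivity) (c3 _ (Or.inl rfl)) (c3 _ (Or.inr rfl))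
  have t1 : ∀ k, 2 * k + 2 ≤ m →
      (((darts G).filter fun d => ¬ TL G k d.1 d.2 d.1).card : ℝ) ≤ bad G m := by
    intro k hk
    rw [bad]
    refine Nat.cast_le.2 (card_le_card fun d hd => ?_)
    rw [mem_filter] at hd ⊢
    exact ⟨hd.1, fun h => hd.2 (TL_of_Sp hk (mem_darts.1 hd.1) h)⟩
  have t2 := t1 (2 * R + 1) (by omega)
  have t3 := t1 (2 * R + 2) (by omega)
  have t4 := var_term hD1 hΛ0 hΛD hμ0 hRm c2
  have lb := lab_bound H.K_pos (f := fun H => |dc H / (2 * m0) - 1 / (2 * √2)|)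
    (fun _ => abs_nonneg _) hΦ hharm hstop G hK
  have e1 : ∀ H : SimpleGraph V,
      |dc H / (2 * m0) - 1 / (2 * √2)| = 1 / (2 * m0) * |dc H - μ| := by
    intro H
    rw [← abs_of_pos (by positivity : 0 < 1 / (2 * m0)), ← abs_mul, hμ]
    congr 1; field_simp
  simp only [e1, Ev_const_mul] at lb
  refine lb.trans ?_
  have e2 : Ev K (fun l => |dc (pr G l K) - μ|) ≤
      54 * (1 / Λ) * m0 + 2 * bad G m + (20 * D) ^ (m + 2) := by
    have : 1 / Λ * μ ≤ 1 / Λ * m0 := by gcongr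
    linarith
  calc _ ≤ 2 * (1 / (2 * m0) * (54 * (1 / Λ) * m0 + 2 * bad G m + (20 * D) ^ (m + 2))) := by
        gcongr
    _ = _ := by field_simp

end Vale.Agent.P046
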