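import Vale.Agent.P046.Ph1
import Vale.Agent.P046.Ph3
import Vale.Agent.P046.Law

/-! Final assembly. -/

namespace Vale.Agent.P046

open Finset Real
open scoped Classical

variable {V : Type} [Fintype V]

/-- numerical facts on the scale parameter -/
structure UU (u : ℝ) : Prop where
  h1 : 10 ^ 4 ≤ u
  h2 : 10 ^ 13 * log u ^ 2 ≤ u

namespace UU

variable {u : ℝ} (U : UU u)
include U

theorem pos : 0 < u := by linarith [U.h1]

theorem one_le_log : 1 ≤ log u := by
  rw [le_log_iff_exp_le U.pos]; linarith [exp_one_lt_d9, U.h1]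

theorem log_le : 10 ^ 13 * log u ≤ u := by nlinarith [U.one_le_log, U.h2]

theorem L_le : 10 * u ^ 3 ≤ u ^ 4 := by nlinarith [U.h1, pow_pos U.pos 3]

theorem sq_ge : 10 ^ 4 * u ≤ u ^ 2 := by nlinarith [U.h1, U.pos]

theorem cube_ge : 10 ^ 4 * u ^ 2 ≤ u ^ 3 := by nlinarith [U.h1, pow_pos U.pos 2]

theorem L_ge : 10 ^ 9 ≤ 10 * u ^ 3 := by
  have := pow_le_pow_left₀ (by norm_num) U.h1 3
  linarith

theorem u_le_L : u ≤ 10 * u ^ 3 := by
  have := le_self_pow₀ (show 1 ≤ u by linarith [U.h1]) (by norm_num : 3 ≠ 0)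
  linarith [U.pos]

theorem logL : log ((10 * u ^ 3) ^ 13) ≤ 52 * log u := by
  have := log_le_log (by have := U.pos; positivity) U.L_le
  rw [log_pow] at this ⊢
  push_cast at this ⊢; linarith

theorem Lam_le : 2 * (10 * u ^ 3) ^ 13 ≤ exp (u / 2) := by
  have h0 : 0 < (10 * u ^ 3) ^ 13 := by have := U.pos; positivity
  rw [← exp_log h0]
  have h1 : (2 : ℝ) ≤ exp 1 := by linarith [add_one_le_exp 1]
  calc _ ≤ exp 1 * exp (log ((10 * u ^ 3) ^ 13)) := by gcongr
    _ ≤ _ := by rw [← exp_add, exp_le_exp]; linarith [U.logL, U.log_le, U.one_le_log]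

theorem exp_neg_le : exp (-u) ≤ 1 / u := by
  rw [exp_neg, ← one_div]
  exact one_div_le_one_div_of_le U.pos (by linarith [add_one_le_exp u])

theorem bad_num {m : ℕ} (hm : (m : ℝ) ≤ 2410 * u) {y : ℝ} (hy0 : 0 ≤ y) (hy : y ≤ 18 * exp u) :
    (m : ℝ) ^ 3 * ((m : ℝ) ^ 4 * (y + 1)) ^ m ≤ exp (u ^ 3 / 2 - u) := by
  have h0 := U.pos
  have h1 := U.h1
  have h2 : (m : ℝ) ≤ exp (2 * log u) := by
    rw [two_mul, exp_add, exp_log h0]; nlinarith
  have h3 : y + 1 ≤ exp (u + 3) := by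
    rw [exp_add]
    have a1 : (19 : ℝ) ≤ exp 3 := by
      have := exp_one_gt_d9
      have e : exp 3 = exp 1 ^ 3 := by rw [← exp_nat_mul]; norm_num
      rw [e]
      calc (19 : ℝ) ≤ 2.7 ^ 3 := by norm_num
        _ ≤ _ := by gcongr; linarith
    have a2 : 1 ≤ exp u := one_le_exp h0.le
    nlinarith
  calc _ ≤ exp (2 * log u) ^ 3 * (exp (2 * log u) ^ 4 * exp (u + 3)) ^ m := by gcongr
    _ = exp (6 * log u + m * (8 * log u + u + 3)) := by
      rw [← exp_nat_mul, ← exp_nat_mul, ← exp_add, ← exp_nat_mul, ← exp_add]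
      congr 1; push_cast; ring
    _ ≤ _ := by
      rw [exp_le_exp]
      have a1 := U.log_le
      have a2 := U.one_le_log
      have a3 : (m : ℝ) * (8 * log u + u + 3) ≤ 2410 * u * (1.01 * u) := by gcongr; linarith
      linarith [U.sq_ge, U.cube_ge]

theorem var_num {m : ℕ} (hm : (m : ℝ) ≤ 2410 * u) {D : ℝ} (hD0 : 0 ≤ D) (hD : D ≤ exp u) :
    (20 * D) ^ (m + 2) ≤ exp (3 * u ^ 3 / 2 - u) := by
  have h0 := U.pos
  have h1 := U.h1
  have h3 : 20 * D ≤ exp (u + 19) := by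
    rw [exp_add, mul_comm]
    gcongr
    linarith [add_one_le_exp 19]
  calc _ ≤ exp (u + 19) ^ (m + 2) := by gcongr
    _ ≤ _ := by
      rw [← exp_nat_mul, exp_le_exp]
      push_cast
      have a3 : ((m : ℝ) + 2) * (u + 19) ≤ (2411 * u) * (2 * u) := by gcongr <;> linarith
      linarith [U.sq_ge, U.cube_ge]

end UU

theorem dc_le (G : SimpleGraph V) : dc G ≤ (Fintype.card V : ℝ) ^ 2 := by
  have := card_le_univ (darts G)
  rw [Fintype.card_prod] at this
  rw [dc, sq]; exact_mod_cast this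

theorem hyp_of_good {u s : ℝ} (U : UU u) (hs1 : exp (-(u / 2)) ≤ s) (hs2 : s ≤ 2 * exp (-(u / 2)))
    {G : SimpleGraph V} (h1 : Reg G (s ^ 2) ((10 * u ^ 3) ^ 4 * s))
    (h2 : ∀ a b, a ≠ b → |s ^ 4 * X2 G a b - 2 * s ^ 2 * Y G a b| ≤ 2 * (10 * u ^ 3) ^ 12 * s ^ 2)
    {K : ℕ} (hK : (1 / s ^ 2) ^ 3 ≤ K) :
    Hyp G (1 / s ^ 2) ((10 * u ^ 3) ^ 13) K ∧ log (1 / s ^ 2) ≤ u := by
  have hs0 : 0 < s := (exp_pos _).trans_le hs1
  have hL := U.L_ge
  have hu := U.h1
  set L := 10 * u ^ 3 with hLd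
  have hL1 : 1 ≤ L := by linarith
  have e : log (1 / s ^ 2) = -(2 * log s) := by rw [one_div, log_inv, log_pow]; norm_num
  have l1 : -(u / 2) ≤ log s := by rwa [le_log_iff_exp_le hs0]
  have l2 : log s ≤ 1 - u / 2 := by
    rw [log_le_iff_le_exp hs0, sub_eq_add_neg, exp_add]
    refine hs2.trans ?_
    gcongr; linarith [add_one_le_exp 1]
  refine ⟨⟨hL.trans' (by norm_num) |>.trans (le_self_pow₀ hL1 (by norm_num)), by positivity, ?_, ?_,
    hK, fun a b hab => ?_, fun a b hab => ?_⟩, by linarith⟩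
  · have := U.u_le_L
    have : L ≤ L ^ 13 := le_self_pow₀ hL1 (by norm_num)
    linarith
  · have a1 := U.logL
    have a2 : 0 ≤ log (L ^ 13) := log_nonneg (one_le_pow₀ hL1)
    have a3 : log (L ^ 13) ^ 2 ≤ (52 * log u) ^ 2 := by gcongr
    have a4 := U.h2
    linarith
  · have a1 := h1 a b hab.ne
    have a2 : (s ^ 2 * Y G a b - 1) ^ 2 ≤ (L ^ 4 * s) ^ 2 := sq_le_sq' (abs_le.1 a1).1 (abs_le.1 a1).2
    have a3 : L ^ 8 * s ^ 2 ≤ L ^ 13 * s ^ 2 := by gcongr; norm_num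
    rw [div_div_eq_mul_div, div_div_eq_mul_div, div_one, div_one, mul_comm (Y G a b)]
    linarith
  · have a1 := h2 a b hab.ne
    have a3 : 2 * (L ^ 12 * s ^ 2) ≤ L * (L ^ 12 * s ^ 2) := by gcongr; linarith
    have e1 : X2 G a b / (1 / s ^ 2) ^ 2 - 2 * Y G a b / (1 / s ^ 2) =
        s ^ 4 * X2 G a b - 2 * s ^ 2 * Y G a b := by field_simp
    rw [e1, div_div_eq_mul_div, div_one]
    linarith

theorem final_bound {u : ℝ} (U : UU u) (hu : exp (u ^ 3) = Fintype.card V) :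
    Phi (fun G : SimpleGraph V =>
      |dc G / (2 * (Fintype.card V : ℝ) ^ (3 / 2 : ℝ)) - 1 / (2 * √2)|) ⊤ ≤ 10 / u := by
  have hu0 := U.pos
  have hu1 := U.h1
  have hL := U.L_ge
  have hΛ := U.Lam_le
  have hue := U.exp_neg_le
  have hu3 : 10 ^ 4 * u ≤ u ^ 3 := by linarith [U.sq_ge, U.cube_ge]
  have hm0 : (Fintype.card V : ℝ) ^ (3 / 2 : ℝ) = exp (3 * u ^ 3 / 2) := by
    rw [← hu, ← exp_mul]; congr 1; ring
  have hn3 : 2 * exp (3 * u) ≤ exp (u ^ 3) := by
    calc _ ≤ exp 1 * exp (3 * u) := by gcongr; linarith [add_one_le_exp 1]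
      _ ≤ _ := by rw [← exp_add, exp_le_exp]; linarith
  have hn4 : 1000 ≤ exp (3 * u) := by linarith [add_one_le_exp (3 * u)]
  rw [hm0]
  set n : ℝ := (Fintype.card V : ℝ) with hn
  set L := 10 * u ^ 3 with hLd
  set m0 := exp (3 * u ^ 3 / 2) with hm0d
  have hm1 : 1 ≤ m0 := one_le_exp (by positivity)
  have hn1 : 2000 ≤ n := by linarith
  have hL1 : 1 ≤ L := by linarith
  set s₀ := 1 / √(n - 2) with hs₀
  have hs₀0 : 0 < s₀ := by have : 0 < n - 2 := by linarith
                           positivity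
  have hs₀2 : s₀ ^ 2 * (n - 2) = 1 := by
    rw [hs₀, div_pow, sq_sqrt (by linarith), one_pow, div_mul_cancel₀ _ (by linarith)]
  have ht2 : exp (-(u / 2)) ^ 2 * exp u = 1 := by
    rw [← exp_nat_mul, ← exp_add]; simp; ring
  obtain ⟨Λ, s, Γ, hmono, hconst, hs1, hs2, hΓ, hharm, hsurv⟩ := ph1 (V := V) (L := L) (s₀ := s₀)
    (t := exp (-(u / 2))) hL (by exact_mod_cast (show (1000 : ℝ) ≤ (Fintype.card V : ℝ) by linarith))
    (by rw [← hn, ← hu, log_exp]; nlinarith [pow_pos hu0 3]) hs₀0 hs₀2 (exp_pos _)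
    (by
      refine (pow_le_pow_iff_left₀ hs₀0.le (by positivity) two_ne_zero).1 ?_
      have e : (exp (-(u / 2)) ^ 3) ^ 2 * exp (3 * u) = 1 := by
        rw [← pow_mul, ← exp_nat_mul, ← exp_add]; simp; ring
      have a1 : exp (3 * u) ≤ n - 2 := by linarith
      by_contra hc
      have a2 : (exp (-(u / 2)) ^ 3) ^ 2 * exp (3 * u) < s₀ ^ 2 * (n - 2) :=
        mul_lt_mul (not_le.1 hc) a1 (exp_pos _) (sq_nonneg _)
      linarith)
    (by
      have : exp (u / 2) * exp (-(u / 2)) = 1 := by rw [← exp_add]; simp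
      nlinarith [exp_pos (-(u / 2))])
  have hs0 : 0 < s := (exp_pos _).trans_le hs1
  have hD : 1 / s ^ 2 ≤ exp u := by
    rw [div_le_iff₀ (by positivity), ← ht2, mul_comm]; gcongr
  set f : SimpleGraph V → ℝ := fun G => |dc G / (2 * m0) - 1 / (2 * √2)| with hf
  have hf0 : ∀ G, 0 ≤ Phi f G := fun G => by
    rw [← Phi_const 0 G]; exact Phi_mono (fun _ => abs_nonneg _) G
  have hf1 : ∀ G, Phi f G ≤ 2 * n ^ 2 := fun G => by
    rw [← Phi_const (2 * n ^ 2) G]
    refine Phi_mono (fun H => ?_) G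
    have a1 := dc_le H
    have a2 := dc_nonneg H
    have a3 : dc H / (2 * m0) ≤ dc H := div_le_self a2 (by linarith)
    have a4 : 0 ≤ dc H / (2 * m0) := by positivity
    have a5 : 1 / (2 * √2) ≤ 1 := by
      have : 1 ≤ √2 := by rw [one_le_sqrt]; norm_num
      rw [div_le_one (by positivity)]; linarith
    have a6 : 0 ≤ 1 / (2 * √2) := by positivity
    rw [abs_le]; constructor <;> nlinarith
  obtain ⟨m, hm, hm'⟩ : ∃ m : ℕ, 2400 * u + 6 ≤ m ∧ (m : ℝ) ≤ 2410 * u :=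
    ⟨⌈2400 * u + 6⌉₊, Nat.le_ceil _,
      by linarith [Nat.ceil_lt_add_one (by positivity : 0 ≤ 2400 * u + 6)]⟩
  have k1 : cut Γ (Phi f) ≤ (fun _ => 2 / u) + (2 / m0) • fun G => bad G m := by
    intro G
    have hb : 0 ≤ bad G m := Nat.cast_nonneg _
    simp only [cut_apply, Pi.add_apply, Pi.smul_apply, smul_eq_mul]
    split_ifs with hG
    · obtain ⟨H, hlog⟩ := hyp_of_good U hs1 hs2 (hΓ G hG).1 (hΓ G hG).2
        (K := ⌈(1 / s ^ 2) ^ 3⌉₊ + 2 * (tri G).card ^ 2)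
        (by push_cast; linarith [Nat.le_ceil ((1 / s ^ 2) ^ 3), sq_nonneg ((tri G).card : ℝ)])
      have a0 := H.pow_le_D
      have a1 : L ^ 4 * s ≤ 1 / L ^ 13 := by
        rw [le_div_iff₀ (by positivity)]
        refine (pow_le_one_iff_of_nonneg (by positivity) two_ne_zero).1 ?_
        rw [le_div_iff₀ (by positivity)] at a0
        have : L ^ 34 * s ^ 2 ≤ (L ^ 13) ^ 100 * s ^ 2 := by
          rw [← pow_mul]; gcongr; norm_num
        linarith
      have p3 := phase3 (m := m) (m0 := m0) H (η := L ^ 4 * s) (by simpa using (hΓ G hG).1) a1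
        (by
          have : exp (u / 2) ≤ exp (3 * u) := exp_le_exp.2 (by linarith)
          have : 0 ≤ L ^ 13 := by positivity
          linarith)
        (by omega) (by linarith) (by linarith)
        (by rw [← hn, ← hu, hm0d, ← exp_nat_mul, ← exp_nat_mul]; congr 1; push_cast; ring)
        hf0 (Phi_harm f) fun H hH => Phi_stop f hH
      have a2 : 54 / L ^ 13 ≤ 1 / u := by
        rw [div_le_div_iff₀ (by positivity) hu0]
        have : L ≤ L ^ 13 := le_self_pow₀ hL1 (by norm_num)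
        linarith
      have a3 : (20 * (1 / s ^ 2)) ^ (m + 2) / m0 ≤ 1 / u := by
        refine le_trans ?_ hue
        rw [div_le_iff₀ (by positivity), hm0d, ← exp_add]
        exact (U.var_num hm' (by positivity) hD).trans (le_of_eq (by congr 1; ring))
      have : 2 / u = 1 / u + 1 / u := by ring
      linarith
    · positivity
  have k2 := hmono k1
  rw [map_add, map_smul, smul_eq_mul] at k2
  have k3 := hconst (2 / u) (by positivity)
  have k4 := bad_le Λ hmono (ρ := 3 * s₀ / s) (by positivity) m fun S h1 h2 => hsurv S h1 (by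
    have : (S.card : ℝ) ≤ 2 * m := by exact_mod_cast h2
    linarith)
  have k5 : 2 / m0 * Λ (fun G => bad G m) ≤ 2 / u := by
    have a1 := U.bad_num hm' (y := n * (3 * s₀ / s) ^ 2) (by positivity) (by
      have : n * s₀ ^ 2 ≤ 2 := by nlinarith [sq_nonneg s₀]
      calc _ = 9 * (n * s₀ ^ 2) * (1 / s ^ 2) := by field_simp; norm_num
        _ ≤ 9 * 2 * exp u := by gcongr
        _ = _ := by ring)
    rw [← hn, mul_assoc] at k4
    have a2 := k4.trans (mul_le_mul_of_nonneg_left a1 (by linarith))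
    have a3 : n * exp (u ^ 3 / 2 - u) = m0 * exp (-u) := by
      rw [← hu, hm0d, ← exp_add, ← exp_add]; congr 1; ring
    calc _ ≤ 2 / m0 * (m0 * exp (-u)) := by rw [← a3]; gcongr
      _ = 2 * exp (-u) := by field_simp
      _ ≤ 2 * (1 / u) := by gcongr
      _ = _ := by ring
  have k6 := hharm (Phi f) (2 * n ^ 2) (Phi_harm f) (by positivity) hf1
  have k7 : 2 * n ^ 2 * (16 * n ^ 6 * exp (-L)) ≤ 1 / u := by
    refine le_trans ?_ hue
    have e : 2 * n ^ 2 * (16 * n ^ 6 * exp (-L)) = 32 * exp (-(2 * u ^ 3)) := by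
      rw [← hu, hLd, ← exp_nat_mul, ← exp_nat_mul,
        show -(2 * u ^ 3) = (2 : ℕ) * u ^ 3 + (6 : ℕ) * u ^ 3 + -(10 * u ^ 3) by push_cast; ring,
        exp_add, exp_add]
      ring
    rw [e]
    calc _ ≤ exp 31 * exp (-(2 * u ^ 3)) := by gcongr; linarith [add_one_le_exp 31]
      _ ≤ _ := by rw [← exp_add, exp_le_exp]; linarith
  have : 10 / u = 10 * (1 / u) := by ring
  have : 2 / u = 2 * (1 / u) := by ring
  have : 0 ≤ 1 / u := by positivity
  linarith

theorem eventually_UU : ∀ᶠ u : ℝ in Filter.atTop, UU u := by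
  have h := (isLittleO_pow_log_id_atTop (n := 2)).bound (c := 1 / 10 ^ 13) (by norm_num)
  filter_upwards [h, Filter.eventually_ge_atTop (10 ^ 4 : ℝ)] with u h1 h2
  refine ⟨h2, ?_⟩
  rw [Real.norm_of_nonneg (sq_nonneg _), id, Real.norm_of_nonneg (by linarith)] at h1
  linarith

theorem main_L1 (ε : ℝ) (hε : 0 < ε) : ∀ᶠ n : ℕ in Filter.atTop,
    Phi (fun G : SimpleGraph (Fin n) =>
      |dc G / (2 * (n : ℝ) ^ (3 / 2 : ℝ)) - 1 / (2 * √2)|) ⊤ ≤ ε := by
  have ht : Filter.Tendsto (fun n : ℕ => log n ^ (1 / 3 : ℝ)) Filter.atTop Filter.atTop :=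
    (tendsto_rpow_atTop (by norm_num)).comp (tendsto_log_atTop.comp tendsto_natCast_atTop_atTop)
  filter_upwards [ht.eventually eventually_UU, ht.eventually_ge_atTop (10 / ε),
    Filter.eventually_ge_atTop 1] with n U h2 h3
  have hn : (1 : ℝ) ≤ n := by exact_mod_cast h3
  have := final_bound (V := Fin n) U (by
    rw [← rpow_natCast, ← rpow_mul (log_nonneg hn), Fintype.card_fin]
    norm_num
    exact exp_log (by linarith))
  rw [Fintype.card_fin] at this
  refine this.trans ?_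
  rw [div_le_iff₀ U.pos, mul_comm, ← div_le_iff₀ hε]
  exact h2

end Vale.Agent.P046
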