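import Vale.Agent.P046.BP0

/-! One step estimates for the gap between the iterates and the fixed point. -/

namespace Vale.Agent.P046.GapAux

open Finset Real
open scoped Classical

variable {V : Type} [Fintype V]

theorem prod_low {ι : Type} (s : Finset ι) (a b e : ι → ℝ) (ha : ∀ x ∈ s, 0 ≤ a x)
    (hb : ∀ x ∈ s, 0 ≤ b x) (he : ∀ x ∈ s, 0 ≤ e x) (h : ∀ x ∈ s, b x * (1 - e x) ≤ a x) :
    (∏ x ∈ s, b x) * (1 - ∑ x ∈ s, e x) ≤ ∏ x ∈ s, a x := by
  induction s using Finset.induction_on with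
  | empty => simp
  | insert y s hy ih =>
    rw [prod_insert hy, prod_insert hy, sum_insert hy]
    have ih' := ih (fun x hx => ha x (mem_insert_of_mem hx))
      (fun x hx => hb x (mem_insert_of_mem hx)) (fun x hx => he x (mem_insert_of_mem hx))
      (fun x hx => h x (mem_insert_of_mem hx))
    have hA : 0 ≤ ∏ x ∈ s, a x := prod_nonneg fun x hx => ha x (mem_insert_of_mem hx)
    have hB : 0 ≤ ∏ x ∈ s, b x := prod_nonneg fun x hx => hb x (mem_insert_of_mem hx)
    have hE : 0 ≤ ∑ x ∈ s, e x := sum_nonneg fun x hx => he x (mem_insert_of_mem hx)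
    have ha' := ha y (mem_insert_self _ _)
    have hb' := hb y (mem_insert_self _ _)
    have he' := he y (mem_insert_self _ _)
    have h' := h y (mem_insert_self _ _)
    set P := ∏ x ∈ s, b x
    set Q := ∏ x ∈ s, a x
    set E := ∑ x ∈ s, e x
    by_cases h1 : 1 - (e y + E) ≤ 0
    · exact (mul_nonpos_of_nonneg_of_nonpos (mul_nonneg hb' hB) h1).trans (mul_nonneg ha' hA)
    · have h2 : 0 ≤ 1 - e y := by linarith
      have h3 : 0 ≤ 1 - E := by linarith
      calc b y * P * (1 - (e y + E)) ≤ b y * P * ((1 - e y) * (1 - E)) := by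
            refine mul_le_mul_of_nonneg_left ?_ (mul_nonneg hb' hB)
            nlinarith [mul_nonneg he' hE]
        _ = (b y * (1 - e y)) * (P * (1 - E)) := by ring
        _ ≤ a y * Q := mul_le_mul h' ih' (mul_nonneg hB h3) ha'

theorem prod_up {ι : Type} (s : Finset ι) (a b e : ι → ℝ) (ha : ∀ x ∈ s, 0 ≤ a x)
    (h : ∀ x ∈ s, a x ≤ b x * exp (e x)) :
    ∏ x ∈ s, a x ≤ (∏ x ∈ s, b x) * exp (∑ x ∈ s, e x) := by
  rw [exp_sum, ← prod_mul_distrib]
  exact prod_le_prod ha h

/-- relative gap at level `k`, time `i`, on the dart `(a, b)` -/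
def Gp (G : SimpleGraph V) (K k i : ℕ) (a b : V) (ψ : ℝ) : Prop :=
  ∀ c, |W G K k i a b c - fx G K i a b c| ≤ ψ * fx G K i a b c

/-- firing probability computed from level `k` -/
noncomputable def IW (G : SimpleGraph V) (K k j : ℕ) (a b x : V) : ℝ :=
  (∑ i ∈ range j, W G K k i a x b * W G K k i b x a) / K

variable {G : SimpleGraph V} {D Λ : ℝ} {K : ℕ}

theorem Gp.mono {k i : ℕ} (hi : i ≤ K) {a b : V} {ψ φ : ℝ} (h : Gp G K k i a b ψ) (hle : ψ ≤ φ) :
    Gp G K k i a b φ := fun c =>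
  (h c).trans (mul_le_mul_of_nonneg_right hle (pi_nonneg hi a b c))

theorem Gp_odd (m : ℕ) {i : ℕ} (hi : i ≤ K) (a b : V) : Gp G K (2 * m + 1) i a b 1 := fun c => by
  have h1 := odd_le_pi (G := G) m i hi a b c
  have h2 := W_nonneg (G := G) (2 * m + 1) hi a b c
  rw [abs_le]; constructor <;> linarith

theorem one_step {k j : ℕ} (hj : j ≤ K) {a b : V} {Δ : ℝ}
    (hII : ∀ x ∈ nb G a b, II G K j a b x ≤ 1 / 2)
    (hΔ : ∑ x ∈ nb G a b, |IW G K k j a b x - II G K j a b x| ≤ Δ) (h1 : 2 * Δ ≤ 1) :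
    Gp G K (k + 1) j a b (4 * Δ) := by
  intro c
  set e : V → ℝ := fun x => 2 * |IW G K k j a b x - II G K j a b x| with he
  have hsum : ∑ x ∈ (nb G a b).erase c, e x ≤ 2 * Δ := by
    calc ∑ x ∈ (nb G a b).erase c, e x ≤ ∑ x ∈ nb G a b, e x :=
          sum_le_sum_of_subset_of_nonneg (erase_subset _ _) fun x _ _ => by positivity
      _ = 2 * ∑ x ∈ nb G a b, |IW G K k j a b x - II G K j a b x| := by rw [mul_sum]
      _ ≤ 2 * Δ := by linarith
  have hsum0 : 0 ≤ ∑ x ∈ (nb G a b).erase c, e x := sum_nonneg fun x _ => by positivity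
  have hW : W G K (k + 1) j a b c = ∏ x ∈ (nb G a b).erase c, (1 - IW G K k j a b x) := rfl
  have hf := pi_eq (G := G) hj a b c
  have hf0 := pi_nonneg (G := G) hj a b c
  have ha : ∀ x ∈ (nb G a b).erase c, 0 ≤ 1 - IW G K k j a b x := fun x _ => by
    have := (Wavg_mem (G := G) k hj a b x).2
    unfold IW; linarith
  have hlow := prod_low ((nb G a b).erase c) (fun x => 1 - IW G K k j a b x)
    (fun x => 1 - II G K j a b x) e ha
    (fun x _ => by linarith [(II_mem (G := G) hj a b x).2]) (fun x _ => by positivity)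
    (fun x hx => by
      have h2 := hII x (mem_of_mem_erase hx)
      have h3 := le_abs_self (IW G K k j a b x - II G K j a b x)
      have h4 := abs_nonneg (IW G K k j a b x - II G K j a b x)
      simp only [he]
      nlinarith)
  have hup := prod_up ((nb G a b).erase c) (fun x => 1 - IW G K k j a b x)
    (fun x => 1 - II G K j a b x) e ha
    (fun x hx => by
      have h2 := hII x (mem_of_mem_erase hx)
      have h3 := neg_abs_le (IW G K k j a b x - II G K j a b x)
      have h4 := abs_nonneg (IW G K k j a b x - II G K j a b x)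
      have h5 := add_one_le_exp (e x)
      have h6 : (1 - II G K j a b x) * (e x + 1) ≤ (1 - II G K j a b x) * exp (e x) :=
        mul_le_mul_of_nonneg_left h5 (by linarith)
      refine le_trans ?_ h6
      simp only [he]
      nlinarith)
  rw [← hf, ← hW] at hlow hup
  set S := ∑ x ∈ (nb G a b).erase c, e x
  have hexp : exp S ≤ 1 + 2 * S := by
    have := abs_exp_sub_one_le (x := S) (by rw [abs_of_nonneg hsum0]; linarith)
    rw [abs_of_nonneg hsum0] at this
    linarith [(abs_le.1 this).2]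
  rw [abs_le]
  constructor
  · nlinarith [mul_le_mul_of_nonneg_left hsum hf0]
  · nlinarith [mul_le_mul_of_nonneg_left hsum hf0, mul_le_mul_of_nonneg_left hexp hf0]

theorem term_good {w w' f f' φ φ' ψ p : ℝ} (hf : 0 ≤ f) (hf' : 0 ≤ f') (h3 : f ≤ 3 * p)
    (h3' : f' ≤ 3 * p) (h0 : 0 ≤ φ) (h0' : 0 ≤ φ') (h1 : φ ≤ 1) (hψ : φ ≤ ψ) (hψ' : φ' ≤ ψ)
    (h : |w - f| ≤ φ * f) (h' : |w' - f'| ≤ φ' * f') : |w * w' - f * f'| ≤ 27 * ψ * p ^ 2 := by
  have e : w * w' - f * f' = (w - f) * f' + f * (w' - f') + (w - f) * (w' - f') := by ring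
  have hψ0 : 0 ≤ ψ := h0.trans hψ
  have a1 : |(w - f) * f'| ≤ ψ * (f * f') := by
    rw [abs_mul, abs_of_nonneg hf']
    calc |w - f| * f' ≤ φ * f * f' := by gcongr
      _ ≤ ψ * f * f' := by gcongr
      _ = _ := by ring
  have a2 : |f * (w' - f')| ≤ ψ * (f * f') := by
    rw [abs_mul, abs_of_nonneg hf]
    calc f * |w' - f'| ≤ f * (φ' * f') := by gcongr
      _ ≤ f * (ψ * f') := by gcongr
      _ = _ := by ring
  have a3 : |(w - f) * (w' - f')| ≤ ψ * (f * f') := by
    rw [abs_mul]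
    calc |w - f| * |w' - f'| ≤ (φ * f) * (φ' * f') := by gcongr
      _ ≤ (1 * f) * (ψ * f') := by gcongr
      _ = _ := by ring
  have a4 : f * f' ≤ 9 * p ^ 2 := by
    calc f * f' ≤ (3 * p) * (3 * p) := mul_le_mul h3 h3' hf' (hf.trans h3)
      _ = _ := by ring
  have a5 : ψ * (f * f') ≤ ψ * (9 * p ^ 2) := by gcongr
  rw [e]
  linarith [abs_add_three ((w - f) * f') (f * (w' - f')) ((w - f) * (w' - f'))]

/-- indicator of a set of darts -/
noncomputable def ind (S : Finset (V × V)) (u v : V) : ℝ := if (u, v) ∈ S then 1 else 0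

omit [Fintype V] in
theorem ind_nonneg (S : Finset (V × V)) (u v : V) : 0 ≤ ind S u v := by
  unfold ind; split_ifs <;> norm_num

theorem delta_le (H : Hyp G D Λ K) {k j : ℕ} (hj : j ≤ K) {ψ : ℕ → ℝ} (hψ : ∀ i < j, 0 ≤ ψ i)
    {bd : ℕ → Finset (V × V)} {M : ℝ}
    (h : ∀ i < j, ∀ u v, G.Adj u v → (u, v) ∉ bd i → (∀ c, fx G K i u v c ≤ 3 * pp D K i) ∧
      ∃ φ, 0 ≤ φ ∧ φ ≤ 1 ∧ φ ≤ ψ i ∧ Gp G K k i u v φ)
    (hM : ∀ i < j, (bd i).Nonempty → ∀ u v c, G.Adj u v → W G K k i u v c ≤ M ∧ fx G K i u v c ≤ M)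
    {a b : V} (hab : G.Adj a b) :
    ∑ x ∈ nb G a b, |IW G K k j a b x - II G K j a b x| ≤
      54 * ∑ i ∈ range j, yy D K i * ψ i + (∑ i ∈ range j, M ^ 2 * B G (ind (bd i)) a b) / K := by
  have hK := H.K_pos'
  have hterm : ∀ i < j, ∀ x ∈ nb G a b,
      |W G K k i a x b * W G K k i b x a - fx G K i a x b * fx G K i b x a| ≤
        27 * ψ i * pp D K i ^ 2 + M ^ 2 * (ind (bd i) a x + ind (bd i) b x) := by
    intro i hi x hx
    have hiK : i ≤ K := by omega
    have hax := (mem_nb.1 hx).1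
    have hbx := (mem_nb.1 hx).2
    have n1 := ind_nonneg (bd i) a x
    have n2 := ind_nonneg (bd i) b x
    have n3 : 0 ≤ 27 * ψ i * pp D K i ^ 2 := by have := hψ i hi; positivity
    by_cases hb : (a, x) ∈ bd i ∨ (b, x) ∈ bd i
    · have hne : (bd i).Nonempty := by rcases hb with hb | hb <;> exact ⟨_, hb⟩
      obtain ⟨m1, m2⟩ := hM i hi hne a x b hax
      obtain ⟨m3, m4⟩ := hM i hi hne b x a hbx
      have w1 := W_nonneg (G := G) k hiK a x b
      have w2 := W_nonneg (G := G) k hiK b x a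
      have f1 := pi_nonneg (G := G) hiK a x b
      have f2 := pi_nonneg (G := G) hiK b x a
      have q1 : W G K k i a x b * W G K k i b x a ≤ M ^ 2 := by
        rw [sq]; exact mul_le_mul m1 m3 w2 (w1.trans m1)
      have q2 : fx G K i a x b * fx G K i b x a ≤ M ^ 2 := by
        rw [sq]; exact mul_le_mul m2 m4 f2 (f1.trans m2)
      have q3 : 1 ≤ ind (bd i) a x + ind (bd i) b x := by
        rcases hb with hb | hb
        · have : ind (bd i) a x = 1 := if_pos hb
          linarith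
        · have : ind (bd i) b x = 1 := if_pos hb
          linarith
      have q4 : M ^ 2 * 1 ≤ M ^ 2 * (ind (bd i) a x + ind (bd i) b x) := by gcongr
      rw [abs_le]
      constructor <;> nlinarith [mul_nonneg w1 w2, mul_nonneg f1 f2]
    · rw [not_or] at hb
      obtain ⟨p1, φ, a0, a1, a2, a3⟩ := h i hi a x hax hb.1
      obtain ⟨p2, φ', b0, -, b2, b3⟩ := h i hi b x hbx hb.2
      have := term_good (pi_nonneg hiK a x b) (pi_nonneg hiK b x a) (p1 b) (p2 a) a0 b0 a1 a2 b2
        (a3 b) (b3 a)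
      have q4 : 0 ≤ M ^ 2 * (ind (bd i) a x + ind (bd i) b x) := by positivity
      linarith
  have hY := H.Y_le hab
  calc ∑ x ∈ nb G a b, |IW G K k j a b x - II G K j a b x|
      ≤ ∑ x ∈ nb G a b, (∑ i ∈ range j,
          (27 * ψ i * pp D K i ^ 2 + M ^ 2 * (ind (bd i) a x + ind (bd i) b x))) / (K : ℝ) := by
        refine sum_le_sum fun x hx => ?_
        rw [IW, II, ← sub_div, abs_div, abs_of_pos hK, ← sum_sub_distrib]
        refine div_le_div_of_nonneg_right ?_ hK.le
        exact (abs_sum_le_sum_abs _ _).trans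
          (sum_le_sum fun i hi => hterm i (mem_range.1 hi) x hx)
    _ = (∑ i ∈ range j, (Y G a b * (27 * ψ i * pp D K i ^ 2) +
          M ^ 2 * B G (ind (bd i)) a b)) / K := by
        rw [← sum_div, sum_comm]
        congr 1
        refine sum_congr rfl fun i _ => ?_
        rw [sum_add_distrib, sum_const, nsmul_eq_mul, ← mul_sum]
        rfl
    _ ≤ (∑ i ∈ range j, (2 * D * (27 * ψ i * pp D K i ^ 2) +
          M ^ 2 * B G (ind (bd i)) a b)) / K := by
        refine div_le_div_of_nonneg_right (sum_le_sum fun i hi => ?_) hK.le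
        have := hψ i (mem_range.1 hi)
        gcongr
    _ = _ := by
        rw [sum_add_distrib, add_div, mul_sum, sum_div]
        congr 1
        refine sum_congr rfl fun i _ => ?_
        rw [yy]; ring

theorem sum_darts_nb (g : V → V → V → ℝ) :
    ∑ d ∈ darts G, ∑ x ∈ nb G d.1 d.2, g d.1 d.2 x =
      ∑ a, ∑ b, ∑ x, if G.Adj a b ∧ G.Adj a x ∧ G.Adj b x then g a b x else 0 := by
  rw [darts, sum_filter, Fintype.sum_prod_type]
  refine sum_congr rfl fun a _ => sum_congr rfl fun b _ => ?_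
  by_cases hab : G.Adj a b
  · simp only [hab, true_and, if_true, nb, sum_filter]
  · simp [hab]

theorem sum_B_ind (H : Hyp G D Λ K) (S : Finset (V × V)) :
    ∑ d ∈ darts G, B G (ind S) d.1 d.2 ≤ 4 * D * S.card := by
  have key : ∑ d ∈ darts G, ∑ _x ∈ nb G d.1 d.2, ind S d.1 d.2 ≤ 2 * D * S.card := by
    calc ∑ d ∈ darts G, ∑ _x ∈ nb G d.1 d.2, ind S d.1 d.2
        ≤ ∑ d ∈ darts G, 2 * D * ind S d.1 d.2 := by
          refine sum_le_sum fun d hd => ?_
          rw [sum_const, nsmul_eq_mul]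
          exact mul_le_mul_of_nonneg_right (H.Y_le (mem_darts.1 hd)) (ind_nonneg _ _ _)
      _ ≤ 2 * D * S.card := by
          rw [← mul_sum]
          refine mul_le_mul_of_nonneg_left ?_ (by linarith [H.hD])
          simp only [ind, Prod.mk.eta, sum_boole]
          exact_mod_cast card_le_card fun d hd => (mem_filter.1 hd).2
  have e1 : ∑ d ∈ darts G, ∑ x ∈ nb G d.1 d.2, ind S d.1 x =
      ∑ d ∈ darts G, ∑ _x ∈ nb G d.1 d.2, ind S d.1 d.2 := by
    rw [sum_darts_nb (fun a _ x => ind S a x), sum_darts_nb (fun a b _ => ind S a b)]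
    refine sum_congr rfl fun a _ => ?_
    rw [sum_comm]
    refine sum_congr rfl fun x _ => sum_congr rfl fun b _ => ?_
    refine if_congr ?_ rfl rfl
    rw [G.adj_comm b x]; tauto
  have e2 : ∑ d ∈ darts G, ∑ x ∈ nb G d.1 d.2, ind S d.2 x =
      ∑ d ∈ darts G, ∑ x ∈ nb G d.1 d.2, ind S d.1 x := by
    rw [sum_darts_nb (fun _ b x => ind S b x), sum_darts_nb (fun a _ x => ind S a x), sum_comm]
    refine sum_congr rfl fun b _ => sum_congr rfl fun a _ => sum_congr rfl fun x _ => ?_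
    refine if_congr ?_ rfl rfl
    rw [G.adj_comm a b]; tauto
  simp only [B, sum_add_distrib]
  rw [e2, e1]
  linarith

end Vale.Agent.P046.GapAux
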