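import Vale.Agent.P046.GapA

/-! Iteration of the one step estimate over a range of times. -/

namespace Vale.Agent.P046.GapAux

open Finset Real
open scoped Classical

variable {V : Type} [Fintype V]

/-- hypotheses for one phase of the iteration -/
structure Ph (G : SimpleGraph V) (D Λ : ℝ) (K j₀ J m₀ : ℕ) (e₀ ε M b Γ : ℝ)
    (B₀ : ℕ → Finset (V × V)) : Prop where
  hJ : J ≤ K
  he0 : 0 ≤ e₀
  he1 : e₀ ≤ 1
  hε : 0 < ε
  he : 10800 * e₀ * Λ ≤ ε
  hb : 0 ≤ b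
  hΓ1 : 1 ≤ Γ
  hΓ : 800 * D * M ^ 2 ≤ ε * Γ
  hII : ∀ j ≤ K, ∀ u v, G.Adj u v → ∀ x ∈ nb G u v, II G K j u v x ≤ 1 / 2
  h0 : ∀ k, 2 * m₀ + 1 ≤ k → ∀ i < j₀, ∀ u v, G.Adj u v → Gp G K k i u v e₀
  h3 : ∀ i < j₀, ∀ u v c, G.Adj u v → fx G K i u v c ≤ 3 * pp D K i
  hB : ∀ i, j₀ ≤ i → i ≤ J → ∀ u v, G.Adj u v → (u, v) ∉ B₀ i → ∀ c, fx G K i u v c ≤ 3 * pp D K i
  hBc : ∀ i, j₀ ≤ i → i ≤ J → ((B₀ i).card : ℝ) ≤ b
  hM : ∀ k, 2 * m₀ + 1 ≤ k → ∀ i, j₀ ≤ i → i ≤ J → ∀ u v c, G.Adj u v →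
    W G K k i u v c ≤ M ∧ fx G K i u v c ≤ M

/-- growth factor -/
noncomputable def EE (D : ℝ) (K j₀ i : ℕ) : ℝ := exp (1000 * (sg D K i - sg D K j₀))

variable {G : SimpleGraph V} {D Λ : ℝ} {K j₀ J m₀ : ℕ} {e₀ ε M b Γ : ℝ}
  {B₀ : ℕ → Finset (V × V)}

theorem EE_pos (i : ℕ) : 0 < EE D K j₀ i := exp_pos _

theorem EE_mono (H : Hyp G D Λ K) {i j : ℕ} (h : i ≤ j) : EE D K j₀ i ≤ EE D K j₀ j :=
  exp_le_exp.2 (by linarith [H.sg_mono h])

theorem one_le_EE (H : Hyp G D Λ K) {i : ℕ} (h : j₀ ≤ i) : 1 ≤ EE D K j₀ i :=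
  one_le_exp (by linarith [H.sg_mono h])

theorem sum_yy_EE (H : Hyp G D Λ K) (j : ℕ) :
    ∑ i ∈ range j, yy D K i * EE D K j₀ i ≤ EE D K j₀ j / 1000 := by
  have h := H.sum_yy_exp (c := 1000) (by norm_num) j
  have e : ∀ i, EE D K j₀ i = exp (1000 * sg D K i) * exp (-(1000 * sg D K j₀)) := fun i => by
    rw [EE, ← exp_add]; congr 1; ring
  simp only [e, ← mul_assoc]
  rw [← sum_mul, mul_div_right_comm]
  exact mul_le_mul_of_nonneg_right h (exp_pos _).le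

theorem round (H : Hyp G D Λ K) (P : Ph G D Λ K j₀ J m₀ e₀ ε M b Γ B₀) (C : Finset (V × V)) :
    ∃ C' : Finset (V × V), (C'.card : ℝ) ≤ Γ * (C.card + b) ∧
      ∀ k, 2 * m₀ + 1 ≤ k → ∀ j, j₀ ≤ j → j ≤ J → ∀ κ : ℝ, 0 ≤ κ →
        (∀ i, j₀ ≤ i → i < j → ∀ u v, G.Adj u v → (u, v) ∉ C →
          Gp G K k i u v (min (κ * EE D K j₀ i) 1)) →
        ε / 25 + 216 / 1000 * (κ * EE D K j₀ j) ≤ 2 →
        ∀ u v, G.Adj u v → (u, v) ∉ C' →
          Gp G K (k + 1) j u v (ε / 25 + 216 / 1000 * (κ * EE D K j₀ j)) := by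
  have hK := H.K_pos'
  have hD := H.hD
  set bd : ℕ → Finset (V × V) := fun i => if j₀ ≤ i then C ∪ B₀ i else ∅ with hbd
  set X : V × V → ℝ := fun d => (∑ i ∈ range J, M ^ 2 * B G (ind (bd i)) d.1 d.2) / K with hX
  have hBn : ∀ i u v, 0 ≤ M ^ 2 * B G (ind (bd i)) u v := fun i u v =>
    mul_nonneg (sq_nonneg _) (B_nonneg (ind_nonneg _) u v)
  have hXn : ∀ d, 0 ≤ X d := fun d => div_nonneg (sum_nonneg fun i _ => hBn i _ _) hK.le
  refine ⟨(darts G).filter fun d => ε / 200 < X d, ?_, ?_⟩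
  · have h1 : ∑ d ∈ darts G, X d ≤ 4 * D * M ^ 2 * (C.card + b) := by
      simp only [hX]
      rw [← sum_div, sum_comm, div_le_iff₀ hK]
      have h2 : ∀ i ∈ range J, ∑ d ∈ darts G, M ^ 2 * B G (ind (bd i)) d.1 d.2 ≤
          4 * D * M ^ 2 * (C.card + b) := by
        intro i hi
        rw [← mul_sum]
        have h3 := sum_B_ind H (bd i)
        have h4 : ((bd i).card : ℝ) ≤ C.card + b := by
          simp only [hbd]
          split_ifs with h5
          · have h6 := P.hBc i h5 (mem_range.1 hi).le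
            have h7 : ((C ∪ B₀ i).card : ℝ) ≤ C.card + (B₀ i).card := by
              exact_mod_cast card_union_le _ _
            linarith
          · have := P.hb
            simp only [card_empty, Nat.cast_zero]
            positivity
        calc M ^ 2 * ∑ d ∈ darts G, B G (ind (bd i)) d.1 d.2 ≤ M ^ 2 * (4 * D * (bd i).card) := by
              gcongr
          _ ≤ M ^ 2 * (4 * D * (C.card + b)) := by gcongr
          _ = _ := by ring
      refine (sum_le_sum h2).trans ?_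
      rw [sum_const, card_range, nsmul_eq_mul, mul_comm]
      have h8 : (J : ℝ) ≤ K := by exact_mod_cast P.hJ
      have := P.hb
      gcongr
    have h2 : (((darts G).filter fun d => ε / 200 < X d).card : ℝ) * (ε / 200) ≤
        ∑ d ∈ darts G, X d := by
      rw [← nsmul_eq_mul, ← sum_const]
      refine (sum_le_sum fun d hd => (mem_filter.1 hd).2.le).trans ?_
      exact sum_le_sum_of_subset_of_nonneg (filter_subset _ _) fun d _ _ => hXn d
    have h3 : 800 * D * M ^ 2 * (C.card + b) ≤ ε * Γ * (C.card + b) :=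
      mul_le_mul_of_nonneg_right P.hΓ (by have := P.hb; positivity)
    have hε := P.hε
    refine le_of_mul_le_mul_left ?_ hε
    nlinarith
  · intro k hk j hj0 hjJ κ hκ hyp hsm u v huv hC
    have hjK : j ≤ K := hjJ.trans P.hJ
    have hXle : X (u, v) ≤ ε / 200 := by
      by_contra hlt
      exact hC (mem_filter.2 ⟨mem_darts.2 huv, not_le.1 hlt⟩)
    have hd := delta_le H (k := k) hjK (ψ := fun i => e₀ + κ * EE D K j₀ i)
      (fun i _ => add_nonneg P.he0 (mul_nonneg hκ (EE_pos i).le)) (bd := bd) (M := M)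
      (fun i hi u' v' huv' hn => by
        have hE : 0 ≤ κ * EE D K j₀ i := mul_nonneg hκ (EE_pos i).le
        by_cases h5 : j₀ ≤ i
        · simp only [hbd, if_pos h5, mem_union, not_or] at hn
          refine ⟨P.hB i h5 (by omega) u' v' huv' hn.2, min (κ * EE D K j₀ i) 1,
            le_min hE zero_le_one, min_le_right _ _, ?_, hyp i h5 hi u' v' huv' hn.1⟩
          linarith [min_le_left (κ * EE D K j₀ i) 1, P.he0]
        · exact ⟨fun c => P.h3 i (not_le.1 h5) u' v' c huv', e₀, P.he0, P.he1, by linarith,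
            P.h0 k hk i (not_le.1 h5) u' v' huv'⟩)
      (fun i hi hne u' v' c huv' => by
        have h5 : j₀ ≤ i := by
          by_contra h5
          simp [hbd, h5] at hne
        exact P.hM k hk i h5 (by omega) u' v' c huv') huv
    have h6 : (∑ i ∈ range j, M ^ 2 * B G (ind (bd i)) u v) / K ≤ X (u, v) :=
      div_le_div_of_nonneg_right (sum_le_sum_of_subset_of_nonneg (range_subset_range.2 hjJ)
        fun i _ _ => hBn i u v) hK.le
    have h7 : ∑ i ∈ range j, yy D K i * (e₀ + κ * EE D K j₀ i) ≤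
        e₀ * Λ + κ * EE D K j₀ j / 1000 := by
      have e : ∑ i ∈ range j, yy D K i * (e₀ + κ * EE D K j₀ i) =
          e₀ * ∑ i ∈ range j, yy D K i + κ * ∑ i ∈ range j, yy D K i * EE D K j₀ i := by
        rw [mul_sum, mul_sum, ← sum_add_distrib]
        exact sum_congr rfl fun i _ => by ring
      rw [e, sum_yy, mul_div_assoc]
      have h8 := H.sg_le hjK
      have h9 := sum_yy_EE (j₀ := j₀) H j
      have := P.he0
      gcongr
    have he := P.he
    have hfin := one_step (k := k) hjK (Δ := ε / 100 + 54 / 1000 * (κ * EE D K j₀ j))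
      (P.hII j hjK u v huv) (by linarith) (by linarith)
    exact hfin.mono hjK (le_of_eq (by ring))

theorem phase (H : Hyp G D Λ K) (P : Ph G D Λ K j₀ J m₀ e₀ ε M b Γ B₀) (m : ℕ) :
    (∃ C : Finset (V × V), (C.card : ℝ) ≤ b * (2 * Γ) ^ (2 * m) ∧
      ∀ i, j₀ ≤ i → i ≤ J → ∀ u v, G.Adj u v → (u, v) ∉ C →
        Gp G K (2 * (m₀ + m) + 1) i u v ((exp (-(m : ℝ)) + ε) * EE D K j₀ i)) ∧
    (∃ C : Finset (V × V), (C.card : ℝ) ≤ b * (2 * Γ) ^ (2 * m + 1) ∧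
      ∀ i, j₀ ≤ i → i ≤ J → (exp (-(m : ℝ)) + ε) * EE D K j₀ i ≤ 3 →
        ∀ u v, G.Adj u v → (u, v) ∉ C →
        Gp G K (2 * (m₀ + m) + 2) i u v ((exp (-(m : ℝ)) + ε) * EE D K j₀ i / 3)) := by
  have hε := P.hε
  have hb := P.hb
  have hΓ := P.hΓ1
  have hcard : ∀ (n : ℕ) (C C' : Finset (V × V)), (C.card : ℝ) ≤ b * (2 * Γ) ^ n →
      (C'.card : ℝ) ≤ Γ * (C.card + b) → (C'.card : ℝ) ≤ b * (2 * Γ) ^ (n + 1) := by
    intro n C C' h1 h2
    have h3 : 1 ≤ (2 * Γ) ^ n := one_le_pow₀ (by linarith)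
    have h4 : b ≤ b * (2 * Γ) ^ n := le_mul_of_one_le_right hb h3
    calc (C'.card : ℝ) ≤ Γ * (C.card + b) := h2
      _ ≤ Γ * (b * (2 * Γ) ^ n + b * (2 * Γ) ^ n) := by gcongr
      _ = _ := by ring
  have hεE : ∀ (m : ℕ) (i : ℕ), j₀ ≤ i → ε ≤ (exp (-(m : ℝ)) + ε) * EE D K j₀ i := by
    intro m i hi
    have h1 := one_le_EE (j₀ := j₀) H hi
    have h2 := exp_pos (-(m : ℝ))
    nlinarith
  have up : ∀ m : ℕ, (∃ C : Finset (V × V), (C.card : ℝ) ≤ b * (2 * Γ) ^ (2 * m) ∧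
      ∀ i, j₀ ≤ i → i ≤ J → ∀ u v, G.Adj u v → (u, v) ∉ C →
        Gp G K (2 * (m₀ + m) + 1) i u v ((exp (-(m : ℝ)) + ε) * EE D K j₀ i)) →
      ∃ C : Finset (V × V), (C.card : ℝ) ≤ b * (2 * Γ) ^ (2 * m + 1) ∧
      ∀ i, j₀ ≤ i → i ≤ J → (exp (-(m : ℝ)) + ε) * EE D K j₀ i ≤ 3 →
        ∀ u v, G.Adj u v → (u, v) ∉ C →
        Gp G K (2 * (m₀ + m) + 2) i u v ((exp (-(m : ℝ)) + ε) * EE D K j₀ i / 3) := by
    rintro m ⟨C, hC, hG⟩
    obtain ⟨C', hC', hR⟩ := round H P C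
    refine ⟨C', hcard _ C C' hC hC', fun j hj0 hjJ h3 u v huv hn => ?_⟩
    have h4 := hεE m j hj0
    have := hR (2 * (m₀ + m) + 1) (by omega) j hj0 hjJ (exp (-(m : ℝ)) + ε) (by positivity)
      (fun i hi0 hij u' v' huv' hn' => by
        rcases le_total ((exp (-(m : ℝ)) + ε) * EE D K j₀ i) 1 with h | h
        · rw [min_eq_left h]; exact hG i hi0 (by omega) u' v' huv' hn'
        · rw [min_eq_right h]; exact Gp_odd _ (by have := P.hJ; omega) u' v')
      (by linarith) u v huv hn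
    exact this.mono (hjJ.trans P.hJ) (by linarith)
  suffices h : ∃ C : Finset (V × V), (C.card : ℝ) ≤ b * (2 * Γ) ^ (2 * m) ∧
      ∀ i, j₀ ≤ i → i ≤ J → ∀ u v, G.Adj u v → (u, v) ∉ C →
        Gp G K (2 * (m₀ + m) + 1) i u v ((exp (-(m : ℝ)) + ε) * EE D K j₀ i) from ⟨h, up m h⟩
  induction m with
  | zero =>
    refine ⟨∅, by simpa using hb, fun i hi0 hiJ u v _ _ => ?_⟩
    refine (Gp_odd _ (hiJ.trans P.hJ) u v).mono (hiJ.trans P.hJ) ?_
    have h1 := one_le_EE (j₀ := j₀) H hi0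
    simp only [Nat.cast_zero, neg_zero, exp_zero]
    nlinarith
  | succ m ih =>
    obtain ⟨C, hC, hG⟩ := up m ih
    obtain ⟨C', hC', hR⟩ := round H P C
    refine ⟨C', hcard _ C C' hC hC', fun j hj0 hjJ u v huv hn => ?_⟩
    have hjK : j ≤ K := hjJ.trans P.hJ
    by_cases h1 : 1 ≤ (exp (-((m + 1 : ℕ) : ℝ)) + ε) * EE D K j₀ j
    · exact (Gp_odd _ hjK u v).mono hjK h1
    · have h2 : exp (-(m : ℝ)) + ε ≤ 3 * (exp (-((m + 1 : ℕ) : ℝ)) + ε) := by
        have h3 : exp (-(m : ℝ)) = exp 1 * exp (-((m + 1 : ℕ) : ℝ)) := by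
          rw [← exp_add]; congr 1; push_cast; ring
        have h4 := exp_one_lt_d9
        have h5 := exp_pos (-((m + 1 : ℕ) : ℝ))
        nlinarith
      have hE := EE_pos (D := D) (K := K) (j₀ := j₀) j
      have h3 : (exp (-(m : ℝ)) + ε) * EE D K j₀ j ≤
          3 * ((exp (-((m + 1 : ℕ) : ℝ)) + ε) * EE D K j₀ j) := by
        rw [← mul_assoc]; gcongr
      have h4 := hεE (m + 1) j hj0
      have hκ : 0 ≤ exp (-(m : ℝ)) + ε := by positivity
      have := hR (2 * (m₀ + m) + 2) (by omega) j hj0 hjJ ((exp (-(m : ℝ)) + ε) / 3) (by positivity)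
        (fun i hi0 hij u' v' huv' hn' => by
          have h5 : (exp (-(m : ℝ)) + ε) * EE D K j₀ i ≤ (exp (-(m : ℝ)) + ε) * EE D K j₀ j :=
            mul_le_mul_of_nonneg_left (EE_mono H hij.le) hκ
          rw [div_mul_eq_mul_div, min_eq_left (by linarith)]
          exact hG i hi0 (by omega) (by linarith) u' v' huv' hn')
        (by rw [div_mul_eq_mul_div]; linarith) u v huv hn
      refine Gp.mono hjK (ψ := _) this ?_
      rw [div_mul_eq_mul_div]; linarith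

end Vale.Agent.P046.GapAux
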