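import Vale.Agent.P046.Basic

/-! The lazy chain killed outside good sets, and a Freedman type inequality. -/

namespace Vale.Agent.P046

open Finset Real
open scoped Classical

noncomputable section

variable {V : Type} [Fintype V]

theorem gen_add (f g : SimpleGraph V → ℝ) (G : SimpleGraph V) :
    gen (fun H => f H + g H) G = gen f G + gen g G := by
  simp only [gen, ← sum_add_distrib]; exact sum_congr rfl fun _ _ => by ring

theorem gen_sub (f g : SimpleGraph V → ℝ) (G : SimpleGraph V) :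
    gen (fun H => f H - g H) G = gen f G - gen g G := by
  simp only [gen, ← sum_sub_distrib]; exact sum_congr rfl fun _ _ => by ring

theorem gen_mul (c : ℝ) (f : SimpleGraph V → ℝ) (G : SimpleGraph V) :
    gen (fun H => c * f H) G = c * gen f G := by
  simp only [gen, mul_sum]; exact sum_congr rfl fun _ _ => by ring

theorem gen_neg (f : SimpleGraph V → ℝ) (G : SimpleGraph V) :
    gen (fun H => -f H) G = -gen f G := by
  simp only [gen, ← sum_neg_distrib]; exact sum_congr rfl fun _ _ => by ring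

/-- one step of the lazy chain -/
def Pop (h : ℝ) : (SimpleGraph V → ℝ) →ₗ[ℝ] (SimpleGraph V → ℝ) where
  toFun f G := f G + h * gen f G
  map_add' f g := funext fun G => by
    have := gen_add f g G
    simp only [Pi.add_apply]
    change _ + h * gen (fun H => f H + g H) G = _
    rw [this]; ring
  map_smul' c f := funext fun G => by
    have := gen_mul c f G
    simp only [Pi.smul_apply, smul_eq_mul, RingHom.id_apply]
    change _ + h * gen (fun H => c * f H) G = _
    rw [this]; ring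

/-- restriction to a good set -/
def cut (Γ : SimpleGraph V → Prop) : (SimpleGraph V → ℝ) →ₗ[ℝ] (SimpleGraph V → ℝ) where
  toFun f G := if Γ G then f G else 0
  map_add' f g := funext fun G => by by_cases h : Γ G <;> simp [h]
  map_smul' c f := funext fun G => by by_cases h : Γ G <;> simp [h]

/-- expectation along the chain killed when it leaves the good sets -/
def Lam (h : ℝ) (Γ : ℕ → SimpleGraph V → Prop) (G0 : SimpleGraph V) :
    ℕ → (SimpleGraph V → ℝ) →ₗ[ℝ] ℝ
  | 0 => LinearMap.proj G0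
  | i + 1 => Lam h Γ G0 i ∘ₗ cut (Γ i) ∘ₗ Pop h

theorem Pop_apply (h : ℝ) (f : SimpleGraph V → ℝ) (G : SimpleGraph V) :
    Pop h f G = f G + h * gen f G := rfl

theorem cut_apply (Γ : SimpleGraph V → Prop) (f : SimpleGraph V → ℝ) (G : SimpleGraph V) :
    cut Γ f G = if Γ G then f G else 0 := rfl

variable {h : ℝ} {Γ : ℕ → SimpleGraph V → Prop} {G0 : SimpleGraph V}

theorem Lam_succ (i : ℕ) (f : SimpleGraph V → ℝ) :
    Lam h Γ G0 (i + 1) f = Lam h Γ G0 i (cut (Γ i) (Pop h f)) := rfl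

theorem cut_mono (Γ : SimpleGraph V → Prop) : Monotone (cut Γ) := fun f g hfg G => by
  simp only [cut_apply]; split_ifs
  · exact hfg G
  · exact le_rfl

section

variable (h0 : 0 ≤ h) (h1 : h * (Fintype.card V : ℝ) ^ 3 ≤ 1)
include h0 h1

theorem Pop_mono : Monotone (Pop (V := V) h) := fun f g hfg G => by
  have hc : h * (tri G).card ≤ 1 :=
    (mul_le_mul_of_nonneg_left (by exact_mod_cast card_tri_le G) h0).trans h1
  have e : ∀ f : SimpleGraph V → ℝ,
      Pop h f G = (1 - h * (tri G).card) * f G + h * ∑ T ∈ tri G, f (rem G T) := by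
    intro f
    rw [Pop_apply, gen, sum_sub_distrib, sum_const, nsmul_eq_mul]; ring
  rw [e, e]
  exact add_le_add (mul_le_mul_of_nonneg_left (hfg G) (by linarith))
    (mul_le_mul_of_nonneg_left (sum_le_sum fun T _ => hfg _) h0)

theorem Lam_mono (i : ℕ) : Monotone (Lam h Γ G0 i) := by
  induction i with
  | zero => exact fun f g hfg => hfg G0
  | succ i ih => exact fun f g hfg => ih (cut_mono _ (Pop_mono h0 h1 hfg))

theorem Lam_super (φ : ℕ → SimpleGraph V → ℝ) (j : ℕ) (hφ : ∀ i G, 0 ≤ φ i G)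
    (hs : ∀ i < j, ∀ G, Γ i G → Pop h (φ (i + 1)) G ≤ φ i G) :
    Lam h Γ G0 j (φ j) ≤ φ 0 G0 := by
  induction j with
  | zero => exact le_rfl
  | succ j ih =>
    refine le_trans ?_ (ih fun i hi => hs i (by omega))
    rw [Lam_succ]
    refine Lam_mono h0 h1 j fun G => ?_
    rw [cut_apply]
    split_ifs with hG
    · exact hs j (by omega) G hG
    · exact hφ j G

theorem Lam_const_le (j : ℕ) {c : ℝ} (hc : 0 ≤ c) : Lam h Γ G0 j (fun _ => c) ≤ c :=
  Lam_super h0 h1 (fun _ _ => c) j (fun _ _ => hc) fun _ _ G _ => by simp [Pop_apply, gen]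

theorem harm_le {Φ : SimpleGraph V → ℝ} (hΦ : ∀ G, gen Φ G = 0) {M δ : ℝ} (hM0 : 0 ≤ M)
    (hM : ∀ G, Φ G ≤ M) (j : ℕ)
    (hδ : ∀ i ≤ j, Lam h Γ G0 i (fun G => if Γ i G then 0 else 1) ≤ δ) :
    Φ G0 ≤ Lam h Γ G0 j (cut (Γ j) Φ) + M * (j + 1) * δ := by
  have hP : Pop h Φ = Φ := funext fun G => by rw [Pop_apply, hΦ]; ring
  have key : ∀ i ≤ j, Lam h Γ G0 i Φ ≤ Lam h Γ G0 i (cut (Γ i) Φ) + M * δ := by
    intro i hi
    have : Φ ≤ cut (Γ i) Φ + M • fun G => if Γ i G then (0 : ℝ) else 1 := fun G => by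
      simp only [Pi.add_apply, Pi.smul_apply, cut_apply, smul_eq_mul]
      split_ifs
      · simp
      · simpa using hM G
    have := Lam_mono (Γ := Γ) (G0 := G0) h0 h1 i this
    rw [map_add, map_smul, smul_eq_mul] at this
    nlinarith [hδ i hi]
  have key2 : ∀ i ≤ j, Φ G0 ≤ Lam h Γ G0 i Φ + M * i * δ := by
    intro i
    induction i with
    | zero => intro _; simp [Lam]
    | succ i ih =>
      intro hi
      have := key i (by omega)
      have := ih (by omega)
      rw [Lam_succ, hP]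
      push_cast; linarith
  have := key j le_rfl
  have := key2 j le_rfl
  linarith

theorem freedman (Z : ℕ → SimpleGraph V → ℝ) (d v : ℕ → ℝ) (j : ℕ) {c lam L : ℝ} (hL : 0 < L)
    (hlam : 0 < lam) (hc : L * c ≤ lam) (hv : L * ∑ i ∈ range j, v i ≤ lam ^ 2)
    (hd : ∀ i < j, ∀ G, Γ i G → Z (i + 1) G + h * gen (Z (i + 1)) G - Z i G ≤ d i)
    (hinc : ∀ i < j, ∀ G, Γ i G → ∀ T ∈ tri G, |Z (i + 1) (rem G T) - Z (i + 1) G| ≤ c)
    (hvar : ∀ i < j, ∀ G, Γ i G →
      h * ∑ T ∈ tri G, (Z (i + 1) (rem G T) - Z (i + 1) G) ^ 2 ≤ v i) :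
    Lam h Γ G0 j (fun G => if Z 0 G0 + ∑ i ∈ range j, d i + 2 * lam < Z j G then 1 else 0) ≤
      exp (-L) := by
  set θ := L / lam with hθ
  have hθ0 : 0 < θ := div_pos hL hlam
  have hθc : θ * c ≤ 1 := by rw [hθ, div_mul_eq_mul_div, div_le_one hlam]; exact hc
  let φ : ℕ → SimpleGraph V → ℝ := fun i G =>
    exp (θ * (Z i G - Z 0 G0 - ∑ k ∈ range i, d k) - θ ^ 2 * ∑ k ∈ range i, v k)
  have key : Lam h Γ G0 j (φ j) ≤ 1 := by
    refine (Lam_super h0 h1 φ j (fun _ _ => (exp_pos _).le) fun i hi G hG => ?_).trans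
      (by simp [φ])
    have e1 : ∀ T ∈ tri G, φ (i + 1) (rem G T) - φ (i + 1) G ≤ φ (i + 1) G *
        (θ * (Z (i + 1) (rem G T) - Z (i + 1) G) +
          θ ^ 2 * (Z (i + 1) (rem G T) - Z (i + 1) G) ^ 2) := by
      intro T hT
      set Δ := Z (i + 1) (rem G T) - Z (i + 1) G with hΔ
      have e2 : φ (i + 1) (rem G T) = φ (i + 1) G * exp (θ * Δ) := by
        simp only [φ]; rw [← exp_add]; congr 1; rw [hΔ]; ring
      have e3 := abs_exp_sub_one_sub_id_le (x := θ * Δ) (by
        rw [abs_mul, abs_of_pos hθ0]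
        exact (mul_le_mul_of_nonneg_left (hinc i hi G hG T hT) hθ0.le).trans hθc)
      have e4 : 0 < φ (i + 1) G := exp_pos _
      rw [e2]
      nlinarith [(abs_le.1 e3).2]
    have e5 : Pop h (φ (i + 1)) G ≤ φ (i + 1) G * (1 + (θ * (h * gen (Z (i + 1)) G) +
        θ ^ 2 * (h * ∑ T ∈ tri G, (Z (i + 1) (rem G T) - Z (i + 1) G) ^ 2))) := by
      rw [Pop_apply]
      have := mul_le_mul_of_nonneg_left (sum_le_sum e1) h0
      rw [← mul_sum, sum_add_distrib, ← mul_sum, ← mul_sum] at this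
      simp only [gen]
      linarith
    refine e5.trans ?_
    refine (mul_le_mul_of_nonneg_left ((add_comm _ _).trans_le (add_one_le_exp _))
      (exp_pos _).le).trans ?_
    simp only [φ]
    rw [← exp_add, exp_le_exp, sum_range_succ, sum_range_succ]
    have a1 := mul_le_mul_of_nonneg_left (hd i hi G hG) hθ0.le
    have a2 := mul_le_mul_of_nonneg_left (hvar i hi G hG) (sq_nonneg θ)
    linarith
  have h3 : (fun G => if Z 0 G0 + ∑ i ∈ range j, d i + 2 * lam < Z j G then (1 : ℝ) else 0) ≤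
      exp (-L) • φ j := fun G => by
    simp only [Pi.smul_apply, smul_eq_mul, φ]
    rw [← exp_add]
    split_ifs with hG
    · refine one_le_exp ?_
      have a1 : θ * lam = L := by rw [hθ]; field_simp
      have a2 : θ ^ 2 * ∑ k ∈ range j, v k ≤ L := by
        rw [hθ, div_pow, div_mul_eq_mul_div, div_le_iff₀ (by positivity)]
        nlinarith
      nlinarith
    · exact (exp_pos _).le
  have := Lam_mono (Γ := Γ) (G0 := G0) h0 h1 j h3
  rw [map_smul, smul_eq_mul] at this
  nlinarith [exp_pos (-L)]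

theorem freedman2 (Z : ℕ → SimpleGraph V → ℝ) (d v : ℕ → ℝ) (j : ℕ) {c lam L m Bd : ℝ}
    (hL : 0 < L) (hlam : 0 < lam) (hc : L * c ≤ lam) (hv : L * ∑ i ∈ range j, v i ≤ lam ^ 2)
    (hB : |Z 0 G0 - m| + ∑ i ∈ range j, d i + 2 * lam ≤ Bd)
    (hd : ∀ i < j, ∀ G, Γ i G → |Z (i + 1) G + h * gen (Z (i + 1)) G - Z i G| ≤ d i)
    (hinc : ∀ i < j, ∀ G, Γ i G → ∀ T ∈ tri G, |Z (i + 1) (rem G T) - Z (i + 1) G| ≤ c)
    (hvar : ∀ i < j, ∀ G, Γ i G →
      h * ∑ T ∈ tri G, (Z (i + 1) (rem G T) - Z (i + 1) G) ^ 2 ≤ v i) :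
    Lam h Γ G0 j (fun G => if |Z j G - m| ≤ Bd then 0 else 1) ≤ 2 * exp (-L) := by
  have a1 := freedman (Γ := Γ) (G0 := G0) h0 h1 Z d v j hL hlam hc hv
    (fun i hi G hG => (le_abs_self _).trans (hd i hi G hG)) hinc hvar
  have a2 := freedman (Γ := Γ) (G0 := G0) h0 h1 (fun i G => -Z i G) d v j hL hlam hc hv
    (fun i hi G hG => by
      have := (abs_le.1 (hd i hi G hG)).1
      rw [gen_neg]; linarith)
    (fun i hi G hG T hT => by
      have := hinc i hi G hG T hT
      rw [← abs_neg] at this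
      convert this using 2; ring)
    (fun i hi G hG => by
      have := hvar i hi G hG
      convert this using 3 with T; ring)
  have h3 : (fun G => if |Z j G - m| ≤ Bd then (0 : ℝ) else 1) ≤
      (fun G => if Z 0 G0 + ∑ i ∈ range j, d i + 2 * lam < Z j G then (1 : ℝ) else 0) +
      fun G => if -Z 0 G0 + ∑ i ∈ range j, d i + 2 * lam < -Z j G then (1 : ℝ) else 0 := by
    intro G
    simp only [Pi.add_apply]
    have b1 := le_abs_self (Z 0 G0 - m)
    have b2 := neg_abs_le (Z 0 G0 - m)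
    split_ifs with c1 c2 c3 c4 c5 c6 c7 <;> try norm_num
    exact c1 (abs_le.2 ⟨by linarith, by linarith⟩)
  have := Lam_mono (Γ := Γ) (G0 := G0) h0 h1 j h3
  rw [map_add] at this
  linarith

end

end

end Vale.Agent.P046
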