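import Vale.Agent.P046.Ph1B

/-! The dense phase. -/

namespace Vale.Agent.P046

open Finset Real
open scoped Classical

noncomputable section

variable {V : Type} [Fintype V]

/-- the time scale -/
def ss (s₀ h : ℝ) : ℕ → ℝ
  | 0 => s₀
  | i + 1 => ss s₀ h i * (1 + h / ss s₀ h i ^ 2)

/-- relative increment -/
def xs (s₀ h : ℝ) (i : ℕ) : ℝ := h / ss s₀ h i ^ 2

/-- discrete logarithm of the time scale -/
def ell (s₀ h : ℝ) (j : ℕ) : ℝ := ∑ i ∈ range j, xs s₀ h i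

section seq

variable {s₀ h : ℝ}

theorem ss_succ (i : ℕ) : ss s₀ h (i + 1) = ss s₀ h i * (1 + xs s₀ h i) := rfl

theorem xs_nonneg (hh : 0 ≤ h) (i : ℕ) : 0 ≤ xs s₀ h i := div_nonneg hh (sq_nonneg _)

theorem ell_succ (i : ℕ) : ell s₀ h (i + 1) = ell s₀ h i + xs s₀ h i := sum_range_succ _ _

theorem ell_nonneg (hh : 0 ≤ h) (i : ℕ) : 0 ≤ ell s₀ h i := sum_nonneg fun _ _ => xs_nonneg hh _

variable (h0 : 0 < s₀) (hh : 0 ≤ h)
include h0 hh

theorem ss_pos (i : ℕ) : 0 < ss s₀ h i := by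
  induction i with
  | zero => exact h0
  | succ i ih => rw [ss_succ]; exact mul_pos ih (by linarith [xs_nonneg (s₀ := s₀) hh i])

theorem ss_mono : Monotone (ss s₀ h) := monotone_nat_of_le_succ fun i => by
  rw [ss_succ]
  exact le_mul_of_one_le_right (ss_pos h0 hh i).le (by linarith [xs_nonneg (s₀ := s₀) hh i])

theorem le_ss (i : ℕ) : s₀ ≤ ss s₀ h i := ss_mono h0 hh (Nat.zero_le i)

theorem xs_mul (i : ℕ) : xs s₀ h i * ss s₀ h i ^ 2 = h :=
  div_mul_cancel₀ _ (pow_pos (ss_pos h0 hh i) 2).ne'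

theorem le_ss_sq (i : ℕ) : 2 * h * i ≤ ss s₀ h i ^ 2 := by
  induction i with
  | zero => simpa using sq_nonneg _
  | succ i ih =>
    have h1 := xs_mul h0 hh i
    have h2 := mul_nonneg (sq_nonneg (ss s₀ h i)) (sq_nonneg (xs s₀ h i))
    rw [ss_succ]; push_cast; nlinarith

theorem ss_le_exp (i : ℕ) : ss s₀ h i ≤ s₀ * exp (ell s₀ h i) := by
  induction i with
  | zero => simp [ss, ell]
  | succ i ih =>
    rw [ss_succ, ell_succ, exp_add, ← mul_assoc]
    exact mul_le_mul ih ((add_comm _ _).trans_le (add_one_le_exp _))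
      (by linarith [xs_nonneg (s₀ := s₀) hh i]) (by positivity)

theorem xs_le (h4 : h ≤ s₀ ^ 4 / 1000) (i : ℕ) : xs s₀ h i ≤ ss s₀ h i ^ 2 / 1000 := by
  have h1 := ss_pos h0 hh i
  have h2 : s₀ ^ 4 ≤ ss s₀ h i ^ 4 := pow_le_pow_left₀ h0.le (le_ss h0 hh i) 4
  rw [xs, div_le_iff₀ (pow_pos h1 2)]
  linarith

theorem exp_le_ss (j : ℕ) (hx : ∀ i < j, xs s₀ h i ≤ 1) :
    s₀ * exp (ell s₀ h j / 2) ≤ ss s₀ h j := by
  induction j with
  | zero => simp [ss, ell]
  | succ j ih =>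
    rw [ss_succ, ell_succ, add_div, exp_add, ← mul_assoc]
    refine mul_le_mul (ih fun i hi => hx i (by omega)) ?_ (exp_pos _).le (ss_pos h0 hh j).le
    have h1 := xs_nonneg (s₀ := s₀) hh j
    have h2 := hx j (by omega)
    have := abs_exp_sub_one_le (x := xs s₀ h j / 2) (by rw [abs_of_nonneg (by linarith)]; linarith)
    rw [abs_of_nonneg (by linarith : 0 ≤ xs s₀ h j / 2)] at this
    linarith [(abs_le.1 this).2]

end seq

theorem nb_top (a b : V) : nb (⊤ : SimpleGraph V) a b = (univ.erase a).erase b := by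
  ext x; simp [mem_nb, ne_comm, and_comm]

theorem Y_top {a b : V} (hab : a ≠ b) : Y (⊤ : SimpleGraph V) a b = Fintype.card V - 2 := by
  have h2 : 2 ≤ Fintype.card V := Fintype.one_lt_card_iff.2 ⟨a, b, hab⟩
  rw [Y, nb_top, card_erase_of_mem (by simp [hab.symm]), card_erase_of_mem (mem_univ _), card_univ,
    Nat.sub_sub, Nat.cast_sub h2]
  norm_num

theorem B_top {f : V → V → ℝ} {c : ℝ} (hf : ∀ u v, u ≠ v → f u v = c) {a b : V} (hab : a ≠ b) :
    B (⊤ : SimpleGraph V) f a b = 2 * c * (Fintype.card V - 2) := by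
  rw [B, sum_congr rfl (g := fun _ => 2 * c) fun x hx => by
    rw [hf _ _ (mem_nb.1 hx).1.ne, hf _ _ (mem_nb.1 hx).2.ne]; ring, sum_const, nsmul_eq_mul,
    ← Y_top hab, Y, mul_comm]

theorem N3_top {a b y : V} (hab : a ≠ b) (hay : a ≠ y) (hby : b ≠ y) :
    N3 (⊤ : SimpleGraph V) a b y = Fintype.card V - 3 := by
  have e : N3 (⊤ : SimpleGraph V) a b y = ((nb ⊤ a b).erase y).card := by
    rw [N3]; congr 2
    ext x; simp [mem_nb, ne_comm]; tauto
  have h1 := Y_top hab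
  have hy : y ∈ nb (⊤ : SimpleGraph V) a b := by simp [mem_nb, hay, hby]
  have h2 := card_erase_add_one hy
  rw [Y, ← h2] at h1
  rw [e]
  push_cast at h1
  linarith

/-- global parameters of the dense phase -/
structure Glob (V : Type) [Fintype V] (L s₀ h : ℝ) (J : ℕ) : Prop where
  hL : 10 ^ 9 ≤ L
  h0 : 0 < s₀
  hs : s₀ ^ 2 * (Fintype.card V - 2) = 1
  hh0 : 0 ≤ h
  hh1 : h * (Fintype.card V : ℝ) ^ 3 ≤ 1
  hh : h ≤ s₀ ^ 4 / 1000
  hJ : L ^ 13 * ss s₀ h J ≤ 1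
  hl : ell s₀ h J ≤ L

/-- the good events -/
def Gam (L s₀ h : ℝ) (i : ℕ) (G : SimpleGraph V) : Prop := Good L s₀ (ss s₀ h i) (ell s₀ h i) G

namespace Glob

variable {L s₀ h : ℝ} {J : ℕ} (P : Glob V L s₀ h J)
include P

theorem ell_le {i : ℕ} (hi : i ≤ J) : ell s₀ h i ≤ L :=
  (sum_le_sum_of_subset_of_nonneg (range_mono hi) fun _ _ _ => xs_nonneg P.hh0 _).trans P.hl

theorem num {i : ℕ} (hi : i ≤ J) : Num L s₀ (ss s₀ h i) (xs s₀ h i) (ell s₀ h i) :=
  ⟨P.hL, P.h0, le_ss P.h0 P.hh0 i,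
    (mul_le_mul_of_nonneg_left (ss_mono P.h0 P.hh0 hi) (by have := P.hL; positivity)).trans P.hJ,
    xs_nonneg P.hh0 i, xs_le P.h0 P.hh0 P.hh i, ell_nonneg P.hh0 i, P.ell_le hi⟩

theorem sum_le {j : ℕ} (hj : j ≤ J) {c : ℝ} (hc : 0 ≤ c) :
    ∑ i ∈ range j, xs s₀ h i * c ≤ L * c := by
  rw [← sum_mul]; exact mul_le_mul_of_nonneg_right (P.ell_le hj) hc

theorem p1 {j : ℕ} (hj : j ≤ J) {a b : V} (hab : a ≠ b) :
    Lam h (Gam L s₀ h) ⊤ j (fun G => if |ss s₀ h j ^ 2 * Y G a b - 1| ≤ L ^ 4 * ss s₀ h j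
      then 0 else 1) ≤ 2 * exp (-L) := by
  have N := P.num hj
  have hL := P.hL
  have hm := ss_mono P.h0 P.hh0
  have hp := ss_pos P.h0 P.hh0
  set t := ss s₀ h j with ht
  have ht0 := N.s_pos
  have ht1 := N.sq_le
  refine freedman2 P.hh0 P.hh1 (fun i G => ss s₀ h i ^ 2 * Y G a b)
    (fun i => xs s₀ h i * (2 * L ^ 2 * t)) (fun i => xs s₀ h i * (24 * t ^ 2)) j
    (c := 3 * t ^ 2) (lam := 7 * L * t) (by linarith) (by positivity) (by nlinarith) ?_ ?_ ?_ ?_ ?_
  · have := P.sum_le hj (c := 24 * t ^ 2) (by positivity)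
    nlinarith [mul_le_mul_of_nonneg_left this (by linarith : 0 ≤ L), sq_nonneg (L * t)]
  · have := P.sum_le hj (c := 2 * L ^ 2 * t) (by positivity)
    have e : ss s₀ h 0 ^ 2 * Y (⊤ : SimpleGraph V) a b - 1 = 0 := by
      rw [Y_top hab]; exact sub_eq_zero.2 P.hs
    rw [e, abs_zero]
    have h1 : 14 * L ≤ L ^ 3 := by nlinarith
    have h2 : 3 * L ^ 3 ≤ L ^ 4 := by nlinarith [pow_pos (by linarith : 0 < L) 3]
    nlinarith
  · intro i hi G hG
    have Ni := P.num (i := i) (by omega)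
    have := Ni.d1 hG hab
    rw [xs_mul P.h0 P.hh0, ← ss_succ] at this
    refine this.trans ?_
    have := Ni.hx0
    gcongr; exact hm hi.le
  · intro i hi G hG T hT
    have := (P.num (i := i) (by omega)).c1 hT a b
    rw [← ss_succ] at this
    refine this.trans ?_
    have := hp (i + 1)
    gcongr; exact hm hi
  · intro i hi G hG
    have Ni := P.num (i := i) (by omega)
    have := Ni.v1 hG hab
    rw [xs_mul P.h0 P.hh0, ← ss_succ] at this
    refine this.trans ?_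
    have := Ni.hx0
    have := hp i
    gcongr; exact hm hi.le

theorem p2 {j : ℕ} (hj : j ≤ J) {a b : V} (hab : a ≠ b) :
    Lam h (Gam L s₀ h) ⊤ j (fun G =>
      if |ss s₀ h j ^ 5 * X2 G a b - 2 * ss s₀ h j ^ 3 * Y G a b - 0| ≤
        ss s₀ h j * (L ^ 2 * √(ss s₀ h j * s₀) + L ^ 12 * ss s₀ h j ^ 2) then 0 else 1) ≤
      2 * exp (-L) := by
  have N := P.num hj
  have hL := P.hL
  have h0 := P.h0
  have hm := ss_mono P.h0 P.hh0
  have hp := ss_pos P.h0 P.hh0
  set t := ss s₀ h j with ht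
  have ht0 := N.s_pos
  have hρ := N.rho_sq
  have hρ0 := sqrt_nonneg (t * s₀)
  have hL1 := N.one_le
  have hL0 : 0 < L := by linarith
  refine freedman2 P.hh0 P.hh1
    (fun i G => ss s₀ h i ^ 5 * X2 G a b - 2 * ss s₀ h i ^ 3 * Y G a b)
    (fun i => xs s₀ h i * (7 * L ^ 10 * t ^ 3))
    (fun i => xs s₀ h i * (10 ^ 5 * t ^ 2 * (t * s₀ + 2 * L ^ 12 * t ^ 4))) j
    (c := 30 * t ^ 3) (lam := t * (L ^ 2 * √(t * s₀) / 2 + L ^ 8 * t ^ 2)) hL0 (by positivity)
    ?_ ?_ ?_ ?_ ?_ ?_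
  · have h1 : 30 ≤ L ^ 7 := le_trans (by linarith) (le_self_pow₀ hL1 (by norm_num))
    have h2 : 30 * (L * t ^ 3) ≤ L ^ 7 * (L * t ^ 3) := by gcongr
    have h3 : 0 ≤ t * (L ^ 2 * √(t * s₀) / 2) := by positivity
    linarith
  · have := P.sum_le hj (c := 10 ^ 5 * t ^ 2 * (t * s₀ + 2 * L ^ 12 * t ^ 4)) (by positivity)
    refine (mul_le_mul_of_nonneg_left this hL0.le).trans ?_
    generalize √(t * s₀) = ρ at *
    have h1 : 4 * 10 ^ 5 ≤ L ^ 2 := by nlinarith
    have h2 : 4 * 10 ^ 5 * (L ^ 2 * t ^ 2 * ρ ^ 2) ≤ L ^ 2 * (L ^ 2 * t ^ 2 * ρ ^ 2) := by gcongr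
    have h3 : 4 * 10 ^ 5 * (L ^ 14 * t ^ 6) ≤ L ^ 2 * (L ^ 14 * t ^ 6) := by gcongr
    have h4 : 0 ≤ L ^ 10 * t ^ 4 * ρ := by positivity
    have h5 : 0 ≤ L ^ 14 * t ^ 6 := by positivity
    rw [← hρ]
    linarith
  · have := P.sum_le hj (c := 7 * L ^ 10 * t ^ 3) (by positivity)
    have e : ss s₀ h 0 ^ 5 * X2 (⊤ : SimpleGraph V) a b -
        2 * ss s₀ h 0 ^ 3 * Y (⊤ : SimpleGraph V) a b - 0 = 0 := by
      rw [X2, B_top (fun u v => Y_top) hab, Y_top hab]
      have := P.hs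
      change s₀ ^ 5 * _ - 2 * s₀ ^ 3 * _ - 0 = 0
      linear_combination (2 * s₀ ^ 3 * (Fintype.card V - 2)) * this
    rw [e, abs_zero]
    have h1 : L ^ 8 * t ^ 3 ≤ L ^ 11 * t ^ 3 := by gcongr; norm_num
    have h2 : 9 * (L ^ 11 * t ^ 3) ≤ L * (L ^ 11 * t ^ 3) := by gcongr; linarith
    linarith
  · intro i hi G hG
    have Ni := P.num (i := i) (by omega)
    have := Ni.d2 hG hab
    rw [xs_mul P.h0 P.hh0, ← ss_succ] at this
    refine this.trans ?_
    have := Ni.hx0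
    have := hp i
    gcongr; exact hm hi.le
  · intro i hi G hG T hT
    have := (P.num (i := i) (by omega)).c2 hG hT hab
    rw [← ss_succ] at this
    refine this.trans ?_
    have := hp (i + 1)
    gcongr; exact hm hi
  · intro i hi G hG
    have Ni := P.num (i := i) (by omega)
    have := Ni.v2 hG hab
    rw [xs_mul P.h0 P.hh0, ← ss_succ] at this
    refine this.trans ?_
    have := Ni.hx0
    have := hp i
    gcongr <;> exact hm hi.le

theorem sum_d3 (j : ℕ) : ∑ i ∈ range j, xs s₀ h i * (L ^ 9 * ss s₀ h i ^ 2 * (6 + 10 * ell s₀ h i))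
    ≤ L ^ 9 * ss s₀ h j ^ 2 * (1 + 5 * ell s₀ h j) := by
  have hL := P.hL
  induction j with
  | zero => simp only [range_zero, sum_empty, ell]; positivity
  | succ j ih =>
    rw [sum_range_succ, ss_succ, ell_succ]
    have h1 := xs_nonneg (s₀ := s₀) P.hh0 j
    have h2 := ell_nonneg (s₀ := s₀) P.hh0 j
    have h3 : 0 ≤ L ^ 9 * ss s₀ h j ^ 2 := by positivity
    generalize xs s₀ h j = x at *
    generalize ell s₀ h j = l at *
    have h4 : 1 + 5 * l + x * (6 + 10 * l) ≤ (1 + x) ^ 2 * (1 + 5 * (l + x)) := by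
      have : 0 ≤ x ^ 2 * (11 + 5 * l + 5 * x) := by positivity
      nlinarith
    have := mul_le_mul_of_nonneg_left h4 h3
    linarith

theorem p3 {j : ℕ} (hj : j ≤ J) {a b : V} (hab : a ≠ b) :
    Lam h (Gam L s₀ h) ⊤ j (fun G =>
      if |ss s₀ h j ^ 6 * X3 G a b - 3 * ss s₀ h j ^ 4 * X2 G a b + 2 * ss s₀ h j ^ 2 * Y G a b - 0|
        ≤ L ^ 9 * ss s₀ h j ^ 2 * (2 + 5 * ell s₀ h j) then 0 else 1) ≤ 2 * exp (-L) := by
  have N := P.num hj
  have hL := P.hL
  have h0 := P.h0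
  have hm := ss_mono P.h0 P.hh0
  have hp := ss_pos P.h0 P.hh0
  have hd := P.sum_d3 j
  set t := ss s₀ h j with ht
  have ht0 := N.s_pos
  have hL1 := N.one_le
  have hL0 : 0 < L := by linarith
  refine freedman2 P.hh0 P.hh1
    (fun i G => ss s₀ h i ^ 6 * X3 G a b - 3 * ss s₀ h i ^ 4 * X2 G a b +
      2 * ss s₀ h i ^ 2 * Y G a b)
    (fun i => xs s₀ h i * (L ^ 9 * ss s₀ h i ^ 2 * (6 + 10 * ell s₀ h i)))
    (fun i => xs s₀ h i * (10 ^ 9 * L ^ 12 * t ^ 4)) j
    (c := 222 * t ^ 2) (lam := L ^ 9 * t ^ 2 / 2) hL0 (by positivity) ?_ ?_ ?_ ?_ ?_ ?_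
  · have h1 : 444 ≤ L ^ 8 := le_trans (by linarith) (le_self_pow₀ hL1 (by norm_num))
    have h2 : 444 * (L * t ^ 2) ≤ L ^ 8 * (L * t ^ 2) := by gcongr
    linarith
  · have := P.sum_le hj (c := 10 ^ 9 * L ^ 12 * t ^ 4) (by positivity)
    refine (mul_le_mul_of_nonneg_left this hL0.le).trans ?_
    have h1 : 4 * 10 ^ 9 ≤ L ^ 2 := by nlinarith
    have h1' : L ^ 2 ≤ L ^ 4 := pow_le_pow_right₀ hL1 (by norm_num)
    have h2 : 4 * 10 ^ 9 * (L ^ 14 * t ^ 4) ≤ L ^ 4 * (L ^ 14 * t ^ 4) := by gcongr; linarith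
    linarith
  · have e : ss s₀ h 0 ^ 6 * X3 (⊤ : SimpleGraph V) a b - 3 * ss s₀ h 0 ^ 4 * X2 ⊤ a b +
        2 * ss s₀ h 0 ^ 2 * Y (⊤ : SimpleGraph V) a b - 0 = 0 := by
      rw [X3, B_top (f := X2 ⊤) (fun u v => B_top fun u v => Y_top) hab, X2, B_top (fun u v => Y_top) hab,
        Y_top hab]
      have := P.hs
      change s₀ ^ 6 * _ - 3 * s₀ ^ 4 * _ + 2 * s₀ ^ 2 * _ - 0 = 0
      linear_combination (4 * s₀ ^ 4 * (Fintype.card V - 2) ^ 2 -
        2 * s₀ ^ 2 * (Fintype.card V - 2)) * this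
    rw [e, abs_zero]
    linarith
  · intro i hi G hG
    have := (P.num (i := i) (by omega)).d3 hG hab
    rwa [xs_mul P.h0 P.hh0, ← ss_succ] at this
  · intro i hi G hG T hT
    have := (P.num (i := i) (by omega)).c3 hG hT hab
    rw [← ss_succ] at this
    refine this.trans ?_
    have := hp (i + 1)
    gcongr; exact hm hi
  · intro i hi G hG
    have Ni := P.num (i := i) (by omega)
    have := Ni.v3 hG hab
    rw [xs_mul P.h0 P.hh0, ← ss_succ] at this
    refine this.trans ?_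
    have := Ni.hx0
    have := hp i
    gcongr; exact hm hi.le

theorem p4 {j : ℕ} (hj : j ≤ J) {a b y : V} (hab : a ≠ b) (hay : a ≠ y) (hby : b ≠ y) :
    Lam h (Gam L s₀ h) ⊤ j (fun G => if |ss s₀ h j ^ 3 * N3 G a b y - s₀| ≤
      L ^ 6 * (ss s₀ h j * √(ss s₀ h j * s₀) + ss s₀ h j ^ 3) then 0 else 1) ≤ 2 * exp (-L) := by
  have N := P.num hj
  have hL := P.hL
  have h0 := P.h0
  have hm := ss_mono P.h0 P.hh0
  have hp := ss_pos P.h0 P.hh0
  set t := ss s₀ h j with ht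
  have ht0 := N.s_pos
  have hρ0 := sqrt_nonneg (t * s₀)
  have hL1 := N.one_le
  have hL0 : 0 < L := by linarith
  set E := t * √(t * s₀) + t ^ 3 with hE
  have hE0 : 0 < E := by positivity
  have hE1 : t ^ 3 ≤ E := by linarith [mul_nonneg ht0.le hρ0]
  refine freedman2 P.hh0 P.hh1 (fun i G => ss s₀ h i ^ 3 * N3 G a b y)
    (fun i => xs s₀ h i * (8 * L ^ 4 * E)) (fun i => xs s₀ h i * (72 * L ^ 6 * E ^ 2)) j
    (c := 3 * t ^ 3) (lam := L ^ 5 * E) hL0 (by positivity) ?_ ?_ ?_ ?_ ?_ ?_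
  · have h1 : 3 ≤ L ^ 4 := le_trans (by linarith) (le_self_pow₀ hL1 (by norm_num))
    have h2 : 3 * (L * t ^ 3) ≤ L ^ 4 * (L * E) := by gcongr
    linarith
  · have := P.sum_le hj (c := 72 * L ^ 6 * E ^ 2) (by positivity)
    refine (mul_le_mul_of_nonneg_left this hL0.le).trans ?_
    have h1 : 72 ≤ L ^ 2 := by nlinarith
    have h2 : 72 * (L ^ 8 * E ^ 2) ≤ L ^ 2 * (L ^ 8 * E ^ 2) := by gcongr
    linarith
  · have := P.sum_le hj (c := 8 * L ^ 4 * E) (by positivity)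
    have e : ss s₀ h 0 ^ 3 * N3 (⊤ : SimpleGraph V) a b y - s₀ = -s₀ ^ 3 := by
      rw [N3_top hab hay hby]
      have := P.hs
      change s₀ ^ 3 * _ - s₀ = _
      linear_combination s₀ * this
    rw [e, abs_neg, abs_of_pos (pow_pos h0 3)]
    have h1 : s₀ ^ 3 ≤ t ^ 3 := pow_le_pow_left₀ h0.le N.h1 3
    have h2 : E ≤ L ^ 5 * E := le_mul_of_one_le_left hE0.le (one_le_pow₀ hL1)
    have h3 : 11 * (L ^ 5 * E) ≤ L * (L ^ 5 * E) := by gcongr; linarith
    linarith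
  · intro i hi G hG
    have Ni := P.num (i := i) (by omega)
    have := Ni.d4 hG hab hay hby
    rw [xs_mul P.h0 P.hh0, ← ss_succ] at this
    refine this.trans ?_
    have := Ni.hx0
    have := hp i
    rw [hE]
    gcongr <;> exact hm hi.le
  · intro i hi G hG T hT
    have := (P.num (i := i) (by omega)).c4 hT a b y
    rw [← ss_succ] at this
    refine this.trans ?_
    have := hp (i + 1)
    gcongr; exact hm hi
  · intro i hi G hG
    have Ni := P.num (i := i) (by omega)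
    have := Ni.v4 hG hab hay hby
    rw [xs_mul P.h0 P.hh0, ← ss_succ] at this
    refine this.trans ?_
    have := Ni.hx0
    have := hp i
    rw [hE]
    gcongr <;> exact hm hi.le

theorem fail_le {j : ℕ} (hj : j ≤ J) :
    Lam h (Gam L s₀ h) ⊤ j (fun G : SimpleGraph V => if Gam L s₀ h j G then 0 else 1) ≤
      8 * (Fintype.card V : ℝ) ^ 3 * exp (-L) := by
  set t := ss s₀ h j
  set l := ell s₀ h j
  let q : Fin 4 → V → V → V → SimpleGraph V → Prop := ![
    fun a b _ G => a ≠ b → |t ^ 2 * Y G a b - 1| ≤ L ^ 4 * t,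
    fun a b _ G => a ≠ b → |t ^ 5 * X2 G a b - 2 * t ^ 3 * Y G a b - 0| ≤
      t * (L ^ 2 * √(t * s₀) + L ^ 12 * t ^ 2),
    fun a b _ G => a ≠ b → |t ^ 6 * X3 G a b - 3 * t ^ 4 * X2 G a b + 2 * t ^ 2 * Y G a b - 0| ≤
      L ^ 9 * t ^ 2 * (2 + 5 * l),
    fun a b y G => a ≠ b ∧ a ≠ y ∧ b ≠ y →
      |t ^ 3 * N3 G a b y - s₀| ≤ L ^ 6 * (t * √(t * s₀) + t ^ 3)]
  let f : Fin 4 × V × V × V → SimpleGraph V → ℝ := fun z G =>
    if q z.1 z.2.1 z.2.2.1 z.2.2.2 G then 0 else 1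
  have hf0 : ∀ z G, 0 ≤ f z G := fun z G => by simp only [f]; split_ifs <;> norm_num
  have h1 : (fun G : SimpleGraph V => if Gam L s₀ h j G then (0 : ℝ) else 1) ≤ ∑ z, f z := by
    intro G
    rw [Finset.sum_apply]
    by_cases hG : Gam L s₀ h j G
    · simp only [if_pos hG]; exact sum_nonneg fun z _ => hf0 z G
    · simp only [if_neg hG]
      obtain ⟨z, hz⟩ : ∃ z : Fin 4 × V × V × V, ¬ q z.1 z.2.1 z.2.2.1 z.2.2.2 G := by
        by_contra hc
        simp only [not_exists, not_not] at hc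
        exact hG ⟨fun a b => hc (0, a, b, a), fun a b => hc (1, a, b, a),
          fun a b => hc (2, a, b, a), fun a b y h1 h2 h3 => hc (3, a, b, y) ⟨h1, h2, h3⟩⟩
      refine le_trans (le_of_eq ?_) (single_le_sum (fun z _ => hf0 z G) (mem_univ z))
      simp only [f, if_neg hz]
  have h2 : ∀ z, Lam h (Gam L s₀ h) ⊤ j (f z) ≤ 2 * exp (-L) := by
    have z0 : ∀ {g : SimpleGraph V → ℝ}, (∀ G, g G = 0) →
        Lam h (Gam L s₀ h) ⊤ j g ≤ 2 * exp (-L) := by
      intro g hg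
      rw [show g = 0 from funext hg, map_zero]; positivity
    rintro ⟨k, a, b, y⟩
    fin_cases k
    · by_cases hab : a = b
      · exact z0 fun G => if_pos fun h => absurd hab h
      · refine le_trans (le_of_eq ?_) (P.p1 hj hab)
        congr 1; funext G; exact if_congr ⟨fun h => h hab, fun h _ => h⟩ rfl rfl
    · by_cases hab : a = b
      · exact z0 fun G => if_pos fun h => absurd hab h
      · refine le_trans (le_of_eq ?_) (P.p2 hj hab)
        congr 1; funext G; exact if_congr ⟨fun h => h hab, fun h _ => h⟩ rfl rfl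
    · by_cases hab : a = b
      · exact z0 fun G => if_pos fun h => absurd hab h
      · refine le_trans (le_of_eq ?_) (P.p3 hj hab)
        congr 1; funext G; exact if_congr ⟨fun h => h hab, fun h _ => h⟩ rfl rfl
    · by_cases hab : a ≠ b ∧ a ≠ y ∧ b ≠ y
      · refine le_trans (le_of_eq ?_) (P.p4 hj hab.1 hab.2.1 hab.2.2)
        congr 1; funext G; exact if_congr ⟨fun h => h hab, fun h _ => h⟩ rfl rfl
      · exact z0 fun G => if_pos fun h => absurd h hab
  refine (Lam_mono P.hh0 P.hh1 j h1).trans ?_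
  rw [map_sum]
  refine (sum_le_sum fun z _ => h2 z).trans (le_of_eq ?_)
  simp only [sum_const, card_univ, Fintype.card_prod, Fintype.card_fin, nsmul_eq_mul]
  push_cast; ring

theorem survive (S : Finset (Finset V)) (hS : ∀ e ∈ S, e.card = 2) (hc : (S.card : ℝ) ≤ L) :
    Lam h (Gam L s₀ h) ⊤ J (fun G => if ∀ e ∈ S, G.IsClique (e : Set V) then 1 else 0) ≤
      (3 * s₀ / ss s₀ h J) ^ S.card := by
  have N := P.num le_rfl
  have hL1 := N.one_le
  have hm := ss_mono P.h0 P.hh0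
  set t := ss s₀ h J with ht
  have ht0 := N.s_pos
  set σ : ℝ := (S.card : ℝ) with hσ
  have hσ0 : 0 ≤ σ := Nat.cast_nonneg _
  set δ := L ^ 4 * t + σ * t ^ 2 with hδ
  let ind : SimpleGraph V → ℝ := fun G => if ∀ e ∈ S, G.IsClique (e : Set V) then 1 else 0
  have key := Lam_super (Γ := Gam L s₀ h) (G0 := ⊤) P.hh0 P.hh1
    (fun i G => exp (σ * (1 - δ) * ell s₀ h i) * ind G) J
    (fun i G => mul_nonneg (exp_pos _).le (by simp only [ind]; split_ifs <;> norm_num))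
    (fun i hi G hG => by
      have Ni := P.num hi.le
      rw [Pop_apply, gen_mul]
      by_cases hG' : ∀ e ∈ S, G.IsClique (e : Set V)
      · have e1 : gen ind G = -(((tri G).filter fun T => ∃ e ∈ S, e ⊆ T).card : ℝ) := by
          rw [gen, card_filter]
          push_cast
          rw [← sum_neg_distrib]
          refine sum_congr rfl fun T _ => ?_
          simp only [ind, if_pos hG']
          by_cases hT : ∃ e ∈ S, e ⊆ T
          · obtain ⟨e, he, heT⟩ := hT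
            rw [if_neg, if_pos ⟨e, he, heT⟩]
            · norm_num
            · intro hcl
              obtain ⟨u, v, huv, rfl⟩ := card_eq_two.1 (hS e he)
              exact (hcl _ he (by simp) (by simp) huv).2 ⟨heT (by simp), heT (by simp)⟩
          · rw [if_pos, if_neg hT]
            · norm_num
            · intro e he u hu v hv huv
              refine ⟨hG' e he hu hv huv, fun h' => hT ⟨e, he, ?_⟩⟩
              have : e = {u, v} := by
                symm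
                refine eq_of_subset_of_card_le (by
                  simp only [insert_subset_iff, singleton_subset_iff]; exact ⟨hu, hv⟩) ?_
                rw [hS e he, card_pair huv]
              rw [this]
              simp only [insert_subset_iff, singleton_subset_iff]; exact h'
        have e2 := card_hit_set (Num.reg hG) (pow_pos Ni.s_pos 2) S hS hG'
        have e3 := xs_mul P.h0 P.hh0 i
        have e4 := Ni.hx0
        have e5 := Ni.s_pos
        have e6 : ss s₀ h i ≤ t := hm hi.le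
        rw [e1]
        simp only [ind, if_pos hG', mul_one]
        generalize (((tri G).filter fun T => ∃ e ∈ S, e ⊆ T).card : ℝ) = k at *
        have e7 : σ * (1 - δ) * xs s₀ h i ≤ h * k := by
          refine le_trans ?_ (mul_le_mul_of_nonneg_left e2 P.hh0)
          have : h * (σ * ((1 - L ^ 4 * ss s₀ h i) / ss s₀ h i ^ 2 - σ)) =
              σ * (1 - (L ^ 4 * ss s₀ h i + σ * ss s₀ h i ^ 2)) * xs s₀ h i := by
            generalize ss s₀ h i = u at *
            generalize xs s₀ h i = x at *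
            rw [← e3]
            field_simp; ring
          rw [this, hδ]
          gcongr
        have e8 := add_one_le_exp (-(σ * (1 - δ) * xs s₀ h i))
        have e9 : exp (σ * (1 - δ) * ell s₀ h i) = exp (σ * (1 - δ) * ell s₀ h (i + 1)) *
            exp (-(σ * (1 - δ) * xs s₀ h i)) := by
          rw [← exp_add, ell_succ]; congr 1; ring
        rw [e9]
        nlinarith [exp_pos (σ * (1 - δ) * ell s₀ h (i + 1))]
      · have e1 : gen ind G = 0 := by
          refine sum_eq_zero fun T _ => ?_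
          simp only [ind, if_neg hG']
          rw [if_neg, sub_zero]
          exact fun h' => hG' fun e he => (h' e he).mono (rem_le G T)
        simp [e1, ind, if_neg hG'])
  have k0 : exp (σ * (1 - δ) * ell s₀ h 0) * ind ⊤ ≤ 1 := by
    simp only [ell, range_zero, sum_empty, mul_zero, exp_zero, one_mul, ind]
    split_ifs <;> norm_num
  have k1 := key.trans k0
  rw [show (fun G => exp (σ * (1 - δ) * ell s₀ h J) * ind G) =
    exp (σ * (1 - δ) * ell s₀ h J) • ind from rfl, map_smul, smul_eq_mul] at k1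
  have k2 : δ * ell s₀ h J ≤ 1 := by
    have a1 := N.pow_mul_le (k := 5) (by norm_num)
    have a2 := N.pow_mul_le (k := 2) (by norm_num)
    have a3 := N.s_le
    calc δ * ell s₀ h J ≤ (L ^ 4 * t + L * t ^ 2) * L := by
          rw [hδ]; gcongr
          · exact N.hl0
          · exact N.hl
      _ = L ^ 5 * t + L ^ 2 * t * t := by ring
      _ ≤ 1 := by nlinarith
  have k3 : exp (-((1 - δ) * ell s₀ h J)) ≤ 3 * s₀ / t := by
    rw [le_div_iff₀ ht0]
    have a1 := ss_le_exp P.h0 P.hh0 J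
    have a2 : exp (-((1 - δ) * ell s₀ h J)) * exp (ell s₀ h J) ≤ 3 := by
      rw [← exp_add]
      exact (exp_le_exp.2 (by linarith)).trans (exp_one_lt_d9.le.trans (by norm_num))
    have := P.h0
    calc _ ≤ exp (-((1 - δ) * ell s₀ h J)) * (s₀ * exp (ell s₀ h J)) := by gcongr
      _ = exp (-((1 - δ) * ell s₀ h J)) * exp (ell s₀ h J) * s₀ := by ring
      _ ≤ _ := by gcongr
  refine le_trans ?_ (pow_le_pow_left₀ (exp_pos _).le k3 _)
  rw [← exp_nat_mul, ← hσ, mul_neg, ← mul_assoc, exp_neg, ← one_div, le_div_iff₀ (exp_pos _),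
    mul_comm]
  exact k1

end Glob

/-- the dense phase -/
theorem ph1 {L s₀ t : ℝ} (hL : 10 ^ 9 ≤ L) (hn : 1000 ≤ Fintype.card V)
    (hlog : log (Fintype.card V) ≤ L) (h0 : 0 < s₀) (hs : s₀ ^ 2 * (Fintype.card V - 2) = 1)
    (ht0 : 0 < t) (hst : s₀ ≤ t ^ 3) (ht : L ^ 13 * (2 * t) ≤ 1) :
    ∃ (Λ : (SimpleGraph V → ℝ) →ₗ[ℝ] ℝ) (s : ℝ) (Γ : SimpleGraph V → Prop), Monotone Λ ∧
      (∀ c, 0 ≤ c → Λ (fun _ => c) ≤ c) ∧ t ≤ s ∧ s ≤ 2 * t ∧
      (∀ G, Γ G → Reg G (s ^ 2) (L ^ 4 * s) ∧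
        ∀ a b, a ≠ b → |s ^ 4 * X2 G a b - 2 * s ^ 2 * Y G a b| ≤ 2 * L ^ 12 * s ^ 2) ∧
      (∀ (Φ : SimpleGraph V → ℝ) (M : ℝ), (∀ G, gen Φ G = 0) → 0 ≤ M → (∀ G, Φ G ≤ M) →
        Φ ⊤ ≤ Λ (cut Γ Φ) + M * (16 * (Fintype.card V : ℝ) ^ 6 * exp (-L))) ∧
      ∀ S : Finset (Finset V), (∀ e ∈ S, e.card = 2) → (S.card : ℝ) ≤ L →
        Λ (fun G => if ∀ e ∈ S, G.IsClique (e : Set V) then 1 else 0) ≤ (3 * s₀ / s) ^ S.card := by
  set n : ℝ := (Fintype.card V : ℝ) with hnd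
  have hn' : (1000 : ℝ) ≤ n := by rw [hnd]; exact_mod_cast hn
  have hn0 : 0 < n := by linarith
  set h : ℝ := 1 / n ^ 3 with hh
  have hh0 : 0 ≤ h := by positivity
  have hL1 : 1 ≤ L := by linarith
  have ht1 : 2 * t ≤ 1 := le_trans (le_mul_of_one_le_left (by linarith) (one_le_pow₀ hL1)) ht
  have h4 : h ≤ s₀ ^ 4 / 1000 := by
    have a1 : 1 ≤ s₀ ^ 2 * n := by nlinarith [sq_nonneg s₀]
    have a2 : 1 ≤ (s₀ ^ 2 * n) ^ 2 := one_le_pow₀ a1
    rw [hh, div_le_div_iff₀ (by positivity) (by norm_num)]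
    nlinarith
  have hex : ∃ j, t ≤ ss s₀ h j := by
    refine ⟨Fintype.card V ^ 3, ?_⟩
    have a1 := le_ss_sq h0 hh0 (Fintype.card V ^ 3)
    have a2 : h * ((Fintype.card V ^ 3 : ℕ) : ℝ) = 1 := by
      push_cast; rw [← hnd, hh]; field_simp
    refine (pow_le_pow_iff_left₀ ht0.le (ss_pos h0 hh0 _).le two_ne_zero).1 ?_
    nlinarith
  have hJn : Nat.find hex ≤ Fintype.card V ^ 3 := by
    refine Nat.find_min' hex ?_
    have a1 := le_ss_sq h0 hh0 (Fintype.card V ^ 3)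
    have a2 : h * ((Fintype.card V ^ 3 : ℕ) : ℝ) = 1 := by
      push_cast; rw [← hnd, hh]; field_simp
    refine (pow_le_pow_iff_left₀ ht0.le (ss_pos h0 hh0 _).le two_ne_zero).1 ?_
    nlinarith
  have hJ1 : t ≤ ss s₀ h (Nat.find hex) := Nat.find_spec hex
  have hlt : ∀ i < Nat.find hex, ss s₀ h i < t := fun i hi => not_le.1 (Nat.find_min hex hi)
  generalize Nat.find hex = J at *
  have hx1 : ∀ i < J, xs s₀ h i ≤ 1 := fun i hi => by
    have a1 := xs_le h0 hh0 h4 i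
    have a2 := hlt i hi
    have a3 := ss_pos h0 hh0 i
    nlinarith
  have ht3 : t ^ 3 ≤ t := by nlinarith [sq_nonneg t]
  have hJ2 : ss s₀ h J ≤ 2 * t := by
    cases J with
    | zero => change s₀ ≤ _; linarith
    | succ J =>
      rw [ss_succ]
      have := hlt J (by omega)
      have := hx1 J (by omega)
      have := ss_pos h0 hh0 J
      nlinarith
  have P : Glob V L s₀ h J := by
    refine ⟨hL, h0, hs, hh0, by rw [← hnd, hh]; field_simp; rfl, h4,
      (mul_le_mul_of_nonneg_left hJ2 (by positivity)).trans ht, ?_⟩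
    refine le_trans ?_ hlog
    rw [le_log_iff_exp_le hn0]
    have a1 := (exp_le_ss h0 hh0 J hx1).trans (hJ2.trans ht1)
    have a2 : (s₀ * exp (ell s₀ h J / 2)) ^ 2 ≤ 1 := pow_le_one₀ (by positivity) a1
    rw [mul_pow, ← exp_nat_mul] at a2
    push_cast at a2
    rw [mul_div_cancel₀ _ two_ne_zero] at a2
    have a3 := exp_pos (ell s₀ h J)
    have a4 : exp (ell s₀ h J) = s₀ ^ 2 * exp (ell s₀ h J) * (n - 2) := by
      linear_combination (-exp (ell s₀ h J)) * hs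
    nlinarith
  refine ⟨Lam h (Gam L s₀ h) ⊤ J, ss s₀ h J, Gam L s₀ h J, Lam_mono P.hh0 P.hh1 J,
    fun c hc => Lam_const_le P.hh0 P.hh1 J hc, hJ1, hJ2, fun G hG => ⟨Num.reg hG, fun a b hab => ?_⟩,
    fun Φ M h1 h2 h3 => ?_, P.survive⟩
  · have N := P.num le_rfl
    refine (N.beta hG hab).trans ?_
    have a0 := N.s_pos
    have a1 : √(ss s₀ h J * s₀) ≤ ss s₀ h J ^ 2 := by
      refine sqrt_le_iff.2 ⟨by positivity, ?_⟩
      have : s₀ ≤ ss s₀ h J ^ 3 := hst.trans (pow_le_pow_left₀ ht0.le hJ1 3)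
      nlinarith
    have a2 : L ^ 2 * √(ss s₀ h J * s₀) ≤ L ^ 12 * ss s₀ h J ^ 2 := by gcongr; norm_num
    linarith
  · refine (harm_le P.hh0 P.hh1 h1 h2 h3 J fun i hi => P.fail_le hi).trans ?_
    have a1 : (J : ℝ) + 1 ≤ 2 * n ^ 3 := by
      have : (J : ℝ) ≤ n ^ 3 := by rw [hnd]; exact_mod_cast hJn
      have : 1 ≤ n ^ 3 := one_le_pow₀ (by linarith)
      linarith
    rw [← hnd]
    gcongr ?_ + ?_
    · exact le_rfl
    · calc _ ≤ M * (2 * n ^ 3) * (8 * n ^ 3 * exp (-L)) := by gcongr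
        _ = _ := by ring

end

end Vale.Agent.P046
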