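import Vale.Agent.P046.Var
import Vale.Agent.P046.Kill

/-! Dense phase: one step estimates for the tracked variables. -/

namespace Vale.Agent.P046

open Finset Real
open scoped Classical

noncomputable section

variable {V : Type} [Fintype V]

theorem pow_approx {k : ℕ} (hk : k ≤ 6) {x : ℝ} (h0 : 0 ≤ x) (h1 : x ≤ 1 / 1000) :
    |(1 + x) ^ k - 1 - k * x| ≤ 64 * x ^ 2 ∧ |(1 + x) ^ k - 1| ≤ 64 * x ∧ (1 + x) ^ k ≤ 2 := by
  have h2 : x ^ 2 ≤ x / 1000 := by nlinarith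
  have h3 : x ^ 3 ≤ x ^ 2 := by nlinarith
  have h4 : x ^ 4 ≤ x ^ 2 := by nlinarith
  have h5 : x ^ 5 ≤ x ^ 2 := by nlinarith
  have h6 : x ^ 6 ≤ x ^ 2 := by nlinarith
  have g3 : 0 ≤ x ^ 3 := by positivity
  have g4 : 0 ≤ x ^ 4 := by positivity
  have g5 : 0 ≤ x ^ 5 := by positivity
  have g6 : 0 ≤ x ^ 6 := by positivity
  have g2 : 0 ≤ x ^ 2 := by positivity
  interval_cases k <;> refine ⟨abs_le.2 ⟨?_, ?_⟩, abs_le.2 ⟨?_, ?_⟩, ?_⟩ <;> push_cast <;>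
    ring_nf <;> linarith

theorem tchange {k : ℕ} (hk : k ≤ 6) {x s : ℝ} (h0 : 0 ≤ x) (h1 : x ≤ 1 / 1000) (hs : 0 ≤ s)
    (X g : ℝ) : |(s * (1 + x)) ^ k * X + x * s ^ 2 * ((s * (1 + x)) ^ k * g) - s ^ k * X -
      x * (s ^ k * (k * X + s ^ 2 * g))| ≤ 64 * x ^ 2 * (s ^ k * |X| + s ^ (k + 2) * |g|) := by
  obtain ⟨a1, a2, -⟩ := pow_approx hk h0 h1
  have e : (s * (1 + x)) ^ k * X + x * s ^ 2 * ((s * (1 + x)) ^ k * g) - s ^ k * X -
      x * (s ^ k * (k * X + s ^ 2 * g)) =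
      s ^ k * (((1 + x) ^ k - 1 - k * x) * X) + x * s ^ (k + 2) * (((1 + x) ^ k - 1) * g) := by
    rw [mul_pow]; ring
  rw [e]
  refine (abs_add_le _ _).trans ?_
  rw [abs_mul, abs_mul, abs_mul (x * _), abs_mul ((1 + x) ^ k - 1),
    abs_of_nonneg (pow_nonneg hs k), abs_of_nonneg (mul_nonneg h0 (pow_nonneg hs _))]
  calc _ ≤ s ^ k * (64 * x ^ 2 * |X|) + x * s ^ (k + 2) * (64 * x * |g|) := by gcongr
    _ = _ := by ring

/-- numerical side conditions at one time -/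
structure Num (L s₀ s x ℓ : ℝ) : Prop where
  hL : 10 ^ 9 ≤ L
  h0 : 0 < s₀
  h1 : s₀ ≤ s
  h2 : L ^ 13 * s ≤ 1
  hx0 : 0 ≤ x
  hx : x ≤ s ^ 2 / 1000
  hl0 : 0 ≤ ℓ
  hl : ℓ ≤ L

/-- the good event at one time -/
structure Good (L s₀ s ℓ : ℝ) (G : SimpleGraph V) : Prop where
  g1 : ∀ a b, a ≠ b → |s ^ 2 * Y G a b - 1| ≤ L ^ 4 * s
  g2 : ∀ a b, a ≠ b → |s ^ 5 * X2 G a b - 2 * s ^ 3 * Y G a b - 0| ≤
    s * (L ^ 2 * √(s * s₀) + L ^ 12 * s ^ 2)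
  g3 : ∀ a b, a ≠ b → |s ^ 6 * X3 G a b - 3 * s ^ 4 * X2 G a b + 2 * s ^ 2 * Y G a b - 0| ≤
    L ^ 9 * s ^ 2 * (2 + 5 * ℓ)
  g4 : ∀ a b y, a ≠ b → a ≠ y → b ≠ y → |s ^ 3 * N3 G a b y - s₀| ≤ L ^ 6 * (s * √(s * s₀) + s ^ 3)

namespace Num

variable {L s₀ s x ℓ : ℝ} (N : Num L s₀ s x ℓ)
include N

theorem s_pos : 0 < s := N.h0.trans_le N.h1

theorem one_le : 1 ≤ L := by linarith [N.hL]

theorem pow_mul_le {k : ℕ} (hk : k ≤ 12) : L ^ k * s ≤ 1 / 10 ^ 9 := by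
  have h1 : L ^ k * s ≤ L ^ 12 * s :=
    mul_le_mul_of_nonneg_right (pow_le_pow_right₀ N.one_le hk) N.s_pos.le
  have h2 := N.h2
  have h3 := N.hL
  have h4 : 0 ≤ L ^ 12 * s := mul_nonneg (pow_nonneg (by linarith) _) N.s_pos.le
  rw [pow_succ] at h2
  nlinarith

theorem s_le : s ≤ 1 / 10 ^ 9 := by simpa using N.pow_mul_le (k := 0) (by norm_num)

theorem sq_le : s ^ 2 ≤ s / 10 ^ 9 := by nlinarith [N.s_le, N.s_pos]

theorem x_le : x ≤ 1 / 1000 := by nlinarith [N.hx, N.s_le, N.s_pos]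

theorem eta_le : L ^ 4 * s ≤ 1 / 10 ^ 9 := N.pow_mul_le (by norm_num)

theorem s_le_eta : s ≤ L ^ 4 * s :=
  le_mul_of_one_le_left N.s_pos.le (one_le_pow₀ N.one_le)

theorem rho_sq : √(s * s₀) ^ 2 = s * s₀ := sq_sqrt (mul_pos N.s_pos N.h0).le

theorem rho_le : √(s * s₀) ≤ s := sqrt_le_iff.2 ⟨N.s_pos.le, by nlinarith [N.h1, N.s_pos]⟩

theorem le_rho : s₀ ≤ √(s * s₀) := le_sqrt_of_sq_le (by nlinarith [N.h1, N.h0])

theorem pow_le {k : ℕ} (hk : k ≤ 6) : (s * (1 + x)) ^ k ≤ 2 * s ^ k := by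
  rw [mul_pow, mul_comm]
  exact mul_le_mul_of_nonneg_right (pow_approx hk N.hx0 N.x_le).2.2 (pow_nonneg N.s_pos.le _)

theorem err_le {c : ℝ} (hc : 0 ≤ c) : 64 * x ^ 2 * c ≤ x * (s ^ 2 * (c / 15)) := by
  have := N.hx
  have := N.hx0
  have := mul_nonneg N.hx0 hc
  nlinarith [sq_nonneg s]

variable {G : SimpleGraph V} (Γ : Good L s₀ s ℓ G)
include Γ

omit N in
theorem reg : Reg G (s ^ 2) (L ^ 4 * s) := Γ.g1

theorem reg' : Reg G ((s * (1 + x)) ^ 2) (2 * (L ^ 4 * s)) := by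
  intro a b hab
  have h1 := abs_le.1 (Γ.g1 a b hab)
  have h2 := N.eta_le
  have h3 := N.s_le_eta
  have h4 := N.sq_le
  have h5 := N.hx
  have h6 := N.hx0
  have h7 := N.x_le
  have h8 := N.s_pos
  have h9 : 0 ≤ s ^ 2 * Y G a b := mul_nonneg (sq_nonneg _) (Y_nonneg a b)
  have e : (s * (1 + x)) ^ 2 * Y G a b = s ^ 2 * Y G a b + (2 * x + x ^ 2) * (s ^ 2 * Y G a b) := by
    ring
  have h10 : 0 ≤ (2 * x + x ^ 2) * (s ^ 2 * Y G a b) := by positivity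
  have h11 : (2 * x + x ^ 2) * (s ^ 2 * Y G a b) ≤ (3 * x) * 2 := by
    gcongr <;> nlinarith
  rw [e, abs_le]
  constructor <;> nlinarith

theorem sY {a b : V} (hab : a ≠ b) : s ^ 2 * |Y G a b| ≤ 2 := by
  rw [abs_of_nonneg (Y_nonneg a b)]
  linarith [(abs_le.1 (Γ.g1 a b hab)).2, N.eta_le]

theorem sX2 {a b : V} (hab : a ≠ b) : s ^ 4 * |X2 G a b| ≤ 8 := by
  have := X2_le (reg Γ) (pow_pos N.s_pos 2) (by linarith [N.eta_le]) hab
  rw [le_div_iff₀ (by have := N.s_pos; positivity)] at this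
  rw [abs_of_nonneg (X2_nonneg a b)]; linarith

theorem sX3 {a b : V} (hab : a ≠ b) : s ^ 6 * |X3 G a b| ≤ 32 := by
  have := X3_le (reg Γ) (pow_pos N.s_pos 2) (by linarith [N.eta_le]) hab
  rw [le_div_iff₀ (by have := N.s_pos; positivity)] at this
  rw [abs_of_nonneg (X3_nonneg a b)]; linarith

theorem e1 {a b : V} (hab : a ≠ b) :
    |s ^ 4 * gen (fun H => Y H a b) G + s ^ 4 * X2 G a b| ≤ 2 * s ^ 2 := by
  have hs := N.s_pos
  have := drift_Y (reg Γ) (pow_pos hs 2) (by linarith [N.eta_le]) hab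
  rw [← mul_add, abs_mul, abs_of_pos (pow_pos hs 4)]
  refine (mul_le_mul_of_nonneg_left this (pow_pos hs 4).le).trans (le_of_eq ?_)
  field_simp

theorem e2 {a b : V} (hab : a ≠ b) :
    |s ^ 6 * gen (fun H => X2 H a b) G + s ^ 6 * X3 G a b + 4 * s ^ 4 * X2 G a b -
      4 * s ^ 2 * Y G a b| ≤ (64 + 8 * L ^ 8) * s ^ 2 := by
  have hs := N.s_pos
  have := mul_le_mul_of_nonneg_left
    (drift_X2 (reg Γ) (pow_pos hs 2) (by linarith [N.eta_le]) hab) (pow_pos hs 6).le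
  rw [← abs_of_pos (pow_pos hs 6), ← abs_mul, abs_of_pos (pow_pos hs 6)] at this
  refine le_trans (le_of_eq ?_) (this.trans (le_of_eq ?_))
  · congr 1; field_simp
  · field_simp

theorem e3 {a b : V} (hab : a ≠ b) :
    |s ^ 8 * gen (fun H => X3 H a b) G + s ^ 8 * B G (X3 G) a b + 6 * s ^ 6 * X3 G a b -
      8 * s ^ 2 * Y G a b| ≤ (672 + 72 * L ^ 8) * s ^ 2 := by
  have hs := N.s_pos
  have := mul_le_mul_of_nonneg_left
    (drift_X3 (reg Γ) (pow_pos hs 2) (by linarith [N.eta_le]) hab) (pow_pos hs 8).le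
  rw [← abs_of_pos (pow_pos hs 8), ← abs_mul, abs_of_pos (pow_pos hs 8)] at this
  refine le_trans (le_of_eq ?_) (this.trans (le_of_eq ?_))
  · congr 1; field_simp
  · field_simp

omit Γ in
theorem L8 : L ^ 8 * s ^ 2 ≤ 1 / 10 ^ 18 := by
  have := N.eta_le
  have h : 0 ≤ L ^ 4 * s := mul_nonneg (by positivity) N.s_pos.le
  nlinarith

theorem g1' {a b : V} (hab : a ≠ b) : s ^ 4 * |gen (fun H => Y H a b) G| ≤ 10 := by
  have h1 := abs_le.1 (N.e1 Γ hab)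
  have h2 := N.sX2 Γ hab
  have h3 := N.sq_le
  have h4 := N.s_le
  rw [abs_of_nonneg (X2_nonneg a b)] at h2
  have h5 : 0 ≤ s ^ 4 * X2 G a b := mul_nonneg (by positivity) (X2_nonneg a b)
  rw [← abs_of_nonneg (by positivity : 0 ≤ s ^ 4), ← abs_mul, abs_le]
  constructor <;> linarith

theorem g2' {a b : V} (hab : a ≠ b) : s ^ 6 * |gen (fun H => X2 H a b) G| ≤ 138 := by
  have h1 := abs_le.1 (N.e2 Γ hab)
  have h2 := N.sX2 Γ hab
  have h2' := N.sX3 Γ hab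
  have h2'' := N.sY Γ hab
  have h3 := N.sq_le
  have h4 := N.s_le
  have h6 := N.L8
  rw [abs_of_nonneg (X2_nonneg a b)] at h2
  rw [abs_of_nonneg (X3_nonneg a b)] at h2'
  rw [abs_of_nonneg (Y_nonneg a b)] at h2''
  have h5 : 0 ≤ s ^ 4 * X2 G a b := mul_nonneg (by positivity) (X2_nonneg a b)
  have h7 : 0 ≤ s ^ 6 * X3 G a b := mul_nonneg (by positivity) (X3_nonneg a b)
  have h8 : 0 ≤ s ^ 2 * Y G a b := mul_nonneg (by positivity) (Y_nonneg a b)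
  rw [← abs_of_nonneg (by positivity : 0 ≤ s ^ 6), ← abs_mul, abs_le]
  constructor <;> linarith

theorem sX4 {a b : V} (hab : a ≠ b) : s ^ 8 * |B G (X3 G) a b| ≤ 128 := by
  have hs := N.s_pos
  have h1 := abs_B_le (G := G) (f := X3 G) (c := 32 / s ^ 6) (fun u v huv => by
    rw [le_div_iff₀ (by positivity), mul_comm]; exact N.sX3 Γ huv.ne) a b
  have h2 := N.sY Γ hab
  rw [abs_of_nonneg (Y_nonneg a b)] at h2
  calc s ^ 8 * |B G (X3 G) a b| ≤ s ^ 8 * (2 * (32 / s ^ 6) * Y G a b) := by gcongr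
    _ = 64 * (s ^ 2 * Y G a b) := by field_simp; ring
    _ ≤ 128 := by linarith

theorem g3' {a b : V} (hab : a ≠ b) : s ^ 8 * |gen (fun H => X3 H a b) G| ≤ 1026 := by
  have h1 := abs_le.1 (N.e3 Γ hab)
  have h2 := N.sX4 Γ hab
  have h2' := N.sX3 Γ hab
  have h2'' := N.sY Γ hab
  have h3 := N.sq_le
  have h4 := N.s_le
  have h6 := N.L8
  rw [abs_of_nonneg (B_nonneg X3_nonneg a b)] at h2
  rw [abs_of_nonneg (X3_nonneg a b)] at h2'
  rw [abs_of_nonneg (Y_nonneg a b)] at h2''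
  have h5 : 0 ≤ s ^ 8 * B G (X3 G) a b := mul_nonneg (by positivity) (B_nonneg X3_nonneg a b)
  have h7 : 0 ≤ s ^ 6 * X3 G a b := mul_nonneg (by positivity) (X3_nonneg a b)
  have h8 : 0 ≤ s ^ 2 * Y G a b := mul_nonneg (by positivity) (Y_nonneg a b)
  rw [← abs_of_nonneg (by positivity : 0 ≤ s ^ 8), ← abs_mul, abs_le]
  constructor <;> linarith

theorem beta {a b : V} (hab : a ≠ b) :
    |s ^ 4 * X2 G a b - 2 * s ^ 2 * Y G a b| ≤ L ^ 2 * √(s * s₀) + L ^ 12 * s ^ 2 := by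
  have h := Γ.g2 a b hab
  have hs := N.s_pos
  rw [show s ^ 5 * X2 G a b - 2 * s ^ 3 * Y G a b - 0 =
    s * (s ^ 4 * X2 G a b - 2 * s ^ 2 * Y G a b) by ring, abs_mul, abs_of_pos hs] at h
  exact le_of_mul_le_mul_left h hs

/-- drift of the first variable -/
theorem d1 {a b : V} (hab : a ≠ b) :
    |(s * (1 + x)) ^ 2 * Y G a b + x * s ^ 2 * gen (fun H => (s * (1 + x)) ^ 2 * Y H a b) G -
      s ^ 2 * Y G a b| ≤ x * (2 * L ^ 2 * s) := by
  have hs := N.s_pos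
  have t := abs_le.1 ((tchange (k := 2) (by norm_num) N.hx0 N.x_le hs.le (Y G a b)
    (gen (fun H => Y H a b) G)).trans ((mul_le_mul_of_nonneg_left
      (add_le_add (N.sY Γ hab) (N.g1' Γ hab)) (by positivity)).trans (N.err_le (by norm_num))))
  have h1 := abs_le.1 (N.e1 Γ hab)
  have h2 := abs_le.1 (N.beta Γ hab)
  have h3 : L ^ 2 * √(s * s₀) ≤ L ^ 2 * s := by gcongr; exact N.rho_le
  have h4 : L ^ 12 * s ^ 2 ≤ s := by nlinarith [N.pow_mul_le (k := 12) le_rfl]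
  have h5 := N.sq_le
  have h6 : 2 * s ≤ L ^ 2 * s := by gcongr; nlinarith [N.hL]
  rw [gen_mul, abs_le]
  push_cast at t
  constructor <;> nlinarith [N.hx0]

/-- drift of the second variable -/
theorem d2 {a b : V} (hab : a ≠ b) :
    |(s * (1 + x)) ^ 5 * X2 G a b - 2 * (s * (1 + x)) ^ 3 * Y G a b + x * s ^ 2 *
      gen (fun H => (s * (1 + x)) ^ 5 * X2 H a b - 2 * (s * (1 + x)) ^ 3 * Y H a b) G -
      (s ^ 5 * X2 G a b - 2 * s ^ 3 * Y G a b)| ≤ x * (7 * L ^ 10 * s ^ 3) := by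
  have hs := N.s_pos
  have b1 : s ^ 5 * |X2 G a b| + s ^ 7 * |gen (fun H => X2 H a b) G| ≤ 146 * s := by
    linarith [mul_le_mul_of_nonneg_left (add_le_add (N.sX2 Γ hab) (N.g2' Γ hab)) hs.le]
  have b2 : s ^ 3 * |Y G a b| + s ^ 5 * |gen (fun H => Y H a b) G| ≤ 12 * s := by
    linarith [mul_le_mul_of_nonneg_left (add_le_add (N.sY Γ hab) (N.g1' Γ hab)) hs.le]
  have t1 := abs_le.1 ((tchange (k := 5) (by norm_num) N.hx0 N.x_le hs.le _ _).trans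
    ((mul_le_mul_of_nonneg_left b1 (by positivity)).trans (N.err_le (by positivity))))
  have t2 := abs_le.1 ((tchange (k := 3) (by norm_num) N.hx0 N.x_le hs.le _ _).trans
    ((mul_le_mul_of_nonneg_left b2 (by positivity)).trans (N.err_le (by positivity))))
  have h1 := abs_le.1 (N.e1 Γ hab)
  have h2 := abs_le.1 (N.e2 Γ hab)
  have h3 := abs_le.1 (Γ.g3 a b hab)
  have hL := N.hL
  have h4 : L ^ 9 * s ^ 2 * (2 + 5 * ℓ) ≤ 6 * L ^ 10 * s ^ 2 := by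
    calc L ^ 9 * s ^ 2 * (2 + 5 * ℓ) ≤ L ^ 9 * s ^ 2 * (6 * L) := by
          gcongr; linarith [N.hl]
      _ = _ := by ring
  have h5 : (80 + 8 * L ^ 8) * s ^ 2 ≤ L ^ 10 * s ^ 2 := by
    gcongr
    have : 1 ≤ L ^ 8 := one_le_pow₀ N.one_le
    have h : 100 ≤ L ^ 2 := by nlinarith
    nlinarith [mul_le_mul_of_nonneg_left h (by positivity : 0 ≤ L ^ 8)]
  have key : |s ^ 4 * (5 * X2 G a b + s ^ 2 * gen (fun H => X2 H a b) G) -
      2 * (s ^ 2 * (3 * Y G a b + s ^ 2 * gen (fun H => Y H a b) G))| + 12 * s ^ 2 ≤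
      7 * L ^ 10 * s ^ 2 := by
    rw [← le_sub_iff_add_le, abs_le]
    constructor <;> nlinarith
  have key2 := abs_le.1 (le_sub_iff_add_le.2 key)
  have hxs := mul_nonneg N.hx0 hs.le
  rw [gen_sub, gen_mul, gen_mul, abs_le]
  push_cast at t1 t2
  constructor <;> nlinarith

theorem Bw {a b : V} (hab : a ≠ b) :
    |s ^ 8 * B G (X3 G) a b - 3 * s ^ 6 * X3 G a b + 2 * s ^ 4 * X2 G a b| ≤
      L ^ 9 * s ^ 2 * (5 + 10 * ℓ) := by
  have hs := N.s_pos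
  have h1 := abs_B_le (G := G)
    (f := fun u v => s ^ 6 * X3 G u v - 3 * s ^ 4 * X2 G u v + 2 * s ^ 2 * Y G u v - 0)
    (fun u v huv => Γ.g3 u v huv.ne) a b
  have e : s ^ 8 * B G (X3 G) a b - 3 * s ^ 6 * X3 G a b + 2 * s ^ 4 * X2 G a b = s ^ 2 * B G
      (fun u v => s ^ 6 * X3 G u v - 3 * s ^ 4 * X2 G u v + 2 * s ^ 2 * Y G u v - 0) a b := by
    change s ^ 8 * B G (X3 G) a b - 3 * s ^ 6 * B G (X2 G) a b + 2 * s ^ 4 * B G (Y G) a b = _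
    simp only [B, mul_sum, ← sum_sub_distrib, ← sum_add_distrib]
    exact sum_congr rfl fun _ _ => by ring
  have h2 := (abs_le.1 (Γ.g1 a b hab)).2
  have h3 : L ^ 4 * s * (2 + 5 * ℓ) ≤ 1 / 2 := by
    have := N.pow_mul_le (k := 5) (by norm_num)
    calc L ^ 4 * s * (2 + 5 * ℓ) ≤ L ^ 4 * s * (6 * L) := by
          gcongr; linarith [N.hl, N.hL]
      _ = 6 * (L ^ 5 * s) := by ring
      _ ≤ _ := by linarith
  have hL := N.one_le
  have hl := N.hl0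
  rw [e, abs_mul, abs_of_pos (pow_pos hs 2)]
  calc _ ≤ s ^ 2 * (2 * (L ^ 9 * s ^ 2 * (2 + 5 * ℓ)) * Y G a b) := by gcongr
    _ = 2 * (L ^ 9 * s ^ 2 * (2 + 5 * ℓ)) * (s ^ 2 * Y G a b) := by ring
    _ ≤ 2 * (L ^ 9 * s ^ 2 * (2 + 5 * ℓ)) * (1 + L ^ 4 * s) := by gcongr; linarith
    _ = L ^ 9 * s ^ 2 * (4 + 10 * ℓ + 2 * (L ^ 4 * s * (2 + 5 * ℓ))) := by ring
    _ ≤ _ := mul_le_mul_of_nonneg_left (by linarith) (by positivity)

/-- drift of the third variable -/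
theorem d3 {a b : V} (hab : a ≠ b) :
    |(s * (1 + x)) ^ 6 * X3 G a b - 3 * (s * (1 + x)) ^ 4 * X2 G a b +
      2 * (s * (1 + x)) ^ 2 * Y G a b + x * s ^ 2 *
      gen (fun H => (s * (1 + x)) ^ 6 * X3 H a b - 3 * (s * (1 + x)) ^ 4 * X2 H a b +
        2 * (s * (1 + x)) ^ 2 * Y H a b) G -
      (s ^ 6 * X3 G a b - 3 * s ^ 4 * X2 G a b + 2 * s ^ 2 * Y G a b)| ≤
      x * (L ^ 9 * s ^ 2 * (6 + 10 * ℓ)) := by
  have hs := N.s_pos
  have t1 := abs_le.1 ((tchange (k := 6) (by norm_num) N.hx0 N.x_le hs.le _ _).trans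
    ((mul_le_mul_of_nonneg_left (add_le_add (N.sX3 Γ hab) (N.g3' Γ hab)) (by positivity)).trans
      (N.err_le (by norm_num))))
  have t2 := abs_le.1 ((tchange (k := 4) (by norm_num) N.hx0 N.x_le hs.le _ _).trans
    ((mul_le_mul_of_nonneg_left (add_le_add (N.sX2 Γ hab) (N.g2' Γ hab)) (by positivity)).trans
      (N.err_le (by norm_num))))
  have t3 := abs_le.1 ((tchange (k := 2) (by norm_num) N.hx0 N.x_le hs.le _ _).trans
    ((mul_le_mul_of_nonneg_left (add_le_add (N.sY Γ hab) (N.g1' Γ hab)) (by positivity)).trans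
      (N.err_le (by norm_num))))
  have h1 := abs_le.1 (N.e1 Γ hab)
  have h2 := abs_le.1 (N.e2 Γ hab)
  have h3 := abs_le.1 (N.e3 Γ hab)
  have h4 := abs_le.1 (N.Bw Γ hab)
  have hL := N.hL
  have h5 : (1000 + 96 * L ^ 8) * s ^ 2 ≤ L ^ 9 * s ^ 2 := by
    gcongr
    have : 1 ≤ L ^ 8 := one_le_pow₀ N.one_le
    nlinarith
  have key : |s ^ 6 * (6 * X3 G a b + s ^ 2 * gen (fun H => X3 H a b) G) -
      3 * (s ^ 4 * (4 * X2 G a b + s ^ 2 * gen (fun H => X2 H a b) G)) +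
      2 * (s ^ 2 * (2 * Y G a b + s ^ 2 * gen (fun H => Y H a b) G))| ≤
      L ^ 9 * s ^ 2 * (6 + 10 * ℓ) - 110 * s ^ 2 := by
    rw [abs_le]
    constructor <;> linarith [sq_nonneg s]
  have key2 := abs_le.1 key
  have hx := N.hx0
  have hxs := mul_nonneg hx (sq_nonneg s)
  have k1 := mul_le_mul_of_nonneg_left key2.1 hx
  have k2 := mul_le_mul_of_nonneg_left key2.2 hx
  rw [gen_add, gen_sub, gen_mul, gen_mul, gen_mul, abs_le]
  push_cast at t1 t2 t3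
  generalize s * (1 + x) = s' at *
  constructor <;> linarith

omit N in
theorem sN {a b y : V} (hab : a ≠ b) (hay : a ≠ y) (hby : b ≠ y) :
    s ^ 3 * N3 G a b y ≤ s₀ + L ^ 6 * (s * √(s * s₀) + s ^ 3) := by
  linarith [(abs_le.1 (Γ.g4 a b y hab hay hby)).2]

/-- drift of the fourth variable -/
theorem d4 {a b y : V} (hab : a ≠ b) (hay : a ≠ y) (hby : b ≠ y) :
    |(s * (1 + x)) ^ 3 * N3 G a b y + x * s ^ 2 * gen (fun H => (s * (1 + x)) ^ 3 * N3 H a b y) G -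
      s ^ 3 * N3 G a b y| ≤ x * (8 * L ^ 4 * (s * √(s * s₀) + s ^ 3)) := by
  have hs := N.s_pos
  have hN := N3_nonneg (G := G) a b y
  have h0 := mul_le_mul_of_nonneg_left (drift_N3 (reg Γ) (pow_pos hs 2) hab hay hby)
    (pow_pos hs 5).le
  rw [← abs_of_pos (pow_pos hs 5), ← abs_mul, abs_of_pos (pow_pos hs 5)] at h0
  set Z := s ^ 3 * N3 G a b y with hZ
  have hZ0 : 0 ≤ Z := by positivity
  have h1 : |s ^ 5 * gen (fun H => N3 H a b y) G + 3 * Z| ≤ Z * (3 * (L ^ 4 * s) + 3 * s ^ 2) := by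
    refine le_trans (le_of_eq ?_) (h0.trans (le_of_eq ?_))
    · rw [hZ]; congr 1; field_simp
    · rw [hZ]; field_simp
  have h2 := N.eta_le
  have h3 := N.sq_le
  have h4 := N.s_le
  have h5 := N.s_le_eta
  have h1' := abs_le.1 h1
  have b1 : s ^ 3 * |N3 G a b y| + s ^ 5 * |gen (fun H => N3 H a b y) G| ≤ 5 * Z := by
    rw [abs_of_nonneg hN, ← abs_of_pos (pow_pos hs 5), ← abs_mul]
    have : |s ^ 5 * gen (fun H => N3 H a b y) G| ≤ 4 * Z :=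
      abs_le.2 ⟨by nlinarith, by nlinarith⟩
    linarith
  have t := abs_le.1 ((tchange (k := 3) (by norm_num) N.hx0 N.x_le hs.le _ _).trans
    ((mul_le_mul_of_nonneg_left b1 (by positivity)).trans (N.err_le (by positivity))))
  have h6 := sN Γ hab hay hby
  set E := s * √(s * s₀) + s ^ 3 with hE
  have hE0 : 0 ≤ E := by positivity
  have h7 : s * s₀ ≤ E := by nlinarith [N.le_rho, pow_pos hs 3]
  have h8 : s * Z ≤ 2 * E := by nlinarith [N.pow_mul_le (k := 6) (by norm_num)]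
  have h9 : Z * (3 * (L ^ 4 * s) + 3 * s ^ 2) + s ^ 2 * (5 * Z / 15) ≤ 8 * L ^ 4 * E := by
    calc _ ≤ Z * (4 * (L ^ 4 * s)) := by nlinarith
      _ = 4 * L ^ 4 * (s * Z) := by ring
      _ ≤ 4 * L ^ 4 * (2 * E) := by gcongr
      _ = _ := by ring
  have hx := N.hx0
  rw [gen_mul, abs_le]
  push_cast at t
  constructor <;> nlinarith

end Num

end

end Vale.Agent.P046
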