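import Vale.Agent.P046.Ph1A

/-! Dense phase: increments and variances of the tracked variables. -/

namespace Vale.Agent.P046

open Finset Real
open scoped Classical

variable {V : Type} [Fintype V]

namespace Num

variable {L s₀ s x ℓ : ℝ} (N : Num L s₀ s x ℓ) {G : SimpleGraph V} (Γ : Good L s₀ s ℓ G)
include N

theorem s'_pos : 0 < s * (1 + x) := mul_pos N.s_pos (by linarith [N.hx0])

theorem eta'_le : 2 * (L ^ 4 * s) ≤ 1 / 2 := by linarith [N.eta_le]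

theorem c1 {T : Finset V} (hT : T ∈ tri G) (a b : V) :
    |(s * (1 + x)) ^ 2 * Y (rem G T) a b - (s * (1 + x)) ^ 2 * Y G a b| ≤
      3 * (s * (1 + x)) ^ 2 := by
  rw [← mul_sub, abs_mul, abs_of_pos (pow_pos N.s'_pos 2), mul_comm]
  exact mul_le_mul_of_nonneg_right (inc_Y hT a b) (sq_nonneg _)

theorem c4 {T : Finset V} (hT : T ∈ tri G) (a b y : V) :
    |(s * (1 + x)) ^ 3 * N3 (rem G T) a b y - (s * (1 + x)) ^ 3 * N3 G a b y| ≤
      3 * (s * (1 + x)) ^ 3 := by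
  rw [← mul_sub, abs_mul, abs_of_pos (pow_pos N.s'_pos 3), mul_comm]
  exact mul_le_mul_of_nonneg_right (inc_N3 hT a b y) (pow_pos N.s'_pos 3).le

include Γ

theorem i2 {T : Finset V} (hT : T ∈ tri G) {a b : V} (hab : a ≠ b) :
    |(s * (1 + x)) ^ 4 * X2 (rem G T) a b - (s * (1 + x)) ^ 4 * X2 G a b| ≤
      24 * (s * (1 + x)) ^ 2 := by
  have hs := N.s'_pos
  have := inc_X2 (N.reg' Γ) (pow_pos hs 2) N.eta'_le hT hab
  rw [← mul_sub, abs_mul, abs_of_pos (pow_pos hs 4)]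
  refine (mul_le_mul_of_nonneg_left this (pow_pos hs 4).le).trans (le_of_eq ?_)
  generalize s * (1 + x) = u at *
  field_simp

theorem i3 {T : Finset V} (hT : T ∈ tri G) {a b : V} (hab : a ≠ b) :
    |(s * (1 + x)) ^ 6 * X3 (rem G T) a b - (s * (1 + x)) ^ 6 * X3 G a b| ≤
      144 * (s * (1 + x)) ^ 2 := by
  have hs := N.s'_pos
  have := inc_X3 (N.reg' Γ) (pow_pos hs 2) N.eta'_le hT hab
  rw [← mul_sub, abs_mul, abs_of_pos (pow_pos hs 6)]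
  refine (mul_le_mul_of_nonneg_left this (pow_pos hs 6).le).trans (le_of_eq ?_)
  generalize s * (1 + x) = u at *
  field_simp

theorem c2 {T : Finset V} (hT : T ∈ tri G) {a b : V} (hab : a ≠ b) :
    |(s * (1 + x)) ^ 5 * X2 (rem G T) a b - 2 * (s * (1 + x)) ^ 3 * Y (rem G T) a b -
      ((s * (1 + x)) ^ 5 * X2 G a b - 2 * (s * (1 + x)) ^ 3 * Y G a b)| ≤
      30 * (s * (1 + x)) ^ 3 := by
  have h1 := abs_le.1 (N.c1 hT a b)
  have h2 := abs_le.1 (N.i2 Γ hT hab)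
  have hs := N.s'_pos
  generalize s * (1 + x) = u at *
  have := mul_le_mul_of_nonneg_left h1.1 hs.le
  have := mul_le_mul_of_nonneg_left h1.2 hs.le
  have := mul_le_mul_of_nonneg_left h2.1 hs.le
  have := mul_le_mul_of_nonneg_left h2.2 hs.le
  rw [abs_le]; constructor <;> linarith

theorem c3 {T : Finset V} (hT : T ∈ tri G) {a b : V} (hab : a ≠ b) :
    |(s * (1 + x)) ^ 6 * X3 (rem G T) a b - 3 * (s * (1 + x)) ^ 4 * X2 (rem G T) a b +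
      2 * (s * (1 + x)) ^ 2 * Y (rem G T) a b -
      ((s * (1 + x)) ^ 6 * X3 G a b - 3 * (s * (1 + x)) ^ 4 * X2 G a b +
        2 * (s * (1 + x)) ^ 2 * Y G a b)| ≤ 222 * (s * (1 + x)) ^ 2 := by
  have h1 := abs_le.1 (N.c1 hT a b)
  have h2 := abs_le.1 (N.i2 Γ hT hab)
  have h3 := abs_le.1 (N.i3 Γ hT hab)
  generalize s * (1 + x) = u at *
  rw [abs_le]; constructor <;> linarith

theorem v1 {a b : V} (hab : a ≠ b) :
    x * s ^ 2 * ∑ T ∈ tri G, ((s * (1 + x)) ^ 2 * Y (rem G T) a b -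
      (s * (1 + x)) ^ 2 * Y G a b) ^ 2 ≤ x * (24 * s ^ 2) := by
  have hs := N.s'_pos
  have h1 := var_Y (N.reg' Γ) (pow_pos hs 2) N.eta'_le hab
  have hx := N.hx0
  generalize s * (1 + x) = u at *
  have e : ∑ T ∈ tri G, (u ^ 2 * Y (rem G T) a b - u ^ 2 * Y G a b) ^ 2 =
      u ^ 4 * ∑ T ∈ tri G, (Y (rem G T) a b - Y G a b) ^ 2 := by
    rw [mul_sum]; exact sum_congr rfl fun _ _ => by ring
  rw [e]
  calc _ ≤ x * s ^ 2 * (u ^ 4 * (24 / (u ^ 2) ^ 2)) := by gcongr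
    _ = _ := by field_simp

theorem v4 {a b y : V} (hab : a ≠ b) (hay : a ≠ y) (hby : b ≠ y) :
    x * s ^ 2 * ∑ T ∈ tri G, ((s * (1 + x)) ^ 3 * N3 (rem G T) a b y -
      (s * (1 + x)) ^ 3 * N3 G a b y) ^ 2 ≤ x * (72 * L ^ 6 * (s * √(s * s₀) + s ^ 3) ^ 2) := by
  have hs := N.s'_pos
  have hs0 := N.s_pos
  have h1 := var_N3 (N.reg' Γ) (pow_pos hs 2) N.eta'_le a b y
  have h2 := N.pow_le (k := 4) (by norm_num)
  have hx := N.hx0
  have h3 := sN Γ hab hay hby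
  have h4 := N.rho_sq
  have hN := N3_nonneg (G := G) a b y
  have hL : 1 ≤ L ^ 6 := one_le_pow₀ N.one_le
  have hρ := sqrt_nonneg (s * s₀)
  generalize s * (1 + x) = u at *
  generalize √(s * s₀) = ρ at *
  have e : ∑ T ∈ tri G, (u ^ 3 * N3 (rem G T) a b y - u ^ 3 * N3 G a b y) ^ 2 =
      u ^ 6 * ∑ T ∈ tri G, (N3 (rem G T) a b y - N3 G a b y) ^ 2 := by
    rw [mul_sum]; exact sum_congr rfl fun _ _ => by ring
  have a1 : s ^ 3 * s₀ ≤ (s * ρ + s ^ 3) ^ 2 := by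
    have : s ^ 3 * s₀ = (s * ρ) ^ 2 := by rw [mul_pow, h4]; ring
    rw [this]; gcongr; linarith [pow_pos hs0 3]
  have a2 : s ^ 3 * (s * ρ + s ^ 3) ≤ (s * ρ + s ^ 3) ^ 2 := by
    rw [sq]; gcongr; linarith [mul_nonneg hs0.le hρ]
  rw [e]
  calc _ ≤ x * s ^ 2 * (u ^ 6 * (18 / u ^ 2 * N3 G a b y)) := by gcongr
    _ = x * (18 * u ^ 4 * s ^ 2 * N3 G a b y) := by field_simp
    _ ≤ x * (18 * (2 * s ^ 4) * s ^ 2 * N3 G a b y) := by gcongr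
    _ = x * (36 * s ^ 3 * (s ^ 3 * N3 G a b y)) := by ring
    _ ≤ x * (36 * s ^ 3 * (s₀ + L ^ 6 * (s * ρ + s ^ 3))) := by gcongr
    _ = x * (36 * (s ^ 3 * s₀) + 36 * L ^ 6 * (s ^ 3 * (s * ρ + s ^ 3))) := by ring
    _ ≤ _ := by
      gcongr x * ?_
      nlinarith [sq_nonneg (s * ρ + s ^ 3)]

theorem v2 {a b : V} (hab : a ≠ b) :
    x * s ^ 2 * ∑ T ∈ tri G, ((s * (1 + x)) ^ 5 * X2 (rem G T) a b -
      2 * (s * (1 + x)) ^ 3 * Y (rem G T) a b -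
      ((s * (1 + x)) ^ 5 * X2 G a b - 2 * (s * (1 + x)) ^ 3 * Y G a b)) ^ 2 ≤
      x * (10 ^ 5 * s ^ 2 * (s * s₀ + 2 * L ^ 12 * s ^ 4)) := by
  have hs := N.s'_pos
  have hs0 := N.s_pos
  have h0 := N.h0
  have h2 := N.pow_le (k := 2) (by norm_num)
  have hx := N.hx0
  have h4 := N.rho_sq
  have hL := N.one_le
  have hρ := sqrt_nonneg (s * s₀)
  have hs1 := N.sq_le
  have hs2 := N.s_le
  have h1 := var_b (N.reg' Γ) (pow_pos hs 2) (by linarith) N.eta'_le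
    (Nm := (s₀ + L ^ 6 * (s * √(s * s₀) + s ^ 3)) / s ^ 3) (by positivity)
    (fun a b y hab hay hby => by
      rw [le_div_iff₀ (by positivity), mul_comm]; exact sN Γ hab hay hby) hab
  generalize s * (1 + x) = u at *
  generalize √(s * s₀) = ρ at *
  have e : ∑ T ∈ tri G, (u ^ 5 * X2 (rem G T) a b - 2 * u ^ 3 * Y (rem G T) a b -
      (u ^ 5 * X2 G a b - 2 * u ^ 3 * Y G a b)) ^ 2 = u ^ 2 * ∑ T ∈ tri G,
      ((u ^ 2) ^ 2 * (X2 (rem G T) a b - X2 G a b) - 2 * u ^ 2 * (Y (rem G T) a b - Y G a b)) ^ 2 := by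
    rw [mul_sum]; exact sum_congr rfl fun _ _ => by ring
  have a1 : L ^ 6 * (s * ρ) ≤ (s₀ + L ^ 12 * s ^ 3) / 2 := by
    refine (pow_le_pow_iff_left₀ (by positivity) (by positivity) two_ne_zero).1 ?_
    have : (L ^ 6 * (s * ρ)) ^ 2 = s₀ * (L ^ 12 * s ^ 3) := by
      rw [mul_pow, mul_pow, h4]; ring
    rw [this]; nlinarith [sq_nonneg (s₀ - L ^ 12 * s ^ 3)]
  have b1 : L ^ 6 * s ^ 3 ≤ L ^ 12 * s ^ 3 / 2 := by
    have : 2 ≤ L ^ 6 := le_trans (by linarith [N.hL]) (le_self_pow₀ hL (by norm_num))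
    have h : L ^ 6 * 2 ≤ L ^ 6 * L ^ 6 := by gcongr
    nlinarith [pow_pos hs0 3]
  have b2 : s ^ 3 ≤ L ^ 12 * s ^ 3 := le_mul_of_one_le_left (by positivity) (one_le_pow₀ hL)
  have b3 : L ^ 8 * s ^ 6 ≤ L ^ 12 * s ^ 6 := by gcongr; norm_num
  have a2 : (s₀ + L ^ 6 * (s * ρ + s ^ 3)) / s ^ 3 + 1 ≤ (2 * s₀ + 2 * L ^ 12 * s ^ 3) / s ^ 3 := by
    rw [div_add_one (by positivity)]
    exact div_le_div_of_nonneg_right (by linarith) (by positivity)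
  rw [e]
  calc _ ≤ x * s ^ 2 * (2 * s ^ 2 * (10 ^ 4 * ((2 * (L ^ 4 * s)) ^ 2 +
        2 * s ^ 2 * ((2 * s₀ + 2 * L ^ 12 * s ^ 3) / s ^ 3)))) := by
        gcongr
        exact h1.trans (by gcongr)
    _ = x * (2 * 10 ^ 4 * (4 * (L ^ 8 * s ^ 6) + 4 * s₀ * s ^ 3 + 4 * L ^ 12 * s ^ 6)) := by
        field_simp; ring
    _ ≤ _ := by
      gcongr x * ?_
      have : 0 ≤ s₀ * s ^ 3 := by positivity
      have : 0 ≤ L ^ 12 * s ^ 6 := by positivity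
      linarith

theorem v3 {a b : V} (hab : a ≠ b) :
    x * s ^ 2 * ∑ T ∈ tri G, ((s * (1 + x)) ^ 6 * X3 (rem G T) a b -
      3 * (s * (1 + x)) ^ 4 * X2 (rem G T) a b + 2 * (s * (1 + x)) ^ 2 * Y (rem G T) a b -
      ((s * (1 + x)) ^ 6 * X3 G a b - 3 * (s * (1 + x)) ^ 4 * X2 G a b +
        2 * (s * (1 + x)) ^ 2 * Y G a b)) ^ 2 ≤ x * (10 ^ 9 * L ^ 12 * s ^ 4) := by
  have hs := N.s'_pos
  have hs0 := N.s_pos
  have h0 := N.h0
  have h01 := N.h1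
  have h2 := N.pow_le (k := 2) (by norm_num)
  have hx := N.hx0
  have h4 := N.rho_sq
  have hL := N.one_le
  have hρ := sqrt_nonneg (s * s₀)
  have hs1 := N.sq_le
  have hs2 := N.s_le
  have hL6 : 1 ≤ L ^ 6 := one_le_pow₀ hL
  have hL12 : 1 ≤ L ^ 12 := one_le_pow₀ hL
  have h1 := var_w (N.reg' Γ) (pow_pos hs 2) (by linarith) N.eta'_le
    (κ := s₀ / s ^ 3) (ν := L ^ 6 * (√(s * s₀) / s ^ 2 + 1)) (A := 2 * L ^ 12) (by positivity)
    (by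
      calc s₀ / s ^ 3 * (s * (1 + x)) ^ 2 ≤ s / s ^ 3 * (2 * s ^ 2) := by gcongr
        _ = 2 := by field_simp)
    (by
      have : 0 ≤ √(s * s₀) / s ^ 2 := by positivity
      nlinarith)
    (by linarith)
    (by
      have e : (√(s * s₀) / s ^ 2) ^ 2 = s₀ / s ^ 3 := by rw [div_pow, h4]; field_simp
      rw [mul_pow, ← e, ← pow_mul]
      nlinarith [sq_nonneg (√(s * s₀) / s ^ 2 - 1)])
    (fun a b y hab hay hby => by
      have h := Γ.g4 a b y hab hay hby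
      have e : N3 G a b y - s₀ / s ^ 3 = (s ^ 3 * N3 G a b y - s₀) / s ^ 3 := by field_simp
      rw [e, abs_div, abs_of_pos (pow_pos hs0 3), div_le_iff₀ (pow_pos hs0 3)]
      refine h.trans (le_of_eq ?_)
      field_simp) hab
  generalize s * (1 + x) = u at *
  have e : ∑ T ∈ tri G, (u ^ 6 * X3 (rem G T) a b - 3 * u ^ 4 * X2 (rem G T) a b +
      2 * u ^ 2 * Y (rem G T) a b - (u ^ 6 * X3 G a b - 3 * u ^ 4 * X2 G a b +
        2 * u ^ 2 * Y G a b)) ^ 2 = ∑ T ∈ tri G, ((u ^ 2) ^ 3 * (X3 (rem G T) a b - X3 G a b) -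
      3 * (u ^ 2) ^ 2 * (X2 (rem G T) a b - X2 G a b) +
        2 * u ^ 2 * (Y (rem G T) a b - Y G a b)) ^ 2 :=
    sum_congr rfl fun _ _ => by ring
  have b3 : L ^ 8 * s ^ 4 ≤ L ^ 12 * s ^ 4 := by gcongr; norm_num
  rw [e]
  calc _ ≤ x * s ^ 2 * (10 ^ 8 * ((2 * (L ^ 4 * s)) ^ 2 + 2 * L ^ 12 * (2 * s ^ 2))) := by
        gcongr
        exact h1.trans (by gcongr)
    _ = x * (10 ^ 8 * (4 * (L ^ 8 * s ^ 4) + 4 * (L ^ 12 * s ^ 4))) := by ring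
    _ ≤ _ := by
      gcongr x * ?_
      have : 0 ≤ L ^ 12 * s ^ 4 := by positivity
      linarith

end Num

end Vale.Agent.P046
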