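import Vale.Agent.P046.Basic

/-! Expectation over independent uniform labels. -/

namespace Vale.Agent.P046

open Finset
open scoped Classical

variable {V : Type} [Fintype V] {K : ℕ}

theorem Ev_def (f : (Finset V → Fin K) → ℝ) :
    Ev K f = (∑ l, f l) / Fintype.card (Finset V → Fin K) := by
  rw [Ev, Finset.expect_eq_sum_div_card, card_univ]

theorem card_lab_pos (hK : 0 < K) : (0 : ℝ) < Fintype.card (Finset V → Fin K) := by
  have : Nonempty (Fin K) := ⟨⟨0, hK⟩⟩
  exact_mod_cast Fintype.card_pos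

theorem Ev_const (hK : 0 < K) (c : ℝ) : Ev K (fun _ : Finset V → Fin K => c) = c := by
  have := card_lab_pos (V := V) hK
  rw [Ev_def, sum_const, card_univ, nsmul_eq_mul]; field_simp

theorem Ev_add (f g : (Finset V → Fin K) → ℝ) :
    Ev K (fun l => f l + g l) = Ev K f + Ev K g := by
  simp only [Ev_def, sum_add_distrib, add_div]

theorem Ev_sub (f g : (Finset V → Fin K) → ℝ) :
    Ev K (fun l => f l - g l) = Ev K f - Ev K g := by
  simp only [Ev_def, sum_sub_distrib, sub_div]

theorem Ev_const_mul (c : ℝ) (f : (Finset V → Fin K) → ℝ) :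
    Ev K (fun l => c * f l) = c * Ev K f := by
  simp only [Ev_def, ← mul_sum, mul_div_assoc]

theorem Ev_mul_const (c : ℝ) (f : (Finset V → Fin K) → ℝ) :
    Ev K (fun l => f l * c) = Ev K f * c := by
  simp only [mul_comm _ c, Ev_const_mul]

theorem Ev_sum {ι : Type*} (s : Finset ι) (f : ι → (Finset V → Fin K) → ℝ) :
    Ev K (fun l => ∑ i ∈ s, f i l) = ∑ i ∈ s, Ev K (f i) := by
  simp only [Ev_def, ← sum_div]
  rw [sum_comm]

theorem Ev_mono {f g : (Finset V → Fin K) → ℝ} (h : ∀ l, f l ≤ g l) : Ev K f ≤ Ev K g := by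
  simp only [Ev_def]
  exact div_le_div_of_nonneg_right (sum_le_sum fun l _ => h l) (Nat.cast_nonneg _)

theorem Ev_nonneg {f : (Finset V → Fin K) → ℝ} (h : ∀ l, 0 ≤ f l) : 0 ≤ Ev K f := by
  rw [Ev_def]
  exact div_nonneg (sum_nonneg fun l _ => h l) (Nat.cast_nonneg _)

omit [Fintype V] in
theorem Dep.mono {S S' : Finset (Finset V)} {f : (Finset V → Fin K) → ℝ} (h : Dep S f)
    (hS : S ⊆ S') : Dep S' f := fun l l' hl => h l l' fun T hT => hl T (hS hT)

omit [Fintype V] in
theorem Dep.mul {S : Finset (Finset V)} {f g : (Finset V → Fin K) → ℝ} (hf : Dep S f)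
    (hg : Dep S g) : Dep S fun l => f l * g l := fun l l' hl => by
  simp only [hf l l' hl, hg l l' hl]

theorem Ev_indep {S S' : Finset (Finset V)} {f g : (Finset V → Fin K) → ℝ} (hf : Dep S f)
    (hg : Dep S' g) (hd : Disjoint S S') : Ev K (fun l => f l * g l) = Ev K f * Ev K g := by
  rcases isEmpty_or_nonempty (Finset V → Fin K) with he | he
  · simp [Ev_def]
  have hN : (0 : ℝ) < Fintype.card (Finset V → Fin K) := by exact_mod_cast Fintype.card_pos
  let mix : (Finset V → Fin K) → (Finset V → Fin K) → Finset V → Fin K :=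
    fun l l' T => if T ∈ S then l T else l' T
  let e : (Finset V → Fin K) × (Finset V → Fin K) ≃ (Finset V → Fin K) × (Finset V → Fin K) :=
    Function.Involutive.toPerm (fun p => (mix p.1 p.2, mix p.2 p.1)) fun p => by
      ext T <;> simp only [mix] <;> split_ifs <;> rfl
  have h1 : (∑ l, f l) * ∑ l, g l = Fintype.card (Finset V → Fin K) * ∑ l, f l * g l := by
    rw [sum_mul_sum, ← Fintype.sum_prod_type']
    have h2 : ∀ p : (Finset V → Fin K) × (Finset V → Fin K),
        f p.1 * g p.2 = f (e p).1 * g (e p).1 := by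
      intro p
      congr 1
      · exact hf _ _ fun T hT => (if_pos hT).symm
      · exact hg _ _ fun T hT => (if_neg (disjoint_right.1 hd hT)).symm
    rw [sum_congr rfl fun p _ => h2 p, e.sum_comp fun p => f p.1 * g p.1, Fintype.sum_prod_type]
    simp only [sum_const, card_univ, nsmul_eq_mul, mul_sum]
  simp only [Ev_def]
  rw [div_mul_div_comm, h1]
  field_simp

theorem Ev_prod {ι : Type*} (hK : 0 < K) (s : Finset ι) (S : ι → Finset (Finset V))
    (f : ι → (Finset V → Fin K) → ℝ) (hf : ∀ i ∈ s, Dep (S i) (f i))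
    (hd : ∀ i ∈ s, ∀ j ∈ s, i ≠ j → Disjoint (S i) (S j)) :
    Ev K (fun l => ∏ i ∈ s, f i l) = ∏ i ∈ s, Ev K (f i) := by
  induction s using Finset.induction_on with
  | empty => simp [Ev_const hK]
  | insert i s hi ih =>
    simp only [prod_insert hi]
    rw [Ev_indep (hf i (mem_insert_self _ _)) (S' := s.biUnion S),
      ih (fun j hj => hf j (mem_insert_of_mem hj))
        fun j hj k hk => hd j (mem_insert_of_mem hj) k (mem_insert_of_mem hk)]
    · intro l l' hl
      exact prod_congr rfl fun j hj => hf j (mem_insert_of_mem hj) l l' fun T hT =>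
        hl T (mem_biUnion.2 ⟨j, hj, hT⟩)
    · exact (disjoint_biUnion_right _ _ _).2 fun j hj =>
        hd i (mem_insert_self _ _) j (mem_insert_of_mem hj) fun h => hi (h ▸ hj)

theorem Ev_coord (T : Finset V) {j : ℕ} (hj : j < K) :
    Ev K (fun l : Finset V → Fin K => if (l T : ℕ) = j then (1 : ℝ) else 0) = 1 / K := by
  have hK : 0 < K := by omega
  have h1 : ∀ i : Fin K, Ev K (fun l : Finset V → Fin K => if l T = i then (1 : ℝ) else 0) =
      Ev K (fun l : Finset V → Fin K => if l T = ⟨j, hj⟩ then (1 : ℝ) else 0) := by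
    intro i
    simp only [Ev_def]
    congr 1
    rw [← (Equiv.piCongrRight fun _ : Finset V => Equiv.swap i ⟨j, hj⟩).sum_comp]
    refine sum_congr rfl fun l _ => ?_
    simp [Equiv.swap_apply_eq_iff]
  have h2 : ∑ i : Fin K, Ev K (fun l : Finset V → Fin K => if l T = i then (1 : ℝ) else 0) = 1 := by
    rw [← Ev_sum]; simp [Ev_const hK]
  rw [sum_congr rfl fun i _ => h1 i, sum_const, card_univ, Fintype.card_fin, nsmul_eq_mul] at h2
  have hK' : (0 : ℝ) < K := by exact_mod_cast hK
  simp only [Fin.ext_iff] at h2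
  rw [eq_div_iff hK'.ne', mul_comm, h2]

theorem Ev_coord_mul {S : Finset (Finset V)} {T : Finset V} (hT : T ∉ S) {j : ℕ} (hj : j < K)
    {g : (Finset V → Fin K) → ℝ} (hg : Dep S g) :
    Ev K (fun l => (if (l T : ℕ) = j then (1 : ℝ) else 0) * g l) = Ev K g / K := by
  rw [Ev_indep (S := {T}) _ hg (disjoint_singleton_left.2 hT), Ev_coord T hj]
  · ring
  · intro l l' hl
    simp only [hl T (mem_singleton_self T)]

end Vale.Agent.P046
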