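import Vale.Agent.P046.BP0

/-! Part Sup: sup norm control of the fixed point. -/

namespace Vale.Agent.P046

open Finset Real
open scoped Classical

variable {V : Type} [Fintype V]

namespace SupAux

/-- the error envelope -/
noncomputable def th (D Λ : ℝ) (K j : ℕ) : ℝ := 80 * Λ ^ 5 / D * exp ((2 + 1 / Λ) * sg D K j)

/-- the two sided estimate at time `j` -/
def Good (G : SimpleGraph V) (D Λ : ℝ) (K j : ℕ) : Prop :=
  ∀ a b c, G.Adj a b →
    pp D K j * chi G D K j a b * exp (-th D Λ K j) ≤ fx G K j a b c ∧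
      fx G K j a b c ≤ pp D K j * chi G D K j a b * exp (th D Λ K j)

theorem exp_neg_le {t : ℝ} (h0 : 0 ≤ t) (h1 : t ≤ 1 / 2) : exp (-(t + t ^ 2)) ≤ 1 - t := by
  have h2 : 0 < 1 - t := by linarith
  have h3 : 1 + (t + t ^ 2) + (t + t ^ 2) ^ 2 / 2 ≤ exp (t + t ^ 2) :=
    quadratic_le_exp_of_nonneg (by positivity)
  rw [exp_neg, inv_le_comm₀ (exp_pos _) h2, inv_eq_one_div, div_le_iff₀ h2]
  have h4 : 1 ≤ (1 + (t + t ^ 2) + (t + t ^ 2) ^ 2 / 2) * (1 - t) := by
    have : (1 + (t + t ^ 2) + (t + t ^ 2) ^ 2 / 2) * (1 - t) - 1 =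
        t ^ 2 * (1 / 2 - t / 2 - t ^ 2 / 2 - t ^ 3 / 2) := by ring
    have h5 : 0 ≤ 1 / 2 - t / 2 - t ^ 2 / 2 - t ^ 3 / 2 := by
      have h6 : t ^ 2 ≤ 1 / 4 := by nlinarith
      have h7 : t ^ 3 ≤ 1 / 8 := by nlinarith
      linarith
    nlinarith [mul_nonneg (sq_nonneg t) h5]
  nlinarith

theorem exp_le_two {t : ℝ} (h0 : 0 ≤ t) (h1 : t ≤ 1) : exp t ≤ 1 + t + t ^ 2 := by
  have := abs_exp_sub_one_sub_id_le (x := t) (by rw [abs_of_nonneg h0]; exact h1)
  linarith [(abs_le.1 this).2]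

variable {G : SimpleGraph V} {D Λ : ℝ} {K : ℕ}

theorem th_pos (H : Hyp G D Λ K) (j : ℕ) : 0 < th D Λ K j := by
  have := H.Λ_pos
  have := H.hD
  unfold th; positivity

theorem th_ge (H : Hyp G D Λ K) (j : ℕ) : 80 * Λ ^ 5 / D ≤ th D Λ K j := by
  have h1 := H.Λ_pos
  have h2 := H.hD
  have h3 := H.sg_nonneg j
  unfold th
  exact le_mul_of_one_le_right (by positivity) (one_le_exp (by positivity))

theorem th_le (H : Hyp G D Λ K) {j : ℕ} (hj : j ≤ K) (h : exp (2 * sg D K j) ≤ D / Λ ^ 7) :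
    th D Λ K j ≤ 1 / (100 * Λ) := by
  have h1 := H.Λ_pos
  have h2 := H.hD
  have h3 := H.sg_le hj
  have h4 : exp (1 / Λ * sg D K j) ≤ 3 := by
    have : 1 / Λ * sg D K j ≤ 1 := by
      rw [one_div, inv_mul_le_iff₀ h1]; linarith
    linarith [exp_le_exp.2 this, exp_one_lt_d9]
  unfold th
  rw [add_mul, exp_add]
  calc 80 * Λ ^ 5 / D * (exp (2 * sg D K j) * exp (1 / Λ * sg D K j))
      ≤ 80 * Λ ^ 5 / D * (D / Λ ^ 7 * 3) := by gcongr
    _ = 240 / Λ * (1 / Λ) := by field_simp; ring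
    _ ≤ 1 / 100 * (1 / Λ) := by
      refine mul_le_mul_of_nonneg_right ?_ (by positivity)
      rw [div_le_iff₀ h1]; linarith [H.hΛ]
    _ = 1 / (100 * Λ) := by field_simp

theorem inv_small (H : Hyp G D Λ K) : 1 / (100 * Λ) ≤ 1 / 10 ^ 7 :=
  one_div_le_one_div_of_le (by norm_num) (by linarith [H.hΛ])

theorem Good.le_two (H : Hyp G D Λ K) {j : ℕ} (hj : j ≤ K) (h : exp (2 * sg D K j) ≤ D / Λ ^ 7)
    (g : Good G D Λ K j) {a b : V} (c : V) (hab : G.Adj a b) :
    fx G K j a b c ≤ 7 / 5 * pp D K j := by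
  have h1 := (g a b c hab).2
  have h2 := H.chi_le hj hab
  have h3 := (th_le H hj h).trans (inv_small H)
  have h4 := th_pos H j
  have h5 := exp_le_two h4.le (by linarith)
  have h6 : exp (th D Λ K j) ≤ 11 / 10 := by nlinarith
  have h7 := pp_pos (D := D) (K := K) j
  calc fx G K j a b c ≤ pp D K j * chi G D K j a b * exp (th D Λ K j) := h1
    _ ≤ pp D K j * (101 / 100) * (11 / 10) := by gcongr
    _ ≤ 7 / 5 * pp D K j := by linarith

theorem Good.prod (H : Hyp G D Λ K) {i : ℕ} (hi : i ≤ K) (h : exp (2 * sg D K i) ≤ D / Λ ^ 7)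
    (g : Good G D Λ K i) {a b x : V} (hx : x ∈ nb G a b) :
    |fx G K i a x b * fx G K i b x a - pp D K i ^ 2 * (chi G D K i a x * chi G D K i b x)| ≤
      pp D K i ^ 2 * (chi G D K i a x * chi G D K i b x) *
        (2 * (1 + 1 / (50 * Λ)) * th D Λ K i) := by
  obtain ⟨l1, u1⟩ := g a x b (mem_nb.1 hx).1
  obtain ⟨l2, u2⟩ := g b x a (mem_nb.1 hx).2
  have hp := pp_pos (D := D) (K := K) i
  have c1 := chi_pos (G := G) (D := D) (K := K) i a x
  have c2 := chi_pos (G := G) (D := D) (K := K) i b x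
  have h3 := th_le H hi h
  have h3' := h3.trans (inv_small H)
  have h4 := th_pos H i
  have hΛ := H.Λ_pos
  set t := th D Λ K i
  set P := pp D K i ^ 2 * (chi G D K i a x * chi G D K i b x) with hP
  have hP0 : 0 < P := by positivity
  have e1 : exp t * exp t ≤ 1 + 2 * (1 + 1 / (50 * Λ)) * t := by
    rw [← exp_add]
    have := exp_le_two (t := t + t) (by linarith) (by linarith)
    have h5 : 2 * t ≤ 1 / (50 * Λ) := by
      have : 1 / (50 * Λ) = 2 * (1 / (100 * Λ)) := by field_simp; ring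
      linarith
    nlinarith
  have e2 : 1 - 2 * (1 + 1 / (50 * Λ)) * t ≤ exp (-t) * exp (-t) := by
    rw [← exp_add]
    have := add_one_le_exp (-t + -t)
    have : 0 ≤ 1 / (50 * Λ) * t := by positivity
    linarith
  have up : fx G K i a x b * fx G K i b x a ≤ P * (exp t * exp t) := by
    calc fx G K i a x b * fx G K i b x a
        ≤ (pp D K i * chi G D K i a x * exp t) * (pp D K i * chi G D K i b x * exp t) :=
          mul_le_mul u1 u2 (pi_nonneg hi _ _ _) (by positivity)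
      _ = P * (exp t * exp t) := by rw [hP]; ring
  have lo : P * (exp (-t) * exp (-t)) ≤ fx G K i a x b * fx G K i b x a := by
    calc P * (exp (-t) * exp (-t))
        = (pp D K i * chi G D K i a x * exp (-t)) * (pp D K i * chi G D K i b x * exp (-t)) := by
          rw [hP]; ring
      _ ≤ _ := mul_le_mul l1 l2 (by positivity) (pi_nonneg hi _ _ _)
  rw [abs_le]
  constructor
  · nlinarith [mul_le_mul_of_nonneg_left e2 hP0.le]
  · nlinarith [mul_le_mul_of_nonneg_left e1 hP0.le]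

theorem Z_le (H : Hyp G D Λ K) {i : ℕ} (hi : i ≤ K) {a b : V} (hab : G.Adj a b) :
    (∑ x ∈ nb G a b, chi G D K i a x * chi G D K i b x) / D ≤ 1 + 1 / (50 * Λ) := by
  have h1 := (abs_le.1 (H.sum_chi hi hab)).2
  have h2 := (abs_le.1 (H.rr_abs hab)).2
  have hΛ := H.Λ_pos
  have h1Λ := H.one_le_Λ
  have hL := H.hΛ
  have h3 : 1 / Λ ^ 49 ≤ 1 / (100 * Λ) := by
    refine one_div_le_one_div_of_le (by positivity) ?_
    calc 100 * Λ ≤ Λ * Λ := by gcongr; linarith
      _ = Λ ^ 2 := by ring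
      _ ≤ Λ ^ 49 := pow_le_pow_right₀ h1Λ (by norm_num)
  have h4 : 9 * Λ ^ 3 / D ≤ 1 / (100 * Λ) := by
    rw [div_le_div_iff₀ H.hD (by positivity), one_mul]
    calc 9 * Λ ^ 3 * (100 * Λ) = 900 * Λ ^ 4 := by ring
      _ ≤ Λ * Λ ^ 4 := by gcongr; linarith
      _ = Λ ^ 5 := by ring
      _ ≤ Λ ^ 100 := pow_le_pow_right₀ h1Λ (by norm_num)
      _ ≤ D := H.pow_le_D
  have : 1 / (50 * Λ) = 2 * (1 / (100 * Λ)) := by field_simp; ring
  linarith

/-- the increment of the total hazard at time `i` -/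
theorem Good.step (H : Hyp G D Λ K) {i : ℕ} (hi : i ≤ K) (h : exp (2 * sg D K i) ≤ D / Λ ^ 7)
    (g : Good G D Λ K i) {a b : V} (hab : G.Adj a b) :
    |(∑ x ∈ nb G a b, fx G K i a x b * fx G K i b x a) / K - yy D K i * (1 + rr G D a b)| ≤
      2 * (1 + 1 / (10 * Λ)) * (yy D K i * th D Λ K i) + yy D K i * (9 * Λ ^ 3 / D) := by
  have hD := H.hD
  have hK := H.K_pos'
  have hΛ := H.Λ_pos
  have hy := H.yy_pos i
  have ht := th_pos H i
  have h1 := (abs_sum_le_sum_abs _ _).trans (sum_le_sum fun x (hx : x ∈ nb G a b) =>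
    g.prod H hi h hx)
  rw [sum_sub_distrib, ← mul_sum, ← sum_mul, ← mul_sum] at h1
  have h2 := Z_le H hi hab
  have h3 := H.sum_chi hi hab
  set Z := ∑ x ∈ nb G a b, chi G D K i a x * chi G D K i b x
  set F := ∑ x ∈ nb G a b, fx G K i a x b * fx G K i b x a
  set t := th D Λ K i
  have e0 : pp D K i ^ 2 * Z / K = yy D K i * (Z / D) := by rw [yy]; field_simp
  have e : F / K - yy D K i * (1 + rr G D a b) =
      (F - pp D K i ^ 2 * Z) / K + yy D K i * (Z / D - (1 + rr G D a b)) := by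
    rw [sub_div, e0]; ring
  have h4 : |(F - pp D K i ^ 2 * Z) / K| ≤ 2 * (1 + 1 / (10 * Λ)) * (yy D K i * t) := by
    rw [abs_div, abs_of_pos hK]
    have h5 : (1 + 1 / (50 * Λ)) * (1 + 1 / (50 * Λ)) ≤ 1 + 1 / (10 * Λ) := by
      have e1 : 1 / (10 * Λ) = 5 * (1 / (50 * Λ)) := by field_simp; ring
      have e2 : 1 / (50 * Λ) ≤ 1 := by
        rw [div_le_one (by positivity)]; linarith [H.hΛ]
      have e3 : 0 < 1 / (50 * Λ) := by positivity
      nlinarith
    calc |F - pp D K i ^ 2 * Z| / K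
        ≤ pp D K i ^ 2 * Z * (2 * (1 + 1 / (50 * Λ)) * t) / K := by gcongr
      _ = yy D K i * (Z / D) * (2 * (1 + 1 / (50 * Λ)) * t) := by rw [← e0]; ring
      _ ≤ yy D K i * (1 + 1 / (50 * Λ)) * (2 * (1 + 1 / (50 * Λ)) * t) := by gcongr
      _ = 2 * ((1 + 1 / (50 * Λ)) * (1 + 1 / (50 * Λ))) * (yy D K i * t) := by ring
      _ ≤ _ := by gcongr
  have h6 : |yy D K i * (Z / D - (1 + rr G D a b))| ≤ yy D K i * (9 * Λ ^ 3 / D) := by
    rw [abs_mul, abs_of_pos hy]; gcongr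
  rw [e]
  linarith [abs_add_le ((F - pp D K i ^ 2 * Z) / K) (yy D K i * (Z / D - (1 + rr G D a b)))]

theorem good (H : Hyp G D Λ K) (j : ℕ) :
    j ≤ K → exp (2 * sg D K j) ≤ D / Λ ^ 7 → Good G D Λ K j := by
  induction j using Nat.strong_induction_on with
  | _ j ih =>
  intro hj h a b c hab
  have hD := H.hD
  have hK := H.K_pos'
  have hΛ := H.Λ_pos
  have h1Λ := H.one_le_Λ
  have hi : ∀ i < j, exp (2 * sg D K i) ≤ D / Λ ^ 7 := fun i hi =>
    (exp_le_exp.2 (mul_le_mul_of_nonneg_left (H.sg_mono hi.le) (by norm_num))).trans h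
  have hg : ∀ i < j, Good G D Λ K i := fun i hi' => ih i hi' (by omega) (hi i hi')
  have hs := H.sg_le hj
  have hs0 := H.sg_nonneg j
  have hI : ∀ x ∈ nb G a b, II G K j a b x ≤ 2 * Λ / D := by
    intro x hx
    have : ∀ i ∈ range j, fx G K i a x b * fx G K i b x a ≤ 2 * K / D * yy D K i := by
      intro i hi'
      have hi' := mem_range.1 hi'
      have a1 := (hg i hi').le_two H (by omega) (hi i hi') b (mem_nb.1 hx).1
      have a2 := (hg i hi').le_two H (by omega) (hi i hi') a (mem_nb.1 hx).2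
      have hp := pp_pos (D := D) (K := K) i
      calc fx G K i a x b * fx G K i b x a ≤ (7 / 5 * pp D K i) * (7 / 5 * pp D K i) :=
            mul_le_mul a1 a2 (pi_nonneg (by omega) _ _ _) (by positivity)
        _ ≤ 2 * pp D K i ^ 2 := by nlinarith
        _ = 2 * K / D * yy D K i := by rw [yy]; field_simp
    have h2 := sum_le_sum this
    rw [← mul_sum, sum_yy] at h2
    rw [II, div_le_iff₀ hK]
    calc _ ≤ 2 * K / D * sg D K j := h2
      _ ≤ 2 * K / D * Λ := by gcongr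
      _ = 2 * Λ / D * K := by ring
  have hI0 : ∀ x, 0 ≤ II G K j a b x := fun x => (II_mem hj a b x).1
  have hhalf : 2 * Λ / D ≤ 1 / 2 := by
    rw [div_le_iff₀ hD]
    have : Λ * Λ ≤ D := by
      calc Λ * Λ = Λ ^ 2 := by ring
        _ ≤ Λ ^ 100 := pow_le_pow_right₀ h1Λ (by norm_num)
        _ ≤ D := H.pow_le_D
    nlinarith [H.hΛ]
  set S := ∑ x ∈ nb G a b, II G K j a b x with hS
  have hSe : S = ∑ i ∈ range j, (∑ x ∈ nb G a b, fx G K i a x b * fx G K i b x a) / K := by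
    rw [hS]
    simp only [II]
    rw [← sum_div, ← sum_div, sum_comm]
  have hc : 0 < 2 + 1 / Λ := by positivity
  have hdev : |S - sg D K j * (1 + rr G D a b)| ≤
      (1 - 1 / (4 * Λ)) * th D Λ K j + 9 * Λ ^ 4 / D := by
    rw [hSe, ← sum_yy j, sum_mul, ← sum_sub_distrib]
    refine (abs_sum_le_sum_abs _ _).trans ((sum_le_sum fun i hi' =>
      (hg i (mem_range.1 hi')).step H (by have := mem_range.1 hi'; omega)
        (hi i (mem_range.1 hi')) hab).trans ?_)
    rw [sum_add_distrib, ← mul_sum, ← sum_mul, sum_yy]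
    have b1 : ∑ i ∈ range j, yy D K i * th D Λ K i ≤ th D Λ K j / (2 + 1 / Λ) := by
      have := H.sum_yy_exp hc j
      calc ∑ i ∈ range j, yy D K i * th D Λ K i
          = 80 * Λ ^ 5 / D * ∑ i ∈ range j, yy D K i * exp ((2 + 1 / Λ) * sg D K i) := by
            rw [mul_sum]; exact sum_congr rfl fun i _ => by unfold th; ring
        _ ≤ 80 * Λ ^ 5 / D * (exp ((2 + 1 / Λ) * sg D K j) / (2 + 1 / Λ)) := by gcongr
        _ = _ := by unfold th; ring
    have b2 : 2 * (1 + 1 / (10 * Λ)) / (2 + 1 / Λ) ≤ 1 - 1 / (4 * Λ) := by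
      rw [div_le_iff₀ hc]
      have e1 : 1 / (10 * Λ) = 1 / 10 * (1 / Λ) := by field_simp
      have e2 : 1 / (4 * Λ) = 1 / 4 * (1 / Λ) := by field_simp
      have e3 : 1 / Λ ≤ 1 := by rw [div_le_one hΛ]; exact h1Λ
      have e4 : 0 < 1 / Λ := by positivity
      rw [e1, e2]
      nlinarith
    have b3 : sg D K j * (9 * Λ ^ 3 / D) ≤ 9 * Λ ^ 4 / D := by
      calc sg D K j * (9 * Λ ^ 3 / D) ≤ Λ * (9 * Λ ^ 3 / D) := by gcongr
        _ = _ := by ring
    have ht := th_pos H j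
    have b4 : 2 * (1 + 1 / (10 * Λ)) * ∑ i ∈ range j, yy D K i * th D Λ K i ≤
        (1 - 1 / (4 * Λ)) * th D Λ K j := by
      calc _ ≤ 2 * (1 + 1 / (10 * Λ)) * (th D Λ K j / (2 + 1 / Λ)) := by gcongr
        _ = 2 * (1 + 1 / (10 * Λ)) / (2 + 1 / Λ) * th D Λ K j := by ring
        _ ≤ _ := by gcongr
    linarith
  have hrest : 20 * Λ ^ 4 / D ≤ 1 / (4 * Λ) * th D Λ K j := by
    calc 20 * Λ ^ 4 / D = 1 / (4 * Λ) * (80 * Λ ^ 5 / D) := by field_simp; ring
      _ ≤ _ := by gcongr; exact th_ge H j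
  have hq : 0 < Λ ^ 4 / D := by positivity
  have q1 : 2 * Λ / D ≤ 2 * (Λ ^ 4 / D) := by
    rw [mul_div_assoc]; gcongr; exact le_self_pow₀ h1Λ (by norm_num)
  have q2 : 8 * Λ ^ 2 / D ≤ 8 * (Λ ^ 4 / D) := by
    rw [mul_div_assoc]; gcongr; norm_num
  rw [mul_div_assoc] at hrest hdev
  have hsub : (nb G a b).erase c ⊆ nb G a b := erase_subset _ _
  have hpc : pp D K j * chi G D K j a b = exp (-(sg D K j * (1 + rr G D a b))) := by
    rw [pp, chi, ← exp_add]; congr 1; ring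
  obtain ⟨d1, d2⟩ := abs_le.1 hdev
  rw [hpc, ← exp_add, ← exp_add, pi_eq hj]
  constructor
  · have l1 : ∏ x ∈ (nb G a b).erase c, exp (-(II G K j a b x + II G K j a b x ^ 2)) ≤
        ∏ x ∈ (nb G a b).erase c, (1 - II G K j a b x) :=
      prod_le_prod (fun x _ => (exp_pos _).le) fun x hx =>
        exp_neg_le (hI0 x) ((hI x (hsub hx)).trans hhalf)
    refine le_trans ?_ l1
    rw [← exp_sum, exp_le_exp, sum_neg_distrib]
    have l2 : ∑ x ∈ (nb G a b).erase c, (II G K j a b x + II G K j a b x ^ 2) ≤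
        ∑ x ∈ nb G a b, (II G K j a b x + II G K j a b x ^ 2) :=
      sum_le_sum_of_subset_of_nonneg hsub fun x _ _ => add_nonneg (hI0 x) (sq_nonneg _)
    rw [sum_add_distrib (s := nb G a b)] at l2
    have l3 : ∑ x ∈ nb G a b, II G K j a b x ^ 2 ≤ 8 * Λ ^ 2 / D := by
      have := sum_le_sum (g := fun _ => (2 * Λ / D) ^ 2) fun x (hx : x ∈ nb G a b) =>
        pow_le_pow_left₀ (hI0 x) (hI x hx) 2
      rw [sum_const, nsmul_eq_mul] at this
      change _ ≤ Y G a b * _ at this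
      calc _ ≤ Y G a b * (2 * Λ / D) ^ 2 := this
        _ ≤ 2 * D * (2 * Λ / D) ^ 2 := by gcongr; exact H.Y_le hab
        _ = _ := by field_simp; ring
    linarith
  · have u1 : ∏ x ∈ (nb G a b).erase c, (1 - II G K j a b x) ≤
        ∏ x ∈ (nb G a b).erase c, exp (-II G K j a b x) :=
      prod_le_prod (fun x _ => by linarith [(II_mem (G := G) hj a b x).2]) fun x _ => by
        linarith [add_one_le_exp (-II G K j a b x)]
    refine u1.trans ?_
    rw [← exp_sum, exp_le_exp, sum_neg_distrib]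
    have u2 : S - 2 * Λ / D ≤ ∑ x ∈ (nb G a b).erase c, II G K j a b x := by
      by_cases hc' : c ∈ nb G a b
      · have := add_sum_erase (nb G a b) (II G K j a b) hc'
        linarith [hI c hc']
      · rw [erase_eq_of_notMem hc']
        have : 0 < 2 * Λ / D := by positivity
        linarith
    linarith

end SupAux

open SupAux in
theorem exists_cr {G : SimpleGraph V} {D Λ : ℝ} {K : ℕ} (H : Hyp G D Λ K) :
    ∃ j₁, Cr G D Λ K j₁ := by
  have hD := H.hD
  have hK := H.K_pos'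
  have hΛ := H.Λ_pos
  have h1Λ := H.one_le_Λ
  have hL := H.hΛ
  have h7 : 1 ≤ D / Λ ^ 7 := by
    rw [le_div_iff₀ (by positivity), one_mul]
    exact (pow_le_pow_right₀ h1Λ (by norm_num)).trans H.pow_le_D
  set P : ℕ → Prop := fun j => exp (2 * sg D K j) ≤ D / Λ ^ 7 with hP
  have hP0 : P 0 := by simpa [hP, sg] using h7
  set j₁ := Nat.findGreatest P K with hj₁
  have hle : j₁ ≤ K := Nat.findGreatest_le K
  have hPj : P j₁ := Nat.findGreatest_spec (Nat.zero_le K) hP0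
  have hnK : ¬ P K := by
    have h1 := H.exp_sg_K_ge
    have h2 : D / Λ ^ 7 ≤ D := div_le_self hD.le (one_le_pow₀ h1Λ)
    simp only [hP, not_le]
    linarith
  have hlt : j₁ < K := lt_of_le_of_ne hle fun h => hnK (h ▸ hPj)
  have hn1 : ¬ P (j₁ + 1) := Nat.findGreatest_is_greatest (Nat.lt_succ_self _) hlt
  have hlow : D / Λ ^ 7 / 2 ≤ exp (2 * sg D K j₁) := by
    simp only [hP, not_le] at hn1
    have h1 := H.exp_sg_succ_le j₁
    have h2 := H.DK_le
    have h3 := H.inv_sq_le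
    have h4 : 2 / D ^ 2 = 2 * (1 / D ^ 2) := by ring
    have h5 : 0 < D / K := div_pos hD hK
    have h6 : 2 * (D / K) * (1 + 2 / D ^ 2) ≤ 1 / 2 := by
      rw [h4]; nlinarith
    linarith
  have hp1 : pp D K j₁ ^ 2 ≤ 2 * Λ ^ 7 / D := by
    have h1 := pp_sq_mul (D := D) (K := K) j₁
    have h2 : pp D K j₁ ^ 2 * (D / Λ ^ 7 / 2) ≤ 1 := by
      rw [← h1]; gcongr
    rw [le_div_iff₀ hD]
    have : pp D K j₁ ^ 2 * D = pp D K j₁ ^ 2 * (D / Λ ^ 7 / 2) * (2 * Λ ^ 7) := by field_simp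
    rw [this]
    exact mul_le_of_le_one_left (by positivity) h2
  have hsup : ∀ j ≤ j₁, ∀ a b c, G.Adj a b → fx G K j a b c ≤ 2 * pp D K j := by
    intro j hj a b c hab
    have h1 : exp (2 * sg D K j) ≤ D / Λ ^ 7 :=
      (exp_le_exp.2 (mul_le_mul_of_nonneg_left (H.sg_mono hj) (by norm_num))).trans hPj
    have := (good H j (hj.trans hle) h1).le_two H (hj.trans hle) h1 c hab
    linarith [pp_pos (D := D) (K := K) j]
  have hlate : ∀ j ≤ K, j₁ ≤ j → ∀ a b c, G.Adj a b → fx G K j a b c ≤ 2 * pp D K j₁ :=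
    fun j hj h a b c hab => (pi_anti h hj a b c).trans (hsup j₁ le_rfl a b c hab)
  refine ⟨j₁, hle, hsup, hp1, ?_, ?_⟩
  · intro j hj a b c hab
    have hp := pp_pos (D := D) (K := K) j
    rcases le_total j j₁ with h | h
    · refine (hsup j h a b c hab).trans ?_
      gcongr
      exact le_trans (by linarith) (le_self_pow₀ h1Λ (by norm_num))
    · refine (hlate j hj h a b c hab).trans ?_
      have h1 := H.le_pp_sq hj
      refine abs_le_of_sq_le_sq' ?_ (by positivity) |>.2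
      calc (2 * pp D K j₁) ^ 2 = 4 * pp D K j₁ ^ 2 := by ring
        _ ≤ 4 * (2 * Λ ^ 7 / D) := by gcongr
        _ = 32 * Λ ^ 7 * (1 / (4 * D)) := by field_simp; ring
        _ ≤ Λ * Λ ^ 7 * pp D K j ^ 2 := by gcongr; linarith
        _ = (Λ ^ 4 * pp D K j) ^ 2 := by ring
  · intro j hj a b _ x hx
    have : ∀ i ∈ range j, fx G K i a x b * fx G K i b x a ≤
        4 * K / D * yy D K i + 8 * Λ ^ 7 / D := by
      intro i hi
      have hi := mem_range.1 hi
      have hp := pp_pos (D := D) (K := K) i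
      have hp' := pp_pos (D := D) (K := K) j₁
      have e : 4 * K / D * yy D K i = 4 * pp D K i ^ 2 := by rw [yy]; field_simp
      have q : 0 < 8 * Λ ^ 7 / D := by positivity
      rw [e]
      rcases le_total i j₁ with h | h
      · have := mul_le_mul (hsup i h a x b (mem_nb.1 hx).1) (hsup i h b x a (mem_nb.1 hx).2)
          (pi_nonneg (by omega) _ _ _) (by positivity)
        nlinarith
      · have := mul_le_mul (hlate i (by omega) h a x b (mem_nb.1 hx).1)
          (hlate i (by omega) h b x a (mem_nb.1 hx).2) (pi_nonneg (by omega) _ _ _) (by positivity)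
        have e2 : 8 * Λ ^ 7 / D = 4 * (2 * Λ ^ 7 / D) := by ring
        nlinarith [sq_nonneg (pp D K i)]
    have h2 := sum_le_sum this
    rw [sum_add_distrib, ← mul_sum, sum_yy, sum_const, card_range, nsmul_eq_mul] at h2
    have hjK : (j : ℝ) ≤ K := by exact_mod_cast hj
    have hs := H.sg_le hj
    rw [II, div_le_iff₀ hK]
    have h8 : 4 * Λ + 8 * Λ ^ 7 ≤ Λ ^ 8 := by
      have : Λ ≤ Λ ^ 7 := le_self_pow₀ h1Λ (by norm_num)
      calc 4 * Λ + 8 * Λ ^ 7 ≤ 12 * Λ ^ 7 := by linarith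
        _ ≤ Λ * Λ ^ 7 := by gcongr; linarith
        _ = Λ ^ 8 := by ring
    calc _ ≤ 4 * K / D * sg D K j + j * (8 * Λ ^ 7 / D) := h2
      _ ≤ 4 * K / D * Λ + K * (8 * Λ ^ 7 / D) := by gcongr
      _ = (4 * Λ + 8 * Λ ^ 7) / D * K := by ring
      _ ≤ Λ ^ 8 / D * K := by gcongr

end Vale.Agent.P046
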