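import Vale.Agent.P046.Drift

/-! Part Var: quadratic variation of the second and third order deviations. -/

namespace Vale.Agent.P046

open Finset Real
open scoped Classical

variable {V : Type} [Fintype V]

variable {G : SimpleGraph V} {τ η : ℝ} {T : Finset V}

theorem var_nb (h : Reg G τ η) (hτ : 0 < τ) (hη : η ≤ 1 / 2) {a b : V} (hab : a ≠ b) {f : V → ℝ}
    {c : ℝ} (hc : 0 ≤ c) (hf : ∀ x ∈ nb G a b, f x ≤ c) : ∑ x ∈ nb G a b, f x ≤ 2 / τ * c := by
  have h1 := sum_le_card_nsmul _ _ _ hf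
  rw [nsmul_eq_mul] at h1
  exact h1.trans (mul_le_mul_of_nonneg_right (h.Y_le hτ (by linarith) hab) hc)

theorem var_ite (hT : T ∈ tri G) (s : Finset V) {c : ℝ} (hc : 0 ≤ c) :
    ∑ x ∈ s, (if x ∈ T then c else 0) ≤ 3 * c := by
  rw [← sum_filter, sum_const, nsmul_eq_mul]
  have : (s.filter fun x => x ∈ T).card ≤ 3 :=
    (card_le_card fun x hx => (mem_filter.1 hx).2).trans (card_of_mem_tri hT).le
  exact mul_le_mul_of_nonneg_right (by exact_mod_cast this) hc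

theorem var_pair (h : Reg G τ η) (hτ : 0 < τ) (hη : η ≤ 1 / 2) {a b : V} (hab : a ≠ b) {c : ℝ}
    (hc : 0 ≤ c) : ∑ T ∈ tri G, (if a ∈ T ∧ b ∈ T then c else 0) ≤ 2 / τ * c := by
  rw [← sum_filter, sum_const, nsmul_eq_mul]
  exact mul_le_mul_of_nonneg_right ((card_tri_pair_le hab).trans (h.Y_le hτ (by linarith) hab)) hc

/-- destroyed strips of length two with a fixed pivot -/
noncomputable def varS (G : SimpleGraph V) (T : Finset V) (a u : V) : ℝ :=
  ∑ z ∈ nb G a u, hc G T a z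

theorem varS_nonneg (a u : V) : 0 ≤ varS G T a u := sum_nonneg fun _ _ => hc_nonneg _ _ _

theorem varS_le (h : Reg G τ η) (hτ : 0 < τ) (hη : η ≤ 1 / 2) (hT : T ∈ tri G) {a u : V}
    (hau : a ≠ u) : varS G T a u ≤ 6 / τ :=
  (var_nb h hτ hη hau (by norm_num) fun _ _ => hc_le hT _ _).trans_eq (by ring)

theorem varS_out (hT : T ∈ tri G) {a : V} (ha : a ∉ T) (u : V) : varS G T a u ≤ 9 := by
  refine (sum_le_sum fun z _ => ?_).trans ((var_ite hT (nb G a u) (c := 3) (by norm_num)).trans_eq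
    (by norm_num))
  split_ifs with hz
  · exact hc_le hT _ _
  · rw [hc, filter_eq_empty_iff.2 fun x _ hx => hx.2.elim ha hz]; simp

theorem varS_in (hT : T ∈ tri G) {a : V} (ha : a ∈ T) (u : V) :
    varS G T a u = ∑ y ∈ T.erase a, N3 G a u y := by
  have h1 : ∀ z, hc G T a z = ∑ y ∈ T.erase a, if G.Adj y z then (1 : ℝ) else 0 := fun z => by
    rw [sum_boole, hc]
    congr 2
    ext y
    rw [mem_filter, mem_filter, mem_nb, mem_erase]
    exact ⟨fun hy => ⟨⟨hy.1.1.ne', hy.2.1⟩, hy.1.2.symm⟩, fun hy =>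
      ⟨⟨adj_of_mem_tri hT ha hy.1.2 hy.1.1.symm, hy.2.symm⟩, hy.1.2, Or.inl ha⟩⟩
  simp only [varS, h1]
  rw [sum_comm]
  refine sum_congr rfl fun y _ => ?_
  rw [sum_boole, N3, nb, filter_filter]
  simp only [and_assoc]

theorem varS_near {κ ν : ℝ} (hN : ∀ a b y, a ≠ b → a ≠ y → b ≠ y → |N3 G a b y - κ| ≤ ν)
    (hT : T ∈ tri G) {a u : V} (ha : a ∈ T) (hu : u ∉ T) : |varS G T a u - 2 * κ| ≤ 2 * ν := by
  have h2 : (T.erase a).card = 2 := by rw [card_erase_of_mem ha, card_of_mem_tri hT]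
  have h3 : varS G T a u - 2 * κ = ∑ y ∈ T.erase a, (N3 G a u y - κ) := by
    rw [varS_in hT ha, sum_sub_distrib, sum_const, h2]; simp
  rw [h3]
  refine (abs_sum_le_sum_abs _ _).trans ((sum_le_card_nsmul _ _ ν fun y hy => ?_).trans_eq ?_)
  · exact hN _ _ _ (fun e => hu (e ▸ ha)) (mem_erase.1 hy).1.symm
      fun e => hu (e ▸ (mem_erase.1 hy).2)
  · rw [h2]; simp

theorem sum_varS (h : Reg G τ η) (hτ : 0 < τ) (hη : η ≤ 1 / 2) {a u : V} (hau : a ≠ u) :
    ∑ T ∈ tri G, varS G T a u ≤ 16 / τ ^ 3 := by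
  simp only [varS]
  rw [sum_comm]
  exact (var_nb h hτ hη hau (by positivity) fun z hz =>
    (sum_hc_le a z).trans (X2_le h hτ hη (mem_nb.1 hz).1.ne)).trans_eq (by field_simp; norm_num)

theorem var_B_hc (a b : V) : B G (hc G T) a b = varS G T a b + varS G T b a := by
  rw [B, sum_add_distrib, varS, varS, nb_comm b a]

theorem var_sum_hc (h : Reg G τ η) (hτ : 0 < τ) (hη : η ≤ 1 / 2) {a b : V} (hab : a ≠ b)
    {f : Finset V → ℝ} {c : ℝ} (hf : ∀ T ∈ tri G, |f T| ≤ τ * hc G T a b * c) :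
    ∑ T ∈ tri G, f T ^ 2 ≤ 24 * c ^ 2 := by
  have h1 := var_Y h hτ hη hab
  simp only [Y_rem, sub_sub_cancel_left, neg_sq] at h1
  calc _ ≤ ∑ T ∈ tri G, (τ * c) ^ 2 * hc G T a b ^ 2 := sum_le_sum fun T hT => by
        rw [← sq_abs]
        exact (pow_le_pow_left₀ (abs_nonneg _) (hf T hT) 2).trans_eq (by ring)
    _ ≤ (τ * c) ^ 2 * (24 / τ ^ 2) := by rw [← mul_sum]; gcongr
    _ = _ := by field_simp

theorem var_Y' (h : Reg G τ η) (hτ : 0 < τ) (hT : T ∈ tri G) {a b x : V} (hx : x ∈ nb G a b) :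
    |τ * (Y (rem G T) a x + Y (rem G T) b x) - 2| ≤ 2 * (η + 3 * τ) := by
  have h1 := abs_le.1 (h _ _ (mem_nb.1 hx).1.ne)
  have h2 := abs_le.1 (h _ _ (mem_nb.1 hx).2.ne)
  have h3 := mul_le_mul_of_nonneg_left (hc_le hT a x) hτ.le
  have h4 := mul_le_mul_of_nonneg_left (hc_le hT b x) hτ.le
  have h5 := mul_nonneg hτ.le (hc_nonneg (G := G) T a x)
  have h6 := mul_nonneg hτ.le (hc_nonneg (G := G) T b x)
  rw [Y_rem, Y_rem, abs_le]
  constructor <;> linarith

theorem var_hit {a b : V} {f : V → ℝ} {c : ℝ} (hτ : 0 < τ) (hf : ∀ x ∈ nb G a b, |f x| ≤ c) :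
    |τ * ∑ x ∈ (nb G a b).filter fun x => hit a b x T, f x| ≤ τ * hc G T a b * c := by
  rw [abs_mul, abs_of_pos hτ, mul_assoc]
  refine mul_le_mul_of_nonneg_left ((abs_sum_le_sum_abs _ _).trans ?_) hτ.le
  rw [hc, ← nsmul_eq_mul]
  exact sum_le_card_nsmul _ _ _ fun x hx => hf x (mem_filter.1 hx).1

/-- the small term of the increment -/
noncomputable def varQ (G : SimpleGraph V) (τ : ℝ) (T : Finset V) (a b : V) : ℝ :=
  τ * ∑ x ∈ (nb G a b).filter fun x => hit a b x T, (τ * (Y (rem G T) a x + Y (rem G T) b x) - 2)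

/-- second order deviation -/
noncomputable def varB (G : SimpleGraph V) (τ : ℝ) (a b : V) : ℝ :=
  τ ^ 2 * X2 G a b - 2 * τ * Y G a b

theorem varB_inc (a b : V) : varB (rem G T) τ a b - varB G τ a b =
    -(τ ^ 2 * (varS G T a b + varS G T b a)) - varQ G τ T a b := by
  have h1 := B_rem (G := G) T (Y G) (Y (rem G T)) a b
  have h2 : B G (fun u v => Y (rem G T) u v - Y G u v) a b = -B G (hc G T) a b := by
    simp only [B, Y_rem, ← sum_neg_distrib]
    exact sum_congr rfl fun _ _ => by ring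
  rw [h2, var_B_hc] at h1
  rw [varQ, sum_sub_distrib, ← mul_sum, sum_const, nsmul_eq_mul, ← hc, varB, varB, X2, X2, Y_rem T a]
  linear_combination τ ^ 2 * h1

theorem sum_varQ (h : Reg G τ η) (hτ : 0 < τ) (hη : η ≤ 1 / 2) {a b : V} (hab : a ≠ b) :
    ∑ T ∈ tri G, varQ G τ T a b ^ 2 ≤ 96 * (η + 3 * τ) ^ 2 :=
  (var_sum_hc h hτ hη hab fun _ hT => var_hit hτ fun _ hx => var_Y' h hτ hT hx).trans_eq (by ring)

theorem var_b (h : Reg G τ η) (hτ : 0 < τ) (hτ1 : τ ≤ 1) (hη : η ≤ 1 / 2) {Nm : ℝ} (hNm : 0 ≤ Nm)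
    (hN : ∀ a b y, a ≠ b → a ≠ y → b ≠ y → N3 G a b y ≤ Nm) {a b : V} (hab : a ≠ b) :
    ∑ T ∈ tri G, (τ ^ 2 * (X2 (rem G T) a b - X2 G a b) - 2 * τ * (Y (rem G T) a b - Y G a b)) ^ 2
      ≤ 10 ^ 4 * (η ^ 2 + τ * (Nm + 1)) := by
  have k0 : ∀ T ∈ tri G, ∀ u v, u ∈ T → v ∉ T → varS G T u v + varS G T v u ≤ 2 * Nm + 18 := by
    intro T hT u v hu hv
    have h1 := abs_le.1 (varS_near (κ := 0) (ν := Nm) (fun a b y h1 h2 h3 => by
      rw [sub_zero, abs_of_nonneg (N3_nonneg _ _ _)]; exact hN a b y h1 h2 h3) hT hu hv)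
    linarith [varS_out hT hv u]
  have key : ∀ T ∈ tri G,
      (τ ^ 2 * (X2 (rem G T) a b - X2 G a b) - 2 * τ * (Y (rem G T) a b - Y G a b)) ^ 2 ≤
      2 * τ ^ 4 * ((2 * Nm + 18) * (varS G T a b + varS G T b a) +
        if a ∈ T ∧ b ∈ T then (12 / τ) ^ 2 else 0) + 2 * varQ G τ T a b ^ 2 := by
    intro T hT
    have h1 : τ ^ 2 * (X2 (rem G T) a b - X2 G a b) - 2 * τ * (Y (rem G T) a b - Y G a b) =
        -(τ ^ 2 * (varS G T a b + varS G T b a)) - varQ G τ T a b := by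
      rw [← varB_inc, varB, varB]; ring
    have h0 := add_nonneg (varS_nonneg (G := G) (T := T) a b) (varS_nonneg (G := G) (T := T) b a)
    have h2 : (varS G T a b + varS G T b a) ^ 2 ≤ (2 * Nm + 18) * (varS G T a b + varS G T b a) +
        if a ∈ T ∧ b ∈ T then (12 / τ) ^ 2 else 0 := by
      split_ifs with hh
      · have h3 : varS G T a b + varS G T b a ≤ 12 / τ :=
          (add_le_add (varS_le h hτ hη hT hab) (varS_le h hτ hη hT hab.symm)).trans_eq (by ring)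
        have h4 := pow_le_pow_left₀ h0 h3 2
        nlinarith
      · have h3 : varS G T a b + varS G T b a ≤ 2 * Nm + 18 := by
          by_cases ha : a ∈ T
          · exact k0 T hT a b ha fun hb => hh ⟨ha, hb⟩
          · by_cases hb : b ∈ T
            · linarith [k0 T hT b a hb ha]
            · linarith [varS_out hT ha b, varS_out hT hb a]
        nlinarith
    have h3 := mul_le_mul_of_nonneg_left h2 (show 0 ≤ 2 * τ ^ 4 by positivity)
    rw [h1]
    nlinarith [sq_nonneg (τ ^ 2 * (varS G T a b + varS G T b a) - varQ G τ T a b)]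
  refine (sum_le_sum key).trans ?_
  rw [sum_add_distrib, ← mul_sum, ← mul_sum, sum_add_distrib, ← mul_sum, sum_add_distrib]
  have h1 := sum_varQ h hτ hη hab
  have h2 := var_pair h hτ hη hab (sq_nonneg (12 / τ))
  have h3 := add_le_add (sum_varS h hτ hη hab) (sum_varS h hτ hη hab.symm)
  have h4 := mul_le_mul_of_nonneg_left (add_le_add
    (mul_le_mul_of_nonneg_left h3 (show 0 ≤ 2 * Nm + 18 by positivity)) h2)
    (show 0 ≤ 2 * τ ^ 4 by positivity)
  have h5 : 2 * τ ^ 4 * ((2 * Nm + 18) * (16 / τ ^ 3 + 16 / τ ^ 3) + 2 / τ * (12 / τ) ^ 2) =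
      128 * (τ * Nm) + 1728 * τ := by field_simp; ring
  nlinarith [sq_nonneg (η - 3 * τ), mul_nonneg hτ.le hNm, sq_nonneg η]

theorem var_deg1 (h : Reg G τ η) (hτ : 0 < τ) (hη : η ≤ 1 / 2) (a : V) {c : ℝ} (hc : 0 ≤ c) :
    ∑ T ∈ tri G, (if a ∈ T then c else 0) ≤ (univ.filter (G.Adj a)).card * (2 / τ * c) := by
  calc _ ≤ ∑ T ∈ tri G, ∑ y ∈ univ.filter (G.Adj a), (if a ∈ T ∧ y ∈ T then c else 0) := by
        refine sum_le_sum fun T hT => ?_
        have h0 : ∀ y ∈ univ.filter (G.Adj a), 0 ≤ (if a ∈ T ∧ y ∈ T then c else 0) :=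
          fun y _ => by split_ifs; exacts [hc, le_rfl]
        split_ifs with ha
        · obtain ⟨y, hy, hya⟩ := exists_mem_ne (s := T) (by rw [card_of_mem_tri hT]; norm_num) a
          have h1 := single_le_sum h0 (a := y) (by simpa using adj_of_mem_tri hT ha hy hya.symm)
          rwa [if_pos ⟨ha, hy⟩] at h1
        · exact sum_nonneg h0
    _ ≤ _ := by
        rw [sum_comm, ← nsmul_eq_mul]
        exact sum_le_card_nsmul _ _ _ fun y hy => var_pair h hτ hη (mem_filter.1 hy).2.ne hc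

theorem var_deg2 (h : Reg G τ η) (hτ : 0 < τ) (hη : η ≤ 1 / 2) {a b : V} (hab : a ≠ b) {c : ℝ}
    (hc : 0 ≤ c) (hN : ∀ y, a ≠ y → b ≠ y → c ≤ N3 G a b y) :
    ((univ.filter (G.Adj a)).card - 1 : ℝ) * c ≤ 4 / τ ^ 2 := by
  have h1 : ((univ.filter (G.Adj a)).card - 1 : ℝ) ≤ ((univ.filter (G.Adj a)).erase b).card := by
    have := pred_card_le_card_erase (s := univ.filter (G.Adj a)) (a := b)
    rw [sub_le_iff_le_add]
    exact_mod_cast (by omega)
  have h2 := card_nsmul_le_sum ((univ.filter (G.Adj a)).erase b) (N3 G a b) c fun y hy =>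
    hN y (mem_filter.1 (mem_erase.1 hy).2).2.ne (mem_erase.1 hy).1.symm
  rw [nsmul_eq_mul] at h2
  have h3 : ∑ y ∈ univ.filter (G.Adj a), N3 G a b y = ∑ x ∈ nb G a b, Y G a x := by
    have : ∀ y, N3 G a b y = ∑ x ∈ nb G a b, if G.Adj x y then (1 : ℝ) else 0 := fun y => by
      rw [sum_boole, N3, nb, filter_filter]
      simp only [and_assoc, G.adj_comm y]
    simp only [this]
    rw [sum_comm]
    exact sum_congr rfl fun x _ => by rw [sum_boole, Y, nb, filter_filter]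
  calc _ ≤ _ := mul_le_mul_of_nonneg_right h1 hc
    _ ≤ _ := h2
    _ ≤ _ := sum_le_sum_of_subset_of_nonneg (erase_subset _ _) fun _ _ _ => N3_nonneg _ _ _
    _ = _ := h3
    _ ≤ 2 / τ * (2 / τ) := var_nb h hτ hη hab (by positivity) fun x hx =>
        h.Y_le hτ (by linarith) (mem_nb.1 hx).1.ne
    _ = _ := by field_simp; norm_num

/-- the main term of the increment -/
noncomputable def varM (G : SimpleGraph V) (τ : ℝ) (T : Finset V) (a b : V) : ℝ :=
  varS G T a b - τ * ∑ x ∈ nb G a b, varS G T a x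

theorem sum_varM (h : Reg G τ η) (hτ : 0 < τ) (hτ1 : τ ≤ 1) (hη : η ≤ 1 / 2) {κ ν A : ℝ}
    (hκ : 0 ≤ κ) (hκτ : κ * τ ≤ 2) (hν : 1 ≤ ν) (hA : 1 ≤ A) (hνA : ν ^ 2 ≤ A * (κ + 1))
    (hN : ∀ a b y, a ≠ b → a ≠ y → b ≠ y → |N3 G a b y - κ| ≤ ν) {a b : V} (hab : a ≠ b) :
    ∑ T ∈ tri G, (τ ^ 2 * varM G τ T a b) ^ 2 ≤ 10 ^ 5 * (η ^ 2 + A * τ) := by
  have η0 : 0 ≤ η := (abs_nonneg _).trans (h a b hab)
  obtain ⟨g, hg⟩ : ∃ g : Finset V → ℝ, ∀ T, g T =
    varS G T a b + τ * ∑ x ∈ nb G a b, varS G T a x := ⟨_, fun _ => rfl⟩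
  have g0 : ∀ T, |varM G τ T a b| ≤ g T := fun T => by
    have h1 := varS_nonneg (G := G) (T := T) a b
    have h2 : 0 ≤ τ * ∑ x ∈ nb G a b, varS G T a x :=
      mul_nonneg hτ.le (sum_nonneg fun _ _ => varS_nonneg _ _)
    rw [hg, varM, abs_le]; constructor <;> linarith
  have g1 : ∀ T c, 0 ≤ c → (∀ u, a ≠ u → varS G T a u ≤ c) → g T ≤ 3 * c := fun T c hc hS => by
    have h1 := mul_le_mul_of_nonneg_left
      (var_nb h hτ hη hab hc fun x hx => hS x (mem_nb.1 hx).1.ne) hτ.le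
    rw [show τ * (2 / τ * c) = 2 * c by field_simp] at h1
    linarith [hS b hab, hg T]
  have g2 : ∑ T ∈ tri G, g T ≤ 48 / τ ^ 3 := by
    simp only [hg]
    rw [sum_add_distrib, ← mul_sum, sum_comm]
    have h1 := mul_le_mul_of_nonneg_left (var_nb h hτ hη hab (by positivity) fun x hx =>
      sum_varS h hτ hη (mem_nb.1 hx).1.ne) hτ.le
    exact (add_le_add (sum_varS h hτ hη hab) h1).trans_eq (by field_simp; norm_num)
  have g3 : ∀ T ∈ tri G, a ∈ T → b ∉ T → |varM G τ T a b| ≤ 24 * ν + 2 * η * κ := by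
    intro T hT ha hb
    have h1 : varM G τ T a b = (varS G T a b - 2 * κ) - τ * ∑ x ∈ nb G a b, (varS G T a x - 2 * κ)
        - 2 * κ * (τ * Y G a b - 1) := by
      rw [varM, sum_sub_distrib, sum_const, nsmul_eq_mul, Y]; ring
    have h2 : |∑ x ∈ nb G a b, (varS G T a x - 2 * κ)| ≤ 2 / τ * (2 * ν) + 3 * (6 / τ) := by
      refine (abs_sum_le_sum_abs _ _).trans ((sum_le_sum
        (g := fun x => 2 * ν + if x ∈ T then 6 / τ else 0) fun x hx => ?_).trans ?_)
      · split_ifs with hxT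
        · have h3 := varS_le h hτ hη hT (mem_nb.1 hx).1.ne
          have h4 := varS_nonneg (G := G) (T := T) a x
          have h5 : 2 * κ ≤ 6 / τ := by rw [le_div_iff₀ hτ]; linarith
          rw [abs_le]; constructor <;> linarith
        · simpa using varS_near hN hT ha hxT
      · rw [sum_add_distrib]
        exact add_le_add (var_nb h hτ hη hab (by linarith) fun _ _ => le_rfl)
          (var_ite hT _ (by positivity))
    have h3 := abs_le.1 (varS_near hN hT ha hb)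
    have h4 := abs_le.1 (h a b hab)
    have h5 := mul_le_mul_of_nonneg_left h2 hτ.le
    rw [show τ * (2 / τ * (2 * ν) + 3 * (6 / τ)) = 4 * ν + 18 by field_simp; ring,
      ← abs_of_pos hτ, ← abs_mul, abs_le] at h5
    rw [h1, abs_le]
    constructor <;> nlinarith
  have main : ∀ c1 c3 : ℝ, 27 ≤ c1 → 0 ≤ c3 → (24 * ν + 2 * η * κ ≤ c1 ∨
      (24 * ν + 2 * η * κ) ^ 2 ≤ c3) → ∑ T ∈ tri G, (τ ^ 2 * varM G τ T a b) ^ 2 ≤
        48 * c1 * τ + 648 * τ + (univ.filter (G.Adj a)).card * (2 * τ ^ 3 * c3) := by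
    intro c1 c3 k1 k3 k
    have key : ∀ T ∈ tri G, (τ ^ 2 * varM G τ T a b) ^ 2 ≤ τ ^ 4 * (c1 * g T +
        (if a ∈ T ∧ b ∈ T then (18 / τ) ^ 2 else 0) + if a ∈ T then c3 else 0) := by
      intro T hT
      rw [mul_pow, ← pow_mul, ← sq_abs]
      refine mul_le_mul_of_nonneg_left ?_ (by positivity)
      have a0 := abs_nonneg (varM G τ T a b)
      have a1 := g0 T
      have a2 : 0 ≤ c1 * g T := mul_nonneg (by linarith) (by linarith)
      by_cases ha : a ∈ T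
      · by_cases hb : b ∈ T
        · have h1 := g1 T _ (by positivity) fun u hu => varS_le h hτ hη hT hu
          have h2 := pow_le_pow_left₀ a0 (a1.trans (h1.trans_eq (by ring : _ = 18 / τ))) 2
          rw [if_pos ⟨ha, hb⟩, if_pos ha]; linarith
        · have h1 := g3 T hT ha hb
          rw [if_neg fun h => hb h.2, if_pos ha]
          rcases k with k | k
          · nlinarith
          · linarith [pow_le_pow_left₀ a0 h1 2]
      · have h1 := g1 T 9 (by norm_num) fun u _ => varS_out hT ha u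
        rw [if_neg fun h => ha h.1, if_neg ha]
        nlinarith
    refine (sum_le_sum key).trans ?_
    rw [← mul_sum, sum_add_distrib, sum_add_distrib, ← mul_sum]
    refine (mul_le_mul_of_nonneg_left (add_le_add (add_le_add (mul_le_mul_of_nonneg_left g2
      (by linarith)) (var_pair h hτ hη hab (sq_nonneg _))) (var_deg1 h hτ hη a k3))
      (by positivity)).trans_eq (by field_simp; ring)
  have hAτ : τ ≤ A * τ := le_mul_of_one_le_left hτ.le hA
  by_cases hk : 2 * ν ≤ κ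
  · have κ0 : 0 < κ := by linarith
    have h1 := var_deg2 h hτ hη hab (c := κ / 2) (by positivity) fun y h1 h2 => by
      linarith [(abs_le.1 (hN a b y hab h1 h2)).1]
    generalize ((univ.filter (G.Adj a)).card : ℝ) = d at *
    have h2 : d * (τ ^ 2 * κ) ≤ 10 := by
      rw [le_div_iff₀ (by positivity)] at h1
      nlinarith
    have h3 : (24 * ν + 2 * η * κ) ^ 2 ≤ κ * (2304 * A + 8 * η ^ 2 * κ) := by
      nlinarith [sq_nonneg (24 * ν - 2 * η * κ)]
    have h4 := main 27 _ le_rfl (by positivity) (Or.inr h3)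
    have h5 := mul_le_mul_of_nonneg_right h2
      (show 0 ≤ 2 * τ * (2304 * A + 8 * η ^ 2 * κ) by positivity)
    have h6 := mul_le_mul_of_nonneg_left hκτ (sq_nonneg η)
    nlinarith [sq_nonneg η]
  · have h1 : ν ≤ 3 * A := by nlinarith
    have h2 := main (78 * A) 0 (by linarith) le_rfl (Or.inl (by nlinarith))
    nlinarith [sq_nonneg η]

theorem sum_varU (h : Reg G τ η) (hτ : 0 < τ) (hη : η ≤ 1 / 2) {a b : V} (hab : a ≠ b) :
    ∑ T ∈ tri G, (τ ^ 3 * ∑ x ∈ nb G a b, varS G T x a) ^ 2 ≤ 1152 * τ := by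
  have key : ∀ T ∈ tri G, (τ ^ 3 * ∑ x ∈ nb G a b, varS G T x a) ^ 2 ≤
      36 * τ ^ 5 * ∑ x ∈ nb G a b, varS G T x a := fun T hT => by
    have h1 : ∑ x ∈ nb G a b, varS G T x a ≤ 36 / τ := by
      refine (sum_le_sum (g := fun x => 9 + if x ∈ T then 6 / τ else 0) fun x hx => ?_).trans ?_
      · split_ifs with hxT
        · linarith [varS_le h hτ hη hT (mem_nb.1 hx).1.ne']
        · simpa using varS_out hT hxT a
      · rw [sum_add_distrib]
        exact (add_le_add (var_nb h hτ hη hab (c := 9) (by norm_num) fun _ _ => le_rfl)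
          (var_ite hT _ (by positivity))).trans_eq (by ring)
    have h2 : 0 ≤ ∑ x ∈ nb G a b, varS G T x a := sum_nonneg fun _ _ => varS_nonneg _ _
    generalize ∑ x ∈ nb G a b, varS G T x a = U at *
    calc _ = τ ^ 6 * U * U := by ring
      _ ≤ τ ^ 6 * (36 / τ) * U := by gcongr
      _ = _ := by field_simp
  refine (sum_le_sum key).trans ?_
  rw [← mul_sum, sum_comm]
  exact (mul_le_mul_of_nonneg_left (var_nb h hτ hη hab (by positivity) fun x hx =>
    sum_varS h hτ hη (mem_nb.1 hx).1.ne') (by positivity)).trans_eq (by field_simp; norm_num)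

theorem sum_varBQ (h : Reg G τ η) (hτ : 0 < τ) (hη : η ≤ 1 / 2) {a b : V} (hab : a ≠ b) :
    ∑ T ∈ tri G, (τ * ∑ x ∈ nb G a b, varQ G τ T a x) ^ 2 ≤ 384 * (η + 3 * τ) ^ 2 := by
  have key : ∀ T ∈ tri G, (τ * ∑ x ∈ nb G a b, varQ G τ T a x) ^ 2 ≤
      2 * τ * ∑ x ∈ nb G a b, varQ G τ T a x ^ 2 := fun T _ => by
    have h1 := sq_sum_le_card_mul_sum_sq (s := nb G a b) (f := fun x => varQ G τ T a x)
    have h2 : ((nb G a b).card : ℝ) ≤ 2 / τ := h.Y_le hτ (by linarith) hab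
    calc _ = τ ^ 2 * (∑ x ∈ nb G a b, varQ G τ T a x) ^ 2 := by ring
      _ ≤ τ ^ 2 * (2 / τ * ∑ x ∈ nb G a b, varQ G τ T a x ^ 2) := by
          gcongr
          exact h1.trans (by gcongr)
      _ = _ := by field_simp
  refine (sum_le_sum key).trans ?_
  rw [← mul_sum, sum_comm]
  exact (mul_le_mul_of_nonneg_left (var_nb h hτ hη hab (by positivity) fun x hx =>
    sum_varQ h hτ hη (mem_nb.1 hx).1.ne) (by positivity)).trans_eq (by field_simp; ring)

theorem varB_rem (h : Reg G τ η) (hτ : 0 < τ) (hη : η ≤ 1 / 2) (hT : T ∈ tri G) {a b : V}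
    (hab : a ≠ b) : |varB (rem G T) τ a b| ≤ 4 * (η + 3 * τ) := by
  have η0 : 0 ≤ η := (abs_nonneg _).trans (h a b hab)
  have h1 : varB (rem G T) τ a b =
      τ * ∑ x ∈ nb (rem G T) a b, (τ * (Y (rem G T) a x + Y (rem G T) b x) - 2) := by
    rw [sum_sub_distrib, ← mul_sum, sum_const, nsmul_eq_mul, varB, X2, B, Y]; ring
  have h2 := ((abs_sum_le_sum_abs _ _).trans (sum_le_sum_of_subset_of_nonneg
    (nb_mono (rem_le G T) a b) fun _ _ _ => abs_nonneg _)).trans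
    (var_nb h hτ hη hab (by positivity) fun x hx => var_Y' h hτ hT hx)
  rw [h1, abs_mul, abs_of_pos hτ]
  exact (mul_le_mul_of_nonneg_left h2 hτ.le).trans_eq (by field_simp; ring)

theorem var_w (h : Reg G τ η) (hτ : 0 < τ) (hτ1 : τ ≤ 1) (hη : η ≤ 1 / 2) {κ ν A : ℝ}
    (hκ : 0 ≤ κ) (hκτ : κ * τ ≤ 2) (hν : 1 ≤ ν) (hA : 1 ≤ A) (hνA : ν ^ 2 ≤ A * (κ + 1))
    (hN : ∀ a b y, a ≠ b → a ≠ y → b ≠ y → |N3 G a b y - κ| ≤ ν) {a b : V} (hab : a ≠ b) :
    ∑ T ∈ tri G, (τ ^ 3 * (X3 (rem G T) a b - X3 G a b) - 3 * τ ^ 2 * (X2 (rem G T) a b - X2 G a b)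
      + 2 * τ * (Y (rem G T) a b - Y G a b)) ^ 2 ≤ 10 ^ 8 * (η ^ 2 + A * τ) := by
  have hB : ∀ H : SimpleGraph V, B H (varB H τ) a b = τ ^ 2 * X3 H a b - 2 * τ * X2 H a b := by
    intro H
    simp only [X3, B, varB, mul_sum, ← sum_sub_distrib, show X2 H a b = B H (Y H) a b from rfl]
    exact sum_congr rfl fun _ _ => by ring
  have key : ∀ T ∈ tri G, (τ ^ 3 * (X3 (rem G T) a b - X3 G a b) -
      3 * τ ^ 2 * (X2 (rem G T) a b - X2 G a b) + 2 * τ * (Y (rem G T) a b - Y G a b)) ^ 2 ≤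
      8 * ((τ ^ 2 * varM G τ T a b) ^ 2 + (τ ^ 2 * varM G τ T b a) ^ 2 +
        (τ ^ 3 * ∑ x ∈ nb G a b, varS G T x a) ^ 2 + (τ ^ 3 * ∑ x ∈ nb G b a, varS G T x b) ^ 2 +
        (τ * ∑ x ∈ nb G a b, varQ G τ T a x) ^ 2 + (τ * ∑ x ∈ nb G b a, varQ G τ T b x) ^ 2 +
        varQ G τ T a b ^ 2 + (τ * ∑ x ∈ (nb G a b).filter fun x => hit a b x T,
          (varB (rem G T) τ a x + varB (rem G T) τ b x)) ^ 2) := by
    intro T _
    have h1 := B_rem (G := G) T (varB G τ) (varB (rem G T) τ) a b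
    rw [hB, hB] at h1
    have h2 := varB_inc (G := G) (τ := τ) (T := T) a b
    simp only [varB_inc, B, sum_add_distrib, sum_sub_distrib, sum_neg_distrib, ← mul_sum] at h1
    rw [varB, varB] at h2
    have h3 := sq_sum_le_card_mul_sum_sq (s := (univ : Finset (Fin 8))) (f := ![
      τ ^ 2 * varM G τ T a b, τ ^ 2 * varM G τ T b a, -(τ ^ 3 * ∑ x ∈ nb G a b, varS G T x a),
      -(τ ^ 3 * ∑ x ∈ nb G b a, varS G T x b), -(τ * ∑ x ∈ nb G a b, varQ G τ T a x),
      -(τ * ∑ x ∈ nb G b a, varQ G τ T b x), varQ G τ T a b,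
      -(τ * ∑ x ∈ (nb G a b).filter fun x => hit a b x T,
          (varB (rem G T) τ a x + varB (rem G T) τ b x))])
    simp only [Fin.sum_univ_eight, Matrix.cons_val, neg_sq, card_univ, Fintype.card_fin,
      Nat.cast_ofNat] at h3
    refine le_trans (le_of_eq ?_) h3
    congr 1
    simp only [varM, nb_comm b a, sum_add_distrib]
    linear_combination τ * h1 - h2
  refine (sum_le_sum key).trans ?_
  simp only [← mul_sum _ _ (8 : ℝ), sum_add_distrib (s := tri G)]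
  have h1 := sum_varM h hτ hτ1 hη hκ hκτ hν hA hνA hN hab
  have h2 := sum_varM h hτ hτ1 hη hκ hκτ hν hA hνA hN hab.symm
  have h3 := sum_varU h hτ hη hab
  have h4 := sum_varU h hτ hη hab.symm
  have h5 := sum_varBQ h hτ hη hab
  have h6 := sum_varBQ h hτ hη hab.symm
  have h7 := sum_varQ h hτ hη hab
  have h8 := var_sum_hc h hτ hη hab (c := 8 * (η + 3 * τ)) fun T hT => var_hit hτ
    (f := fun x => varB (rem G T) τ a x + varB (rem G T) τ b x) fun x hx => by
      linarith [abs_add_le (varB (rem G T) τ a x) (varB (rem G T) τ b x),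
        varB_rem h hτ hη hT (mem_nb.1 hx).1.ne, varB_rem h hτ hη hT (mem_nb.1 hx).2.ne]
  have hAτ : τ ≤ A * τ := le_mul_of_one_le_left hτ.le hA
  have h9 : (η + 3 * τ) ^ 2 ≤ 2 * η ^ 2 + 18 * τ := by nlinarith [sq_nonneg (η - 3 * τ)]
  nlinarith [sq_nonneg η]

end Vale.Agent.P046
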